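import Vale.Agent.P296.Defs

namespace Vale.Agent.P296

open Matrix Filter Topology MeasureTheory Metric Laplacian ComplexOrder

theorem Dm_symm (l : V) (i j : Fin 3) : Dm l i j = Dm l j i := by
  fin_cases i <;> fin_cases j <;> simp [Dm, D0, D1, D2]

theorem Dm_smul (t : ℂ) (l : V) : Dm (t • l) = t • Dm l := by
  simp only [Dm, Pi.smul_apply, smul_eq_mul, smul_add, smul_smul]

theorem gd_smul (t : ℂ) (l : V) : gd (t • l) = t ^ 14 * gd l := by
  simp only [gd, Dm_smul, det_smul, Fintype.card_fin, Matrix.smul_apply, Pi.smul_apply,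
    smul_eq_mul, disc4]
  ring

theorem Ry_mul (y : ℂ × ℂ) (l : V) : Ry y *ᵥ l =
    ![bil (Dm l) (m1 y) (m1 y), bil (Dm l) (m1 y) (m2 y), bil (Dm l) (m2 y) (m2 y)] := by
  have h : ∀ u v : V, bil (Dm l) u v = bil D0 u v * l 0 + bil D1 u v * l 1 + bil D2 u v * l 2 := by
    intro u v
    simp only [bil, Dm, add_mulVec, smul_mulVec, dotProduct_add, dotProduct_smul, smul_eq_mul]
    ring
  ext i
  fin_cases i <;> simp [Ry, h, mulVec, dotProduct, Fin.sum_univ_three, Dj]

theorem Ry_Lam (y : ℂ × ℂ) (s : ℂ) : Ry y *ᵥ Lam y s = (Ry y).det • ![1, s, s ^ 2] := by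
  rw [Lam, mulVec_mulVec, mul_adjugate, smul_mulVec, one_mulVec]

theorem gramY {y : ℂ × ℂ} {l : V} {κ s : ℂ} (hκ : κ ≠ 0) (h : Ry y *ᵥ l = κ • ![1, s, s ^ 2]) :
    Dm l = κ • Gram (Yp y) ![0, 1, s] (Cy y l κ) := by
  rw [Ry_mul] at h
  have h0 := congrFun h 0
  have h1 := congrFun h 1
  have h2 := congrFun h 2
  have s1 := Dm_symm l 1 0
  have s2 := Dm_symm l 2 0
  have s3 := Dm_symm l 2 1
  simp [bil, m1, m2, mulVec, dotProduct, Fin.sum_univ_three, s1, s2] at h0 h1 h2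
  ext i j
  fin_cases i <;> fin_cases j <;> simp [Gram, Cy, Yp, s1, s2, s3] <;> field_simp <;>
    first | ring1 | linear_combination 2 * h0 | linear_combination 2 * h1 | linear_combination 2 * h2

theorem gram0 {e b1 b2 : ℂ} {l : V} (h : Rc (Dm l) 1 e = bb b1 b2) :
    Dm l = Gram (A0 e) (B0 e b1 b2) (C0 e l) := by
  have h0 := congrFun h 0
  have h1 := congrFun h 1
  have h2 := congrFun h 2
  have s1 := Dm_symm l 1 0
  have s2 := Dm_symm l 2 0
  have s3 := Dm_symm l 2 1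
  simp [Rc, bb, bil, l1, l2, mulVec, dotProduct, Fin.sum_univ_three, s1, s2, s3] at h0 h1 h2
  ext i j
  fin_cases i <;> fin_cases j <;> simp [Gram, A0, B0, C0, s1, s2, s3] <;>
    first | ring1 | linear_combination h0 | linear_combination h1 + e * h0 |
      linear_combination h2 + 2 * e * h1 + e ^ 2 * h0

theorem gram1 {e b1 b2 : ℂ} {l : V} (h : Rc (Dm l) e 1 = bb b1 b2) :
    Dm l = Gram (A1 e) (B1 e b1 b2) (C1 e l) := by
  have h0 := congrFun h 0
  have h1 := congrFun h 1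
  have h2 := congrFun h 2
  have s1 := Dm_symm l 1 0
  have s2 := Dm_symm l 2 0
  have s3 := Dm_symm l 2 1
  simp [Rc, bb, bil, l1, l2, mulVec, dotProduct, Fin.sum_univ_three, s1, s2, s3] at h0 h1 h2
  ext i j
  fin_cases i <;> fin_cases j <;> simp [Gram, A1, B1, C1, s1, s2, s3] <;>
    first | ring1 | linear_combination h2 | linear_combination h1 + e * h2 |
      linear_combination h0 + 2 * e * h1 + e ^ 2 * h2

theorem det_gram (A B C : V) : (Gram A B C).det = -(det (of ![A, B, C])) ^ 2 / 4 := by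
  simp [det_fin_three, Gram]
  ring

theorem qv_smul (A B C : V) (c : ℂ) (v : Fin 2 → ℂ) : qv A B C (c • v) = c ^ 2 • qv A B C v := by
  ext k
  simp only [qv, Pi.smul_apply, smul_eq_mul]
  ring

theorem qv_inj {A B C : V} (h : det (of ![A, B, C]) ≠ 0) {v w : Fin 2 → ℂ}
    (e : qv A B C v = qv A B C w) : v = w ∨ v = -w := by
  have h1 : (![v 0 ^ 2 - w 0 ^ 2, 2 * (v 0 * v 1 - w 0 * w 1), v 1 ^ 2 - w 1 ^ 2] : V) ᵥ*
      (of ![A, B, C]) = 0 := by
    ext k
    have := congrFun e k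
    simp only [qv] at this
    simp [vecMul, dotProduct, Fin.sum_univ_three]
    linear_combination this
  have h2 := eq_zero_of_vecMul_eq_zero h h1
  have a0 : v 0 ^ 2 - w 0 ^ 2 = 0 := congrFun h2 0
  have a1 : 2 * (v 0 * v 1 - w 0 * w 1) = 0 := congrFun h2 1
  have a2 : v 1 ^ 2 - w 1 ^ 2 = 0 := congrFun h2 2
  have k : (v 0 = w 0 ∧ v 1 = w 1) ∨ (v 0 = -w 0 ∧ v 1 = -w 1) := by grind
  rcases k with k | k
  · left
    ext i
    fin_cases i
    · exact k.1
    · exact k.2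
  · right
    ext i
    fin_cases i
    · exact k.1
    · exact k.2

theorem Herm.smul {f : (Fin 2 → ℂ) → ℝ} (h : Herm f) (c : ℂ) (v : Fin 2 → ℂ) :
    f (c • v) = ‖c‖ ^ 2 * f v := by
  obtain ⟨h1, h2, h3, h⟩ := h
  rw [h, h]
  simp only [Pi.smul_apply, smul_eq_mul, Complex.sq_norm, Complex.normSq_apply, Complex.mul_re,
    Complex.mul_im, Complex.conj_re, Complex.conj_im]
  ring

theorem Herm.mulVec {f : (Fin 2 → ℂ) → ℝ} (h : Herm f) (g : M2) : Herm fun v => f (g *ᵥ v) := by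
  obtain ⟨h1, h2, h3, h⟩ := h
  refine ⟨f ![g 0 0, g 1 0], f ![g 0 1, g 1 1],
    h1 * g 0 0 * (starRingEnd ℂ) (g 0 1) + h2 * g 1 0 * (starRingEnd ℂ) (g 1 1) +
      h3 * g 0 0 * (starRingEnd ℂ) (g 1 1) + (starRingEnd ℂ) (h3 * g 0 1) * g 1 0, fun v => ?_⟩
  dsimp only
  rw [h, h, h]
  simp only [Matrix.mulVec, dotProduct, Fin.sum_univ_two, cons_val_zero, cons_val_one,
    Complex.sq_norm, Complex.normSq_apply, Complex.mul_re, Complex.mul_im, Complex.conj_re,
    Complex.conj_im, Complex.add_re, Complex.add_im, Complex.ofReal_re, Complex.ofReal_im]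
  ring

theorem Herm.sum {ι : Type} (s : Finset ι) {f : ι → (Fin 2 → ℂ) → ℝ} (h : ∀ i ∈ s, Herm (f i)) :
    Herm fun v => ∑ i ∈ s, f i v := by
  classical
  induction s using Finset.induction_on with
  | empty => exact ⟨0, 0, 0, fun v => by simp⟩
  | insert i s hi ih =>
    obtain ⟨a1, a2, a3, ha⟩ := h i (Finset.mem_insert_self _ _)
    obtain ⟨b1, b2, b3, hb⟩ := ih fun j hj => h j (Finset.mem_insert_of_mem hj)
    refine ⟨a1 + b1, a2 + b2, a3 + b3, fun v => ?_⟩
    have := hb v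
    dsimp only at this ⊢
    rw [Finset.sum_insert hi, ha, this, add_mul a3, add_mul (a3 * v 0), Complex.add_re]
    ring

theorem cont_Alg0 : Continuous Ry := by
  refine continuous_matrix fun i j => ?_
  fin_cases i <;> simp [Ry, bil, m1, m2, mulVec, dotProduct, Fin.sum_univ_three] <;> fun_prop

theorem cont_Lam : Continuous fun p : (ℂ × ℂ) × ℂ => Lam p.1 p.2 := by
  unfold Lam
  exact (cont_Alg0.comp continuous_fst).matrix_adjugate.matrix_mulVec (by fun_prop)

theorem an_Alg0 (i j : Fin 3) :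
    ContDiff ℂ (⊤ : WithTop ℕ∞) (fun p : (ℂ × ℂ) × ℂ => Ry p.1 i j) := by
  fin_cases i <;> simp [Ry, bil, m1, m2, mulVec, dotProduct, Fin.sum_univ_three] <;> fun_prop

theorem an_Lam (p : (ℂ × ℂ) × ℂ) : AnalyticAt ℂ (fun p : (ℂ × ℂ) × ℂ => Lam p.1 p.2) p := by
  have h := an_Alg0
  refine ContDiffAt.analyticAt (ContDiff.contDiffAt (contDiff_pi.2 fun i => ?_))
  fin_cases i <;> simp [Lam, adjugate_fin_three, mulVec, dotProduct, Fin.sum_univ_three] <;>
    fun_prop

theorem cont_gd : Continuous gd := by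
  have h : Continuous Dm := by
    unfold Dm
    fun_prop
  have h1 := h.matrix_det
  have h2 : ∀ i j, Continuous fun l => Dm l i j := fun i j => h.matrix_elem i j
  unfold gd disc4
  fun_prop

theorem cont_detRy : Continuous fun y => (Ry y).det := cont_Alg0.matrix_det

end Vale.Agent.P296
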