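import Vale.Agent.P296.X1

namespace Vale.Agent.P296

open Matrix Filter Topology MeasureTheory Metric Laplacian ComplexOrder

theorem B1_an1 (l : Fin 3) (x : V × Zc) : AnalyticAt ℂ (fun x : V × Zc => x.1 l) x :=
  ((ContinuousLinearMap.proj (R := ℂ) (φ := fun _ : Fin 3 => ℂ) l).comp
    (ContinuousLinearMap.fst ℂ V Zc)).analyticAt x

theorem B1_an2 (l : Fin 8) (x : V × Zc) : AnalyticAt ℂ (fun x : V × Zc => x.2 l) x :=
  ((ContinuousLinearMap.proj (R := ℂ) (φ := fun _ : Fin 8 => ℂ) l).comp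
    (ContinuousLinearMap.snd ℂ V Zc)).analyticAt x

theorem B1_an_mu {α : Fin 2 × Fin 3} {x : V × Zc} (h : x ∈ OO α) (l : Fin 3) :
    AnalyticAt ℂ (fun x => mu α x l) x := (B1_an1 l x).div (B1_an1 _ x) h.1

theorem B1_an_et {α : Fin 2 × Fin 3} {x : V × Zc} (h : x ∈ OO α) (k : Fin 2) :
    AnalyticAt ℂ (fun x => et α x k) x := (B1_an2 _ x).div (B1_an2 _ x) h.2

theorem B1_an_b1 {α : Fin 2 × Fin 3} {x : V × Zc} (h : x ∈ OO α) :
    AnalyticAt ℂ (fun x => (bc α x).1) x := (B1_an2 _ x).div (B1_an2 _ x) h.2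

theorem B1_an_b2 {α : Fin 2 × Fin 3} {x : V × Zc} (h : x ∈ OO α) :
    AnalyticAt ℂ (fun x => (bc α x).2) x := (B1_an2 _ x).div (B1_an2 _ x) h.2

theorem B1_an_sh {N : ℕ} {α β : Fin 2 × Fin 3} {x : V × Zc} (h : x ∈ XX N ∩ OO α ∩ OO β) :
    AnalyticAt ℂ (sh α β) x := by
  unfold sh
  by_cases hab : α.1 = β.1
  · simp only [if_pos hab]
    exact analyticAt_const
  · simp only [if_neg hab]
    have h1 := (rep_chg h).1
    have h2 := (rep_eq h.1).2.1
    have h3 : ∀ k, et α x k ≠ 0 := fun k => by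
      by_cases hk : k = α.1
      · rw [hk, h2]; exact one_ne_zero
      · have : k = β.1 := by omega
        rw [this]; exact h1
    exact (analyticAt_const.mul (((B1_an_b1 h.1.2).mul (B1_an_et h.1.2 1)).add
      ((B1_an_b2 h.1.2).mul (B1_an_et h.1.2 0)))).div
      (((B1_an_et h.1.2 0).mul (B1_an_et h.1.2 1)).pow 2) (pow_ne_zero _ (mul_ne_zero (h3 0) (h3 1)))

theorem B1_coc {N : ℕ} {α β γ : Fin 2 × Fin 3} {x : V × Zc}
    (h : x ∈ XX N ∩ OO α ∩ OO β ∩ OO γ) : TT N α β x * TT N β γ x = TT N α γ x := by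
  obtain ⟨b1, b2, b3, b4, b5⟩ := rep_chg h.1
  obtain ⟨c1, c2, -⟩ := rep_chg (N := N) (x := x) (α := α) (β := γ) ⟨h.1.1, h.2⟩
  have a1 := (rep_eq h.1.1).2.1
  have hN := pow_ne_zero N b2
  have hs : et α x β.1 * sh α β x * (et α x γ.1 / et α x β.1) +
      mu α x β.2 ^ N / et α x β.1 * (et α x γ.1 / et α x β.1 * sh β γ x) =
      et α x γ.1 * sh α γ x := by
    simp only [sh, b3, b5]
    generalize mu α x β.2 ^ N = M at hN
    obtain ⟨i, j⟩ := α
    obtain ⟨i', j'⟩ := β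
    obtain ⟨i'', j''⟩ := γ
    fin_cases i <;> fin_cases i' <;> fin_cases i'' <;> simp at a1 b1 c1 ⊢ <;>
      simp only [a1] <;> field_simp <;> ring
  ext i j
  simp only [TT, b3, b4]
  fin_cases i <;> fin_cases j <;> simp [Matrix.mul_apply, Fin.sum_univ_two]
  · field_simp
  · rw [← hs]
    field_simp
    ring
  · rw [div_pow]
    field_simp

theorem bundle (N : ℕ) : Bundle (XX N) OO (TT N) := by
  refine ⟨fun α => ?_, fun α x hx s t hs ht => ⟨mul_ne_zero hs hx.1, mul_ne_zero ht hx.2⟩,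
    fun x hx => (xx_cover hx).imp fun α h => h.1, fun α β i j x hx => ?_,
    fun α β x _ s t hs ht => ?_, fun α x hx => ?_, fun α β γ x hx => B1_coc hx⟩
  · exact (isOpen_ne_fun (by fun_prop) continuous_const).inter
      (isOpen_ne_fun (by fun_prop) continuous_const)
  · have h1 := B1_an_mu hx.1.2 β.2
    have h2 := B1_an_et hx.1.2 β.1
    have h3 := B1_an_sh hx
    fin_cases i <;> fin_cases j
    · exact h1.mul h2
    · exact h1.mul analyticAt_const
    · exact h1.mul (h2.mul h3).neg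
    · exact h1.mul ((h1.pow N).div h2 (rep_chg hx).1)
  · obtain ⟨h1, h2, h3⟩ := rep_sc (x := x) α hs ht
    simp only [TT, sh, h1, h2, h3]
  · obtain ⟨-, h1, h2, -⟩ := rep_eq hx
    ext i j
    fin_cases i <;> fin_cases j <;> simp [TT, sh, h1, h2]

end Vale.Agent.P296
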