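import Vale.Agent.P296.Defs

/-! More definitions for P296. -/

namespace Vale.Agent.P296

open Matrix

noncomputable section

/-- derivative of `Rc M` at `(e0, e1)` in the direction `(f0, f1)` for symmetric `M` -/
def Rp (M : M3) (e0 e1 f0 f1 : ℂ) : V :=
  ![2 * bil M (l1 e0 e1) (l1 f0 f1), bil M (l1 e0 e1) (l2 f0 f1) + bil M (l1 f0 f1) (l2 e0 e1),
    2 * bil M (l2 e0 e1) (l2 f0 f1)]

def dbb (b1 b2 d1 d2 : ℂ) : V := ![2 * b1 * d1, b1 * d2 + b2 * d1, 2 * b2 * d2]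

/-- the sections of `O(2)` -/
def sec (N : ℕ) (k : Fin 3 × Fin 3 × Fin 3) (α : Fin 2 × Fin 3) (x : V × Zc) (v : Fin 2 → ℂ) : ℂ :=
  qc N α x v k.1 * mu α x k.2.1 * mu α x k.2.2

/-- normalised representative in the chart `α` -/
def rep (α : Fin 2 × Fin 3) (x : V × Zc) : (ℂ × ℂ) × V × (ℂ × ℂ) :=
  ((et α x 0, et α x 1), mu α x, bc α x)

end

end Vale.Agent.P296
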