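import Vale.Agent.P296.Alg0
import Vale.Agent.P296.Def2

namespace Vale.Agent.P296

open Matrix Filter Topology MeasureTheory Metric Laplacian ComplexOrder

theorem N1_rank {a b c x y z : ℂ}
    (h00 : (-3) * a + (-3) * b + (-6) * c = x * x)
    (h01 : (4) * a + (4) * b + (0) * c = x * y)
    (h02 : (8) * a + (2) * b + (-6) * c = x * z)
    (h11 : (-5) * a + (-10) * b + (3) * c = y * y)
    (h12 : (-10) * a + (-7) * b + (-1) * c = y * z)
    (h22 : (4) * a + (-10) * b + (-6) * c = z * z)
    : a = 0 ∧ b = 0 ∧ c = 0 := by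
  have e0 : x = 0 := by
    refine pow_eq_zero_iff (n := 4) (by norm_num) |>.1 ?_
    linear_combination ((-1) * x ^ 2 + (-64/343) * x * y + (5965/392) * x * z + (1851/686) * y * z + (1851/343) * z ^ 2) * h00 +
      ((64/343) * x ^ 2 + (8247/686) * x * y + (6087/5488) * x * z + (-5553/1372) * y * z + (86997/5488) * z ^ 2) * h01 +
      ((-5965/392) * x ^ 2 + (-1515/686) * x * y + (-174177/10976) * x * z + (-5553/2744) * y * z + (-9255/2744) * z ^ 2) * h02 +
      ((-8247/686) * x ^ 2 + (12/49) * x * z + (5553/1372) * z ^ 2) * h11 +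
      ((-8775/5488) * x ^ 2 + (5217/1372) * x * y + (-85557/5488) * x * z + (-5553/1372) * y * z) * h12 +
      ((114945/10976) * x ^ 2 + (4833/2744) * x * y + (9255/2744) * x * z) * h22
  have e1 : y = 0 := by
    refine pow_eq_zero_iff (n := 4) (by norm_num) |>.1 ?_
    linear_combination ((-196865/24696) * x * y + (-8545/1764) * x * z + (-4/3) * y ^ 2 + (2147/1372) * y * z + (2147/686) * z ^ 2) * h00 +
      ((196865/24696) * x ^ 2 + (-2357/686) * x * y + (-212651/10976) * x * z + (-47/12) * y ^ 2 + (-6441/2744) * y * z + (100909/10976) * z ^ 2) * h01 +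
      ((8545/1764) * x ^ 2 + (472345/32928) * x * y + (-191/2058) * x * z + (5/6) * y ^ 2 + (-6441/5488) * y * z + (-10735/5488) * z ^ 2) * h02 +
      ((9815/2058) * x ^ 2 + (47/12) * x * y + (-2629/392) * x * z + (-1) * y ^ 2 + (6441/2744) * z ^ 2) * h11 +
      ((3565/1029) * x ^ 2 + (8459/1029) * x * y + (-9199/4116) * x * z + (-6441/2744) * y * z) * h12 +
      ((-3125/1029) * x ^ 2 + (-190489/32928) * x * y + (10735/5488) * x * z) * h22
  have e2 : z = 0 := by
    refine pow_eq_zero_iff (n := 4) (by norm_num) |>.1 ?_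
    linear_combination ((-6400/3087) * x * y + (34064/441) * x * z + (5024/343) * y * z + (28772/1029) * z ^ 2) * h00 +
      ((6400/3087) * x ^ 2 + (19520/343) * x * y + (2312/343) * x * z + (-7536/343) * y * z + (83746/1029) * z ^ 2) * h01 +
      ((-34064/441) * x ^ 2 + (-9472/1029) * x * y + (-81064/1029) * x * z + (-3768/343) * y * z + (-16439/1029) * z ^ 2) * h02 +
      ((-19520/343) * x ^ 2 + (400/147) * x * z + (7536/343) * z ^ 2) * h11 +
      ((-12536/1029) * x ^ 2 + (19808/1029) * x * y + (-80746/1029) * x * z + (-7536/343) * y * z) * h12 +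
      ((52292/1029) * x ^ 2 + (2768/343) * x * y + (16439/1029) * x * z + (-1) * z ^ 2) * h22
  subst e0 e1 e2
  refine ⟨?_, ?_, ?_⟩
  · linear_combination ((-1/6)) * h00 +
      ((-5/24)) * h01 +
      ((1/6)) * h02
  · linear_combination ((1/6)) * h00 +
      ((11/24)) * h01 +
      ((-1/6)) * h02
  · linear_combination ((-1/6)) * h00 +
      ((-1/8)) * h01

theorem net_rank {l B : V} (h : ∀ i j, Dm l i j = B i * B j) : l = 0 := by
  have h00 := h 0 0
  have h01 := h 0 1
  have h02 := h 0 2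
  have h11 := h 1 1
  have h12 := h 1 2
  have h22 := h 2 2
  simp [Dm, D0, D1, D2] at h00 h01 h02 h11 h12 h22
  obtain ⟨e0, e1, e2⟩ := N1_rank (a := l 0) (b := l 1) (c := l 2) (x := B 0) (y := B 1) (z := B 2)
    (by linear_combination h00) (by linear_combination h01) (by linear_combination h02)
    (by linear_combination h11) (by linear_combination h12) (by linear_combination h22)
  ext i
  fin_cases i <;> assumption

theorem q_ne {l A B C : V} (h : Dm l = Gram A B C) (hl : l ≠ 0) (hA : A ≠ 0) {v : Fin 2 → ℂ}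
    (hv : v ≠ 0) : qv A B C v ≠ 0 := by
  intro hq
  have hk : ∀ k, A k * v 0 ^ 2 + 2 * B k * (v 0 * v 1) + C k * v 1 ^ 2 = 0 := fun k =>
    congrFun hq k
  by_cases h1 : v 1 = 0
  · have h0 : v 0 ≠ 0 := by
      intro h0
      apply hv
      ext i
      fin_cases i <;> assumption
    apply hA
    ext k
    have := hk k
    rw [h1] at this
    have h2 : A k * v 0 ^ 2 = 0 := by linear_combination this
    exact (mul_eq_zero.1 h2).resolve_right (pow_ne_zero 2 h0)
  · apply hl
    obtain ⟨t, ht⟩ : ∃ t, v 0 = t * v 1 := ⟨v 0 / v 1, by field_simp⟩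
    have hC : ∀ k, C k = -(A k * t ^ 2 + 2 * B k * t) := by
      intro k
      apply mul_right_cancel₀ (pow_ne_zero 2 h1)
      have := hk k
      rw [ht] at this
      linear_combination this
    refine net_rank (B := fun k => B k + t * A k) fun i j => ?_
    rw [h]
    simp only [Gram, of_apply, hC]
    ring

theorem disc_zero {l : V} {e : ℂ} (h1 : bil (Dm l) (l1 1 e) (nv 1 e) = 0)
    (h2 : bil (Dm l) (l2 1 e) (nv 1 e) = 0) : gd l = 0 := by
  have s10 := Dm_symm l 1 0
  have s20 := Dm_symm l 2 0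
  have s21 := Dm_symm l 2 1
  unfold gd
  generalize Dm l = M at *
  simp [bil, l1, l2, nv, mulVec, dotProduct, Fin.sum_univ_three, s10, s20, s21] at h1 h2
  have e1 : M 1 2 = M 0 0 * e ^ 3 - 3 * M 0 1 * e ^ 2 + (M 0 2 + 2 * M 1 1) * e := by
    linear_combination -h1
  have e2 : M 2 2 = M 0 1 * e ^ 3 - (M 0 2 + 2 * M 1 1) * e ^ 2 + 3 * M 1 2 * e := by
    linear_combination -h2
  have : disc4 (M 0 0) (-M 0 1) ((M 0 2 + 2 * M 1 1) / 3) (-M 1 2) (M 2 2) = 0 := by
    rw [e2, e1, disc4]; ring
  rw [this, mul_zero]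

end Vale.Agent.P296
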