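import Vale.Agent.P296.X1
import Vale.Agent.P296.N1

namespace Vale.Agent.P296

open Matrix Filter Topology MeasureTheory Metric Laplacian ComplexOrder

theorem B2_00 {e b1 b2 m M : ℂ} (L : V) (hM : M ≠ 0) (v : Fin 2 → ℂ) :
    qv (A0 e) (B0 e (b1 / M) (b2 / M)) (C0 e ((M ^ 2)⁻¹ • L))
      ((m • !![1, 0; 0, M])ᵀ *ᵥ v) = m ^ 2 • qv (A0 e) (B0 e b1 b2) (C0 e L) v := by
  ext k
  simp only [qv, C0, Dm_smul, Pi.smul_apply, Matrix.smul_apply, smul_eq_mul]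
  fin_cases k <;> simp [A0, B0, mulVec, dotProduct, Fin.sum_univ_two] <;> field_simp <;> ring

theorem B2_11 {e b1 b2 m M : ℂ} (L : V) (hM : M ≠ 0) (v : Fin 2 → ℂ) :
    qv (A1 e) (B1 e (b1 / M) (b2 / M)) (C1 e ((M ^ 2)⁻¹ • L))
      ((m • !![1, 0; 0, M])ᵀ *ᵥ v) = m ^ 2 • qv (A1 e) (B1 e b1 b2) (C1 e L) v := by
  ext k
  simp only [qv, C1, Dm_smul, Pi.smul_apply, Matrix.smul_apply, smul_eq_mul]
  fin_cases k <;> simp [A1, B1, mulVec, dotProduct, Fin.sum_univ_two] <;> field_simp <;> ring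

theorem B2_01 {e b1 b2 m M : ℂ} {L C : V} (hM : M ≠ 0) (he : e ≠ 0)
    (hD : Dm L = Gram (A0 e) (B0 e b1 b2) C) (v : Fin 2 → ℂ) :
    qv (A1 (1 / e)) (B1 (1 / e) (b1 / (e * M)) (b2 / (e * M))) (C1 (1 / e) ((M ^ 2)⁻¹ • L))
      ((m • !![e, 0; -(e * ((b1 * e + b2) / e ^ 2)), M / e])ᵀ *ᵥ v) =
      m ^ 2 • qv (A0 e) (B0 e b1 b2) C v := by
  ext k
  simp only [qv, C1, Dm_smul, hD, Pi.smul_apply, Matrix.smul_apply, smul_eq_mul]
  fin_cases k <;> simp [Gram, A0, B0, A1, B1, mulVec, dotProduct, Fin.sum_univ_two] <;>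
    field_simp <;> ring

theorem B2_10 {e b1 b2 m M : ℂ} {L C : V} (hM : M ≠ 0) (he : e ≠ 0)
    (hD : Dm L = Gram (A1 e) (B1 e b1 b2) C) (v : Fin 2 → ℂ) :
    qv (A0 (1 / e)) (B0 (1 / e) (b1 / (e * M)) (b2 / (e * M))) (C0 (1 / e) ((M ^ 2)⁻¹ • L))
      ((m • !![e, 0; -(e * (-(b1 + b2 * e) / e ^ 2)), M / e])ᵀ *ᵥ v) =
      m ^ 2 • qv (A1 e) (B1 e b1 b2) C v := by
  ext k
  simp only [qv, C0, Dm_smul, hD, Pi.smul_apply, Matrix.smul_apply, smul_eq_mul]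
  fin_cases k <;> simp [Gram, A0, B0, A1, B1, mulVec, dotProduct, Fin.sum_univ_two] <;>
    field_simp <;> ring

theorem B2_eq {N : ℕ} {x : V × Zc} {α : Fin 2 × Fin 3} (h : x ∈ XX N ∩ OO α) :
    Rc (Dm (pw N (mu α x))) (et α x 0) (et α x 1) = bb (bc α x).1 (bc α x).2 :=
  sub_eq_zero.1 (rep_eq h).1

theorem qc_comp {N : ℕ} {x : V × Zc} {α β : Fin 2 × Fin 3} (h : x ∈ XX N ∩ OO α ∩ OO β)
    (v : Fin 2 → ℂ) : qc N β x ((TT N α β x)ᵀ *ᵥ v) = mu α x β.2 ^ 2 • qc N α x v := by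
  obtain ⟨c1, c2, c3, c4, c5⟩ := rep_chg h
  have e1 := (rep_eq h.1).2.1
  have e2 := B2_eq h.1
  have hM : mu α x β.2 ^ N ≠ 0 := pow_ne_zero _ c2
  have hp : pw N (mu β x) = ((mu α x β.2 ^ N) ^ 2)⁻¹ • pw N (mu α x) := by
    funext l
    simp only [pw, c4, Pi.smul_apply, smul_eq_mul, div_pow, ← pow_mul, mul_comm N 2]
    rw [div_eq_inv_mul]
  obtain ⟨i, j⟩ := α
  obtain ⟨i', j'⟩ := β
  fin_cases i <;> fin_cases i'
  · simp only [Fin.zero_eta] at *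
    rw [e1] at c3 c5
    simp only [qc, TT, sh, if_true, hp, c3, c5, e1, div_one, one_mul, mul_zero, neg_zero]
    exact B2_00 _ hM v
  · simp only [Fin.zero_eta, Fin.mk_one] at *
    rw [e1] at e2
    have := B2_01 (m := mu (0, j) x j') hM c1 (gram0 e2) v
    simpa [qc, TT, sh, hp, c3, c5, e1] using this
  · simp only [Fin.zero_eta, Fin.mk_one] at *
    rw [e1] at e2
    have := B2_10 (m := mu (1, j) x j') hM c1 (gram1 e2) v
    simpa [qc, TT, sh, hp, c3, c5, e1] using this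
  · simp only [Fin.mk_one] at *
    rw [e1] at c3 c5
    simp only [qc, TT, sh, if_true, hp, c3, c5, e1, div_one, one_mul, mul_zero, neg_zero,
      one_ne_zero, if_false]
    exact B2_11 _ hM v

theorem qc_ne {N : ℕ} {x : V × Zc} {α : Fin 2 × Fin 3} (h : x ∈ XX N ∩ OO α) {v : Fin 2 → ℂ}
    (hv : v ≠ 0) : qc N α x v ≠ 0 := by
  obtain ⟨-, e1, e3, -⟩ := rep_eq h
  have e2 := B2_eq h
  have hl : pw N (mu α x) ≠ 0 := fun h0 => by
    have := congrFun h0 α.2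
    simp [pw, e3] at this
  obtain ⟨i, j⟩ := α
  fin_cases i
  · simp only [Fin.zero_eta] at *
    rw [e1] at e2
    simp only [qc, if_true]
    exact q_ne (gram0 e2) hl (fun h0 => by simpa [A0] using congrFun h0 0) hv
  · simp only [Fin.mk_one] at *
    rw [e1] at e2
    simp only [qc, one_ne_zero, if_false]
    exact q_ne (gram1 e2) hl (fun h0 => by simpa [A1] using congrFun h0 2) hv

theorem qc_smul (N : ℕ) (α : Fin 2 × Fin 3) (x : V × Zc) (c : ℂ) (v : Fin 2 → ℂ) :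
    qc N α x (c • v) = c ^ 2 • qc N α x v := by
  unfold qc
  split_ifs <;> exact qv_smul _ _ _ _ _

end Vale.Agent.P296
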