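import Vale.Agent.P296.B2

namespace Vale.Agent.P296

open Matrix Filter Topology MeasureTheory Metric Laplacian ComplexOrder

theorem B3_z (i : Fin 8) (p : (V × Zc) × (Fin 2 → ℂ)) :
    AnalyticAt ℂ (fun p : (V × Zc) × (Fin 2 → ℂ) => p.1.2 i) p :=
  ((ContinuousLinearMap.proj i : Zc →L[ℂ] ℂ) ∘L ContinuousLinearMap.snd ℂ V Zc ∘L
    ContinuousLinearMap.fst ℂ (V × Zc) (Fin 2 → ℂ)).analyticAt p

theorem B3_m (i : Fin 3) (p : (V × Zc) × (Fin 2 → ℂ)) :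
    AnalyticAt ℂ (fun p : (V × Zc) × (Fin 2 → ℂ) => p.1.1 i) p :=
  ((ContinuousLinearMap.proj i : V →L[ℂ] ℂ) ∘L ContinuousLinearMap.fst ℂ V Zc ∘L
    ContinuousLinearMap.fst ℂ (V × Zc) (Fin 2 → ℂ)).analyticAt p

theorem B3_v (i : Fin 2) (p : (V × Zc) × (Fin 2 → ℂ)) :
    AnalyticAt ℂ (fun p : (V × Zc) × (Fin 2 → ℂ) => p.2 i) p :=
  ((ContinuousLinearMap.proj i : (Fin 2 → ℂ) →L[ℂ] ℂ) ∘L
    ContinuousLinearMap.snd ℂ (V × Zc) (Fin 2 → ℂ)).analyticAt p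

theorem B3_mu (α : Fin 2 × Fin 3) (l : Fin 3) {p : (V × Zc) × (Fin 2 → ℂ)} (h : p.1 ∈ OO α) :
    AnalyticAt ℂ (fun p : (V × Zc) × (Fin 2 → ℂ) => mu α p.1 l) p :=
  (B3_m l p).div (B3_m _ p) h.1

theorem B3_qv {E : Type} [NormedAddCommGroup E] [NormedSpace ℂ E] {A B C : E → V}
    {v : E → Fin 2 → ℂ} {p : E} (k : Fin 3) (hA : AnalyticAt ℂ (fun x => A x k) p)
    (hB : AnalyticAt ℂ (fun x => B x k) p) (hC : AnalyticAt ℂ (fun x => C x k) p)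
    (hv : ∀ i, AnalyticAt ℂ (fun x => v x i) p) :
    AnalyticAt ℂ (fun x => qv (A x) (B x) (C x) (v x) k) p :=
  ((hA.mul ((hv 0).pow 2)).add ((analyticAt_const.mul hB).mul ((hv 0).mul (hv 1)))).add
    (hC.mul ((hv 1).pow 2))
theorem an_qc (N : ℕ) (α : Fin 2 × Fin 3) (k : Fin 3) {p : (V × Zc) × (Fin 2 → ℂ)}
    (h : p.1 ∈ OO α) : AnalyticAt ℂ (fun p : (V × Zc) × (Fin 2 → ℂ) => qc N α p.1 p.2 k) p := by
  have he : ∀ i, AnalyticAt ℂ (fun p : (V × Zc) × (Fin 2 → ℂ) => et α p.1 i) p := fun i =>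
    (B3_z _ p).div (B3_z _ p) h.2
  have hb1 : AnalyticAt ℂ (fun p : (V × Zc) × (Fin 2 → ℂ) => (bc α p.1).1) p :=
    (B3_z _ p).div (B3_z _ p) h.2
  have hb2 : AnalyticAt ℂ (fun p : (V × Zc) × (Fin 2 → ℂ) => (bc α p.1).2) p :=
    (B3_z _ p).div (B3_z _ p) h.2
  have hD : ∀ i j, AnalyticAt ℂ (fun p : (V × Zc) × (Fin 2 → ℂ) =>
      Dm (pw N (mu α p.1)) i j) p := fun i j =>
    ((((B3_mu α 0 h).pow _).mul analyticAt_const).add
      (((B3_mu α 1 h).pow _).mul analyticAt_const)).add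
      (((B3_mu α 2 h).pow _).mul analyticAt_const)
  have hA0 : AnalyticAt ℂ (fun p : (V × Zc) × (Fin 2 → ℂ) => A0 (et α p.1 1) k) p := by
    fin_cases k
    exacts [analyticAt_const, he 1, (he 1).pow 2]
  have hA1 : AnalyticAt ℂ (fun p : (V × Zc) × (Fin 2 → ℂ) => A1 (et α p.1 0) k) p := by
    fin_cases k
    exacts [(he 0).pow 2, he 0, analyticAt_const]
  unfold qc
  split_ifs
  · refine B3_qv k hA0 ?_ ((analyticAt_const.mul (hD 0 k)).add (hA0.mul (hD 0 0)))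
      fun i => B3_v i p
    fin_cases k
    exacts [analyticAt_const, hb1.neg, hb2.neg.sub ((he 1).mul hb1)]
  · refine B3_qv k hA1 ?_ ((analyticAt_const.mul (hD 2 k)).add (hA1.mul (hD 2 2)))
      fun i => B3_v i p
    fin_cases k
    exacts [hb1.add ((he 0).mul hb2), hb2, analyticAt_const]

theorem sect (N : ℕ) (k : Fin 3 × Fin 3 × Fin 3) : Sect (XX N) OO (TT N) 2 (sec N k) := by
  refine ⟨fun α p hp => ?_, fun α x _ v c => ?_, fun α x _ v s t hs ht => ?_,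
    fun α β x hx v => ?_⟩
  · exact ((an_qc N α k.1 hp.1.2).mul (B3_mu α _ hp.1.2)).mul (B3_mu α _ hp.1.2)
  · simp only [sec, qc_smul, Pi.smul_apply, smul_eq_mul]
    ring
  · obtain ⟨e1, e2, e3⟩ := rep_sc (x := x) α hs ht
    simp only [sec, qc, e1, e2, e3]
  · obtain ⟨-, h2, -, h4, -⟩ := rep_chg hx
    simp only [sec, qc_comp hx, h4, Pi.smul_apply, smul_eq_mul]
    field_simp

end Vale.Agent.P296
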