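import Vale.Agent.P296.Alg0
import Vale.Agent.P296.Def2

namespace Vale.Agent.P296

open Matrix Filter Topology MeasureTheory Metric Laplacian ComplexOrder

theorem n5_fin {a b c d e : ℂ} (h : ¬ (a = 0 ∧ b = 0 ∧ c = 0 ∧ d = 0 ∧ e = 0)) :
    {x : ℂ | a * x ^ 4 + b * x ^ 3 + c * x ^ 2 + d * x + e = 0}.Finite := by
  let p : Polynomial ℂ := Polynomial.C a * Polynomial.X ^ 4 + Polynomial.C b * Polynomial.X ^ 3 +
    Polynomial.C c * Polynomial.X ^ 2 + Polynomial.C d * Polynomial.X + Polynomial.C e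
  have hp : p ≠ 0 := by
    intro h0
    have h1 := fun n => congrArg (fun q : Polynomial ℂ => q.coeff n) h0
    refine h ⟨?_, ?_, ?_, ?_, ?_⟩
    · simpa [p, Polynomial.coeff_X, Polynomial.coeff_C] using h1 4
    · simpa [p, Polynomial.coeff_X, Polynomial.coeff_C] using h1 3
    · simpa [p, Polynomial.coeff_X, Polynomial.coeff_C] using h1 2
    · simpa [p, Polynomial.coeff_X, Polynomial.coeff_C] using h1 1
    · simpa [p, Polynomial.coeff_X, Polynomial.coeff_C] using h1 0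
  refine (Polynomial.finite_setOfPred_isRoot hp).subset fun x hx => ?_
  simpa [p, Polynomial.IsRoot] using hx

theorem n5_ne {l : V} (hl : l ≠ 0) :
    ¬ (Dm l 0 0 * Dm l 1 1 - Dm l 0 1 ^ 2 = 0 ∧ 2 * (Dm l 0 1 * Dm l 0 2 - Dm l 0 0 * Dm l 1 2) = 0 ∧
      Dm l 0 0 * Dm l 2 2 + 2 * Dm l 0 1 * Dm l 1 2 - Dm l 0 2 ^ 2 - 2 * Dm l 0 2 * Dm l 1 1 = 0 ∧
      2 * (Dm l 0 2 * Dm l 1 2 - Dm l 0 1 * Dm l 2 2) = 0 ∧
      Dm l 1 1 * Dm l 2 2 - Dm l 1 2 ^ 2 = 0) := by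
  rintro ⟨h0, h1, h2, h3, -⟩
  have e00 : Dm l 0 0 = -3 * l 0 - 3 * l 1 - 6 * l 2 := by simp [Dm, D0, D1, D2]; ring
  have e01 : Dm l 0 1 = 4 * l 0 + 4 * l 1 := by simp [Dm, D0, D1, D2]; ring
  have e02 : Dm l 0 2 = 8 * l 0 + 2 * l 1 - 6 * l 2 := by simp [Dm, D0, D1, D2]; ring
  have e11 : Dm l 1 1 = -5 * l 0 - 10 * l 1 + 3 * l 2 := by simp [Dm, D0, D1, D2]; ring
  have e12 : Dm l 1 2 = -10 * l 0 - 7 * l 1 - l 2 := by simp [Dm, D0, D1, D2]; ring
  have e22 : Dm l 2 2 = 4 * l 0 - 10 * l 1 - 6 * l 2 := by simp [Dm, D0, D1, D2]; ring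
  simp only [e00, e01, e02, e11, e12, e22] at h0 h1 h2 h3
  have k0 : l 0 ^ 3 = 0 := by
    linear_combination ((351283 / 3161088) * l 0 + (-82015 / 6322176) * l 1 + (-227939 / 2107392) * l 2) * h0 +
      ((621871 / 12644352) * l 0 + (-76645 / 6322176) * l 1 + (-33225 / 1404928) * l 2) * h1 +
      ((-3887 / 150528) * l 0 + (-1173 / 87808) * l 1 + (-65291 / 1053696) * l 2) * h2 +
      ((719 / 131712) * l 0) * h3
  have k1 : l 1 ^ 3 = 0 := by
    linear_combination ((-15420025 / 41094144) * l 0 + (-13119683 / 82188288) * l 1 + (3090761 / 27396096) * l 2) * h0 +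
      ((-24251341 / 164376576) * l 0 + (-6935105 / 82188288) * l 1 + (1362939 / 18264064) * l 2) * h1 +
      ((264101 / 1956864) * l 0 + (118821 / 1141504) * l 1 + (1113425 / 13698048) * l 2) * h2 +
      ((-93389 / 1712256) * l 0) * h3
  have k2 : l 2 ^ 3 = 0 := by
    linear_combination ((-24016543 / 41094144) * l 0 + (18959035 / 82188288) * l 1 + (56906093 / 82188288) * l 2) * h0 +
      ((-15891193 / 54792192) * l 0 + (12099785 / 82188288) * l 1 + (2101453 / 18264064) * l 2) * h1 +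
      ((420169 / 5870592) * l 0 + (614599 / 10273536) * l 1 + (5648039 / 13698048) * l 2) * h2 +
      ((-17881 / 570752) * l 0) * h3
  apply hl
  ext i
  fin_cases i
  · exact pow_eq_zero_iff (by norm_num) |>.1 k0
  · exact pow_eq_zero_iff (by norm_num) |>.1 k1
  · exact pow_eq_zero_iff (by norm_num) |>.1 k2

theorem quartic_fin {l : V} (hl : l ≠ 0) :
    {e : ℂ | Rc (Dm l) 1 e 0 * Rc (Dm l) 1 e 2 = Rc (Dm l) 1 e 1 ^ 2}.Finite ∧
    {e : ℂ | Rc (Dm l) e 1 0 * Rc (Dm l) e 1 2 = Rc (Dm l) e 1 1 ^ 2}.Finite := by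
  have s1 := Dm_symm l 1 0
  have s2 := Dm_symm l 2 0
  have s3 := Dm_symm l 2 1
  have h := n5_ne hl
  constructor
  · refine (n5_fin h).subset fun e he => ?_
    simp [Rc, bil, l1, l2, mulVec, dotProduct, Fin.sum_univ_three, s1, s2, s3] at he
    simp only [Set.mem_ofPred_eq]
    linear_combination he
  · refine (n5_fin fun k => h ⟨k.2.2.2.2, k.2.2.2.1, k.2.2.1, k.2.1, k.1⟩).subset fun e he => ?_
    simp [Rc, bil, l1, l2, mulVec, dotProduct, Fin.sum_univ_three, s1, s2, s3] at he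
    simp only [Set.mem_ofPred_eq]
    linear_combination he

theorem qv_fin {A B C : V} (h : ∀ v, v ≠ 0 → qv A B C v ≠ 0) (y : V) :
    ∃ P : Set (Fin 2 → ℂ), P.Finite ∧ ∀ v, v ≠ 0 → (∃ c : ℂ, qv A B C v = c • y) →
      ∃ p ∈ P, ∃ c : ℂ, v = c • p := by
  by_cases hy : y = 0
  · refine ⟨∅, Set.finite_empty, ?_⟩
    rintro v hv ⟨c, hc⟩
    exact absurd (by rw [hc, hy, smul_zero]) (h v hv)
  obtain ⟨k, hk⟩ := Function.ne_iff.1 hy
  have hk : y k ≠ 0 := hk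
  obtain ⟨j, hj⟩ : ∃ j, ¬ ((0 : ℂ) = 0 ∧ (0 : ℂ) = 0 ∧ y k * A j - y j * A k = 0 ∧
      2 * (y k * B j - y j * B k) = 0 ∧ y k * C j - y j * C k = 0) := by
    by_contra hall
    push Not at hall
    obtain ⟨v, hv, hv0⟩ : ∃ v : Fin 2 → ℂ, v ≠ 0 ∧ qv A B C v k = 0 := by
      by_cases hA : A k = 0
      · exact ⟨![1, 0], fun h0 => by simpa using congrFun h0 0, by simp [qv, hA]⟩
      · obtain ⟨s, hs⟩ := IsAlgClosed.exists_eq_mul_self (discrim (A k) (2 * B k) (C k))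
        obtain ⟨x, hx⟩ := exists_quadratic_eq_zero hA ⟨s, hs⟩
        refine ⟨![x, 1], fun h0 => by simpa using congrFun h0 1, ?_⟩
        simp only [qv, cons_val_zero, cons_val_one]
        linear_combination hx
    refine h v hv (funext fun j => mul_left_cancel₀ hk ?_)
    obtain ⟨-, -, a1, a2, a3⟩ := hall j
    simp only [qv, Pi.zero_apply] at hv0 ⊢
    linear_combination v 0 ^ 2 * a1 + v 0 * v 1 * a2 + v 1 ^ 2 * a3 + y j * hv0
  refine ⟨_, ((n5_fin hj).image fun s => ![s, 1]).insert ![1, 0], ?_⟩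
  rintro v hv ⟨c, hc⟩
  by_cases h1 : v 1 = 0
  · refine ⟨_, Or.inl rfl, v 0, ?_⟩
    ext i
    fin_cases i <;> simp [h1]
  · refine ⟨_, Or.inr ⟨v 0 / v 1, ?_, rfl⟩, v 1, ?_⟩
    · have a1 := congrFun hc j
      have a2 := congrFun hc k
      simp only [qv, Pi.smul_apply, smul_eq_mul] at a1 a2
      simp only [Set.mem_ofPred_eq]
      field_simp
      linear_combination v 1 ^ 2 * (y k * a1 - y j * a2)
    · ext i
      fin_cases i
      · simp [mul_div_cancel₀ _ h1]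
      · simp

end Vale.Agent.P296
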