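import Vale.Agent.P296.B3
import Vale.Agent.P296.N5

namespace Vale.Agent.P296

open Matrix Filter Topology MeasureTheory Metric Laplacian ComplexOrder

theorem b4_sq (c : ℂ) : {b : ℂ | b ^ 2 = c}.Finite := by
  obtain ⟨r, rfl⟩ := IsAlgClosed.exists_pow_nat_eq c two_pos
  refine (Set.toFinite {r, -r}).subset fun b hb => ?_
  simpa using sq_eq_sq_iff_eq_or_eq_neg.1 hb

theorem b4_e {l : V} (hl : l ≠ 0) (i : Fin 2) : {q : ℂ × ℂ | ![q.1, q.2] i = 1 ∧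
    Rc (Dm l) q.1 q.2 0 * Rc (Dm l) q.1 q.2 2 = Rc (Dm l) q.1 q.2 1 ^ 2}.Finite := by
  fin_cases i
  · refine ((quartic_fin hl).1.image fun e => ((1 : ℂ), e)).subset ?_
    rintro ⟨a, b⟩ ⟨h1, h2⟩
    obtain rfl : a = 1 := h1
    exact ⟨b, h2, rfl⟩
  · refine ((quartic_fin hl).2.image fun e => (e, (1 : ℂ))).subset ?_
    rintro ⟨a, b⟩ ⟨h1, h2⟩
    obtain rfl : b = 1 := h1
    exact ⟨a, h2, rfl⟩

theorem b4_rep (N : ℕ) {μ : V} (hμ : pw N μ ≠ 0) (i : Fin 2) :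
    {p : (ℂ × ℂ) × V × (ℂ × ℂ) | p.2.1 = μ ∧ Feq N p = 0 ∧ ![p.1.1, p.1.2] i = 1}.Finite := by
  refine ((b4_e hμ i).biUnion (t := fun q => (fun b : ℂ × ℂ => (q, μ, b)) ''
    ({b | b ^ 2 = Rc (Dm (pw N μ)) q.1 q.2 0} ×ˢ {b | b ^ 2 = Rc (Dm (pw N μ)) q.1 q.2 2}))
    fun q _ => ((b4_sq _).prod (b4_sq _)).image _).subset ?_
  rintro ⟨q, μ', b⟩ ⟨rfl, h1, h2⟩
  have h3 : Rc (Dm (pw N μ')) q.1 q.2 = bb b.1 b.2 := sub_eq_zero.1 h1
  refine Set.mem_biUnion (x := q) ⟨h2, ?_⟩ ⟨b, ⟨?_, ?_⟩, rfl⟩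
  · rw [h3]
    change b.1 ^ 2 * b.2 ^ 2 = (b.1 * b.2) ^ 2
    ring
  · change b.1 ^ 2 = _
    rw [h3]
    rfl
  · change b.2 ^ 2 = _
    rw [h3]
    rfl

theorem b4_fin (N : ℕ) (α : Fin 2 × Fin 3) (y : V) (x : V × Zc) :
    ∃ P : Set (Fin 2 → ℂ), P.Finite ∧ ((∀ v, v ≠ 0 → qc N α x v ≠ 0) → ∀ v, v ≠ 0 →
      (∃ c : ℂ, qc N α x v = c • y) → ∃ p ∈ P, ∃ c : ℂ, v = c • p) := by
  by_cases h : ∀ v, v ≠ 0 → qc N α x v ≠ 0
  · unfold qc at h ⊢
    split_ifs at h ⊢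
    · obtain ⟨P, h1, h2⟩ := qv_fin h y
      exact ⟨P, h1, fun _ => h2⟩
    · obtain ⟨P, h1, h2⟩ := qv_fin h y
      exact ⟨P, h1, fun _ => h2⟩
  · exact ⟨∅, Set.finite_empty, fun h' => absurd h' h⟩
theorem ample {N : ℕ} (hN : 0 < N) : Ample (XX N) OO (TT N) := by
  let e := Fintype.equivFin (Fin 3 × Fin 3 × Fin 3)
  refine ⟨2, _, fun k => sec N (e.symm k), two_pos, fun k => sect N _, ?_, ?_⟩
  · intro α x hx v hv
    obtain ⟨k, hk⟩ := Function.ne_iff.1 (qc_ne hx hv)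
    refine ⟨e (k, α.2, α.2), ?_⟩
    simpa [sec, (rep_eq hx).2.2.1] using hk
  · intro α w
    let y : V := fun k => w (e (k, α.2, α.2))
    have key : ∀ x ∈ XX N ∩ OO α, ∀ v, ∀ c : ℂ, (fun k => sec N (e.symm k) α x v) = c • w →
        ∀ k l, qc N α x v k * mu α x l = c * w (e (k, l, α.2)) := by
      intro x hx v c hc k l
      simpa [sec, (rep_eq hx).2.2.1] using congrFun hc (e (k, l, α.2))
    have key2 : ∀ x ∈ XX N ∩ OO α, ∀ v, ∀ c : ℂ, (fun k => sec N (e.symm k) α x v) = c • w →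
        qc N α x v = c • y := by
      intro x hx v c hc
      funext k
      simpa [(rep_eq hx).2.2.1] using key x hx v c hc k α.2
    by_cases hy : y = 0
    · refine ⟨∅, Set.finite_empty, fun x hx v hv ⟨c, hc⟩ => ?_⟩
      have := key2 x hx v c hc
      rw [hy, smul_zero] at this
      exact absurd this (qc_ne hx hv)
    obtain ⟨k, hk⟩ := Function.ne_iff.1 hy
    have hk' : w (e (k, α.2, α.2)) ≠ 0 := hk
    let μ : V := fun l => w (e (k, l, α.2)) / w (e (k, α.2, α.2))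
    have hμ : pw N μ ≠ 0 := fun h => by
      have := congrFun h α.2
      simp [pw, μ, div_self hk'] at this
    choose Pf hP1 hP2 using b4_fin N α y
    refine ⟨_, (b4_rep N hμ α.1).biUnion (t := fun p => {pt N p} ×ˢ Pf (pt N p))
      fun p _ => (Set.finite_singleton _).prod (hP1 _), fun x hx v hv ⟨c, hc⟩ => ?_⟩
    obtain ⟨h1, h2, h3, h4⟩ := rep_eq hx
    have h5 := key2 x hx v c hc
    have hc0 : c ≠ 0 := by
      rintro rfl
      exact qc_ne hx hv (by simpa using h5)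
    have hs : x.1 α.2 ≠ 0 := hx.2.1
    have ht : x.2 (ix α.1 α.2) ≠ 0 := hx.2.2
    have h6 : mu α x = μ := by
      funext l
      have h7 := key x hx v c hc k l
      rw [h5] at h7
      change c * w (e (k, α.2, α.2)) * _ = _ at h7
      rw [eq_div_iff hk']
      apply mul_left_cancel₀ hc0
      linear_combination h7
    have h8 : qc N α (pt N (rep α x)) = qc N α x := by
      obtain ⟨r1, r2, r3⟩ := rep_sc (x := pt N (rep α x)) α hs ht
      rw [← h4] at r1 r2 r3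
      funext v
      simp only [qc, ← r1, ← r2, ← r3]
    obtain ⟨p, hp, c', hc'⟩ := hP2 (pt N (rep α x)) (fun v hv => h8 ▸ qc_ne hx hv) v hv
      ⟨c, h8 ▸ h5⟩
    refine ⟨(pt N (rep α x), p), Set.mem_biUnion (x := rep α x) ⟨h6, h1, ?_⟩ ⟨rfl, hp⟩, _, _, c',
      hs, ht, h4, hc'⟩
    obtain ⟨i, j⟩ := α
    fin_cases i <;> exact h2

end Vale.Agent.P296
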