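import Vale.Agent.P296.Alg0

namespace Vale.Agent.P296

open Matrix Filter Topology MeasureTheory Metric Laplacian ComplexOrder

theorem Base_Ry (a b : ℂ) : Ry (a, b) =
    !![-3 * a ^ 2 - 8 * a - 5, -3 * a ^ 2 - 8 * a - 10, -6 * a ^ 2 + 3;
      -3 * a * b - 8 * a - 4 * b - 10, -3 * a * b - 2 * a - 4 * b - 7, -6 * a * b + 6 * a - 1;
      -3 * b ^ 2 - 16 * b + 4, -3 * b ^ 2 - 4 * b - 10, -6 * b ^ 2 + 12 * b - 6] := by
  ext i j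
  fin_cases i <;> fin_cases j <;>
    simp [Ry, bil, Dj, D0, D1, D2, m1, m2, dotProduct, mulVec, Fin.sum_univ_three] <;> ring

theorem base_det : (Ry (0, 1)).det = 154 ∧ (Ry (-1, 1)).det = 42 ∧ (Ry (1, -1)).det = -1134 ∧
    (Ry (-1, 0)).det = 80 := by
  refine ⟨?_, ?_, ?_, ?_⟩ <;> rw [Base_Ry, det_fin_three] <;> simp <;> norm_num

theorem Base_lam (a b s t : ℂ) (l : V) (h : ∀ i, t * ((Ry (a, b)).adjugate i 0 +
    (Ry (a, b)).adjugate i 1 * s + (Ry (a, b)).adjugate i 2 * s ^ 2) = l i) :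
    t • Lam (a, b) s = l := by
  funext i
  rw [← h i]
  simp [Lam, mulVec, dotProduct, Fin.sum_univ_three]

theorem base_xi : Xi (wb 0) = (lb0, lb1) ∧ Xi (wb 1) = (lb0, lb1) ∧ Xi (wb 2) = (lb0, lb1) ∧
    Xi (wb 3) = (lb1, lb2) ∧ Xi (wb 4) = (lb1, lb2) ∧ Xi (wb 5) = (lb1, lb2) := by
  refine ⟨?_, ?_, ?_, ?_, ?_, ?_⟩ <;> refine Prod.ext ?_ ?_ <;>
    refine Base_lam _ _ _ _ _ fun i => ?_ <;> rw [Base_Ry, adjugate_fin_three] <;>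
    fin_cases i <;> simp [wb, lb0, lb1, lb2] <;> norm_num

theorem Base_gd : gd lb0 ≠ 0 ∧ gd lb1 ≠ 0 ∧ gd lb2 ≠ 0 := by
  refine ⟨?_, ?_, ?_⟩ <;>
    simp only [gd, det_fin_three, disc4, Dm, D0, D1, D2, lb0, lb1, lb2] <;> simp <;> norm_num

theorem Base_nd {w : Pm} {l l' : V} (h : Xi w = (l, l')) (hl : gd l ≠ 0) (hl' : gd l' ≠ 0)
    (h1 : (Ry w.1.1).det ≠ 0) (h2 : w.2.1 ≠ w.2.2) : Nd w := by
  have e1 : gd l = w.1.2.1 ^ 14 * gd (Lam w.1.1 w.2.1) := by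
    rw [← gd_smul]; exact congrArg gd (congrArg Prod.fst h).symm
  have e2 : gd l' = w.1.2.2 ^ 14 * gd (Lam w.1.1 w.2.2) := by
    rw [← gd_smul]; exact congrArg gd (congrArg Prod.snd h).symm
  rw [e1] at hl
  rw [e2] at hl'
  refine ⟨h1, h2, fun e => ?_, fun e => ?_, right_ne_zero_of_mul hl, right_ne_zero_of_mul hl'⟩
  · simp [e] at hl
  · simp [e] at hl'

theorem base_nd (k : Fin 6) : Nd (wb k) := by
  obtain ⟨x0, x1, x2, x3, x4, x5⟩ := base_xi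
  obtain ⟨g0, g1, g2⟩ := Base_gd
  obtain ⟨d0, d1, d2, d3⟩ := base_det
  have n0 : (Ry (0, 1)).det ≠ 0 := by rw [d0]; norm_num
  have n1 : (Ry (-1, 1)).det ≠ 0 := by rw [d1]; norm_num
  have n2 : (Ry (1, -1)).det ≠ 0 := by rw [d2]; norm_num
  have n3 : (Ry (-1, 0)).det ≠ 0 := by rw [d3]; norm_num
  fin_cases k
  · exact Base_nd x0 g0 g1 n0 (show (-1 : ℂ) ≠ -1 / 2 by norm_num)
  · exact Base_nd x1 g0 g1 n1 (show (1 / 2 : ℂ) ≠ 1 by norm_num)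
  · exact Base_nd x2 g0 g1 n2 (show (-5 / 2 : ℂ) ≠ 1 by norm_num)
  · exact Base_nd x3 g1 g2 n0 (show (-1 / 2 : ℂ) ≠ 4 / 3 by norm_num)
  · exact Base_nd x4 g1 g2 n1 (show (1 : ℂ) ≠ 4 by norm_num)
  · exact Base_nd x5 g1 g2 n3 (show (-2 : ℂ) ≠ 0 by norm_num)

end Vale.Agent.P296
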