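import Vale.Agent.P296.Der
import Vale.Agent.P296.N1

namespace Vale.Agent.P296

open Matrix Filter Topology MeasureTheory Metric Laplacian ComplexOrder

theorem c1_num {a b c p q r e b1 b2 f d1 d2 : ℂ}
    (hd : a * p * r - a * q * q - b * b * r + b * q * c + c * b * q - c * p * c ≠ 0)
    (e0 : a * e ^ 2 - 2 * b * e + p = b1 ^ 2) (e1 : e * (b * e - c) - (p * e - q) = b1 * b2)
    (e2 : e * (p * e - q) - (q * e - r) = b2 ^ 2) (g0 : f * (a * e - b) = b1 * d1)
    (g1 : f * (2 * b * e - p - c) = b1 * d2 + b2 * d1) (g2 : f * (p * e - q) = b2 * d2)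
    (hn : e * (a * e ^ 2 - 2 * b * e + p) - (e * (b * e - c) - (p * e - q)) = 0 →
      e * (e * (b * e - c) - (p * e - q)) - (e * (p * e - q) - (q * e - r)) = 0 → False) :
    f = 0 ∧ d1 = 0 ∧ d2 = 0 := by
  have hb : b1 = 0 → b2 = 0 → False := by
    rintro rfl rfl
    have hp : p = 2 * b * e - a * e ^ 2 := by linear_combination e0
    have hq : q = p * e - e * (b * e - c) := by linear_combination e1
    have hr : r = q * e - e * (p * e - q) := by linear_combination e2
    apply hd
    rw [hr, hq, hp]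
    ring
  have hf : f = 0 := by
    by_contra hf
    have hE : (b2 * (a * e - b) - b1 * (b * e - c)) * (b2 - b1 * e) = 0 := by
      apply mul_left_cancel₀ hf
      linear_combination b2 ^ 2 * g0 - b1 * b2 * g1 + b1 ^ 2 * g2 - f * b1 * b2 * e0 +
        f * b1 ^ 2 * e1
    rcases mul_eq_zero.1 hE with h | h
    · have m1 : b2 * (b * e - p) - b1 * (p * e - q) = 0 := by
        linear_combination e * h - b2 * e0 + b1 * e1
      have m2 : b2 * (c * e - q) - b1 * (q * e - r) = 0 := by
        linear_combination e * m1 - b2 * e1 + b1 * e2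
      have k1 : b1 = 0 := by
        apply mul_left_cancel₀ hd
        linear_combination (b * q - c * p) * h + (b * c - a * q) * m1 + (a * p - b * b) * m2
      have k2 : b2 = 0 := by
        apply mul_left_cancel₀ hd
        rw [k1] at h m1 m2
        linear_combination -((c * q - b * r) * h + (a * r - c * c) * m1 + (b * c - a * q) * m2)
      exact hb k1 k2
    · have h2 : b2 = b1 * e := by linear_combination h
      refine hn ?_ ?_
      · rw [e0, e1, h2]; ring
      · rw [e1, e2, h2]; ring
  subst hf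
  by_cases h1 : b1 = 0
  · have h2 : b2 ≠ 0 := hb h1
    refine ⟨rfl, mul_left_cancel₀ h2 ?_, mul_left_cancel₀ h2 ?_⟩
    · linear_combination -g1 - d2 * h1
    · linear_combination -g2
  · have k : d1 = 0 := mul_left_cancel₀ h1 (by linear_combination -g0)
    exact ⟨rfl, k, mul_left_cancel₀ h1 (by linear_combination -g1 - b2 * k)⟩

theorem c1_alg {l : V} (hl : gd l ≠ 0) {e b1 b2 f d1 d2 : ℂ} (h0 : Rc (Dm l) 1 e = bb b1 b2)
    (h1 : Rp (Dm l) 1 e 0 f = dbb b1 b2 d1 d2) : f = 0 ∧ d1 = 0 ∧ d2 = 0 := by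
  have hd : (Dm l).det ≠ 0 := fun h => hl (by simp [gd, h])
  have hn := fun h1 h2 => hl (disc_zero (l := l) (e := e) h1 h2)
  have s1 := Dm_symm l 1 0
  have s2 := Dm_symm l 2 0
  have s3 := Dm_symm l 2 1
  have a0 := congrFun h0 0
  have a1 := congrFun h0 1
  have a2 := congrFun h0 2
  have c0 := congrFun h1 0
  have c1 := congrFun h1 1
  have c2 := congrFun h1 2
  rw [det_fin_three] at hd
  generalize Dm l = M at *
  simp [Rc, Rp, bb, dbb, bil, l1, l2, nv, mulVec, dotProduct, Fin.sum_univ_three, s1, s2, s3,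
    -mul_eq_mul_left_iff, -mul_eq_zero] at a0 a1 a2 c0 c1 c2 hn hd
  refine c1_num (a := M 0 0) (b := M 0 1) (c := M 0 2) (p := M 1 1) (q := M 1 2) (r := M 2 2)
    (e := e) (b1 := b1) (b2 := b2) hd (by linear_combination a0) (by linear_combination a1)
    (by linear_combination a2) (by linear_combination c0 / 2) (by linear_combination c1)
    (by linear_combination c2 / 2) fun k1 k2 => hn (by linear_combination k1)
      (by linear_combination k2)

theorem phi_bij {N : ℕ} (hN : 0 < N) {l : V} (hl : gd l ≠ 0) {x : P6} (h : x ∈ fib N l) :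
    Function.Bijective (fderiv ℂ (Phi N) x) := by
  have h1 : Feq N ((1, x.1), x.2) = 0 := congrArg Prod.fst h
  have h2 : pw N x.2.1 = l := congrArg Prod.snd h
  have hinj : Function.Injective (fderiv ℂ (Phi N) x) := by
    rw [injective_iff_map_eq_zero]
    intro d hd
    rw [fd_Phi, fd_Feq, Prod.mk_eq_zero] at hd
    obtain ⟨k1, k2⟩ := hd
    have hl' : ∀ j, l j ≠ 0 := by
      intro j hj
      apply hl
      fin_cases j <;> simp only [Fin.reduceFinMk, Fin.zero_eta, Fin.mk_one] at hj <;> simp [gd, hj]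
    have hμ : ∀ j, d.2.1 j = 0 := by
      intro j
      have h3 : x.2.1 j ≠ 0 := by
        intro h0
        apply hl' j
        rw [← h2, pw, h0, zero_pow (by omega)]
      have := congrFun k2 j
      simpa [h3, hN.ne'] using this
    simp only [hμ, mul_zero, zero_smul, Finset.sum_const_zero, add_zero, h2] at k1
    rw [Feq, sub_eq_zero] at h1
    simp only [h2] at h1
    obtain ⟨r1, r2, r3⟩ := c1_alg hl h1 (sub_eq_zero.1 k1)
    exact Prod.ext r1 (Prod.ext (funext hμ) (Prod.ext r2 r3))
  refine ⟨hinj, (LinearMap.injective_iff_surjective_of_finrank_eq_finrank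
    (f := (fderiv ℂ (Phi N) x).toLinearMap) ?_).1 hinj⟩
  simp

end Vale.Agent.P296
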