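import Vale.Agent.P296.Alg0
import Vale.Agent.P296.Def2

namespace Vale.Agent.P296

open Matrix Filter Topology MeasureTheory Metric Laplacian ComplexOrder

theorem c2_root {c4 c3 c2 c1 c0 e : ℂ} {δ T : ℝ} (hδ : 0 < δ) (h4 : δ ≤ ‖c4‖) (h3 : ‖c3‖ ≤ T)
    (h2 : ‖c2‖ ≤ T) (h1 : ‖c1‖ ≤ T) (h0 : ‖c0‖ ≤ T)
    (h : c4 * e ^ 4 = c3 * e ^ 3 + c2 * e ^ 2 + c1 * e + c0) : ‖e‖ ≤ 1 + 4 * T / δ := by
  have hT : 0 ≤ T := (norm_nonneg _).trans h0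
  by_contra hc
  push Not at hc
  have hq : 0 ≤ 4 * T / δ := by positivity
  have ht1 : 1 ≤ ‖e‖ := by linarith
  have ht2 : 4 * T < δ * ‖e‖ := by
    have : 4 * T / δ < ‖e‖ := by linarith
    rw [div_lt_iff₀ hδ] at this; linarith
  have a1 : δ * ‖e‖ ^ 4 ≤ ‖c4 * e ^ 4‖ := by
    rw [norm_mul, norm_pow]; gcongr
  have b3 : ‖c3 * e ^ 3‖ ≤ T * ‖e‖ ^ 3 := by rw [norm_mul, norm_pow]; gcongr
  have b2 : ‖c2 * e ^ 2‖ ≤ T * ‖e‖ ^ 3 := by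
    rw [norm_mul, norm_pow]; gcongr; norm_num
  have b1 : ‖c1 * e‖ ≤ T * ‖e‖ ^ 3 := by
    rw [norm_mul]
    have : ‖e‖ ≤ ‖e‖ ^ 3 := le_self_pow₀ ht1 (by norm_num)
    gcongr
  have b0 : ‖c0‖ ≤ T * ‖e‖ ^ 3 := by
    have : 1 ≤ ‖e‖ ^ 3 := one_le_pow₀ ht1
    nlinarith
  have a2 : ‖c4 * e ^ 4‖ ≤ 4 * T * ‖e‖ ^ 3 := by
    rw [h]
    have := norm_add_le (c3 * e ^ 3 + c2 * e ^ 2 + c1 * e) c0
    have := norm_add_le (c3 * e ^ 3 + c2 * e ^ 2) (c1 * e)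
    have := norm_add_le (c3 * e ^ 3) (c2 * e ^ 2)
    linarith
  have h5 : 0 < ‖e‖ ^ 3 := by positivity
  nlinarith [mul_lt_mul_of_pos_right ht2 h5]

theorem c2_sq {a b p e x : ℂ} {T E : ℝ} (ha : ‖a‖ ≤ T) (hb : ‖b‖ ≤ T) (hp : ‖p‖ ≤ T)
    (he : ‖e‖ ≤ E) (h : a * e ^ 2 - 2 * b * e + p = x ^ 2) :
    ‖x‖ ≤ 1 + (T * E ^ 2 + 2 * T * E + T) := by
  have hT : 0 ≤ T := (norm_nonneg _).trans ha
  have h1 : ‖a * e ^ 2‖ ≤ T * E ^ 2 := by rw [norm_mul, norm_pow]; gcongr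
  have h2 : ‖2 * b * e‖ ≤ 2 * T * E := by
    rw [norm_mul, norm_mul, Complex.norm_two]; gcongr
  have h3 := norm_add_le (a * e ^ 2 - 2 * b * e) p
  have h4 := norm_sub_le (a * e ^ 2) (2 * b * e)
  rw [h, norm_pow] at h3
  nlinarith [sq_nonneg (‖x‖ - 1), norm_nonneg x]

theorem c2_cont (i j : Fin 3) : Continuous fun l : V => Dm l i j := by
  simp only [Dm, Matrix.add_apply, Matrix.smul_apply, smul_eq_mul]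
  fun_prop

theorem c2_eqs {l : V} {e b1 b2 : ℂ} (h0 : Rc (Dm l) 1 e = bb b1 b2) :
    Dm l 0 0 * e ^ 2 - 2 * Dm l 0 1 * e + Dm l 1 1 = b1 ^ 2 ∧
    Dm l 0 1 * e ^ 2 - (Dm l 0 2 + Dm l 1 1) * e + Dm l 1 2 = b1 * b2 ∧
    Dm l 1 1 * e ^ 2 - 2 * Dm l 1 2 * e + Dm l 2 2 = b2 ^ 2 := by
  have s1 := Dm_symm l 1 0
  have s2 := Dm_symm l 2 0
  have s3 := Dm_symm l 2 1
  have e0 := congrFun h0 0
  have e1 := congrFun h0 1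
  have e2 := congrFun h0 2
  simp [Rc, bb, bil, l1, l2, dotProduct, mulVec, Fin.sum_univ_three, s1, s2, s3] at e0 e1 e2
  exact ⟨by linear_combination e0, by linear_combination e1, by linear_combination e2⟩

theorem c2_fib {N : ℕ} {l : V} {x : P6} (h : x ∈ fib N l) :
    Rc (Dm l) 1 x.1 = bb x.2.2.1 x.2.2.2 ∧ pw N x.2.1 = l := by
  have h1 : Feq N ((1, x.1), x.2) = 0 := congrArg Prod.fst h
  have h2 : pw N x.2.1 = l := congrArg Prod.snd h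
  refine ⟨?_, h2⟩
  rw [← h2]
  exact sub_eq_zero.1 h1

theorem fib_bd {N : ℕ} (hN : 0 < N) {l₀ : V} (hl : gd l₀ ≠ 0) :
    ∃ R, ∀ᶠ l in 𝓝 l₀, ∀ x ∈ fib N l, ‖x‖ ≤ R := by
  obtain ⟨c4, hc4⟩ : ∃ f : V → ℂ, f = fun l => Dm l 0 0 * Dm l 1 1 - Dm l 0 1 ^ 2 := ⟨_, rfl⟩
  obtain ⟨c3, hc3⟩ : ∃ f : V → ℂ, f = fun l => 2 * Dm l 0 0 * Dm l 1 2 +
    2 * Dm l 0 1 * Dm l 1 1 - 2 * Dm l 0 1 * (Dm l 0 2 + Dm l 1 1) := ⟨_, rfl⟩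
  obtain ⟨c2, hc2⟩ : ∃ f : V → ℂ, f = fun l => (Dm l 0 2 + Dm l 1 1) ^ 2 +
    2 * Dm l 0 1 * Dm l 1 2 - Dm l 0 0 * Dm l 2 2 - 4 * Dm l 0 1 * Dm l 1 2 - Dm l 1 1 ^ 2 :=
    ⟨_, rfl⟩
  obtain ⟨c1, hc1⟩ : ∃ f : V → ℂ, f = fun l => 2 * Dm l 0 1 * Dm l 2 2 +
    2 * Dm l 1 1 * Dm l 1 2 - 2 * (Dm l 0 2 + Dm l 1 1) * Dm l 1 2 := ⟨_, rfl⟩
  obtain ⟨c0, hc0⟩ : ∃ f : V → ℂ, f = fun l => Dm l 1 2 ^ 2 - Dm l 1 1 * Dm l 2 2 := ⟨_, rfl⟩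
  have k00 := c2_cont 0 0
  have k01 := c2_cont 0 1
  have k02 := c2_cont 0 2
  have k11 := c2_cont 1 1
  have k12 := c2_cont 1 2
  have k22 := c2_cont 2 2
  obtain ⟨F, hF⟩ : ∃ F : V → ℝ, F = fun l => ‖c3 l‖ + ‖c2 l‖ + ‖c1 l‖ + ‖c0 l‖ + ‖Dm l 0 0‖ +
    ‖Dm l 0 1‖ + ‖Dm l 1 1‖ + ‖Dm l 1 2‖ + ‖Dm l 2 2‖ + ‖l‖ := ⟨_, rfl⟩
  have hFc : Continuous F := by
    subst hF hc3 hc2 hc1 hc0
    fun_prop
  have h4c : Continuous fun l => ‖c4 l‖ := by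
    subst hc4
    fun_prop
  have h40 : 0 < ‖c4 l₀‖ := by
    rw [norm_pos_iff]
    intro h
    apply hl
    rw [hc4] at h
    simp only [gd]
    rw [show Dm l₀ 0 0 * Dm l₀ 1 1 - Dm l₀ 0 1 ^ 2 = 0 from h]
    ring
  obtain ⟨δ, hδ⟩ : ∃ δ : ℝ, δ = ‖c4 l₀‖ / 2 := ⟨_, rfl⟩
  obtain ⟨T, hT⟩ : ∃ T : ℝ, T = F l₀ + 1 := ⟨_, rfl⟩
  have hδ0 : 0 < δ := by rw [hδ]; positivity
  have ev1 : ∀ᶠ l in 𝓝 l₀, δ ≤ ‖c4 l‖ :=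
    (h4c.tendsto l₀).eventually (le_mem_nhds (by rw [hδ]; linarith))
  have ev2 : ∀ᶠ l in 𝓝 l₀, F l ≤ T :=
    (hFc.tendsto l₀).eventually (ge_mem_nhds (by rw [hT]; linarith))
  obtain ⟨E, hE⟩ : ∃ E : ℝ, E = 1 + 4 * T / δ := ⟨_, rfl⟩
  refine ⟨E + (1 + T) + (1 + (T * E ^ 2 + 2 * T * E + T)), ?_⟩
  filter_upwards [ev1, ev2] with l h1 h2 x hx
  obtain ⟨hR, hpw⟩ := c2_fib hx
  obtain ⟨e0, e1, e2⟩ := c2_eqs hR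
  rw [hF] at h2
  have n1 := norm_nonneg (c3 l)
  have n2 := norm_nonneg (c2 l)
  have n3 := norm_nonneg (c1 l)
  have n4 := norm_nonneg (c0 l)
  have n5 := norm_nonneg (Dm l 0 0)
  have n6 := norm_nonneg (Dm l 0 1)
  have n7 := norm_nonneg (Dm l 1 1)
  have n8 := norm_nonneg (Dm l 1 2)
  have n9 := norm_nonneg (Dm l 2 2)
  have n10 := norm_nonneg l
  simp only at h2
  have hT0 : 0 ≤ T := by linarith
  have he : ‖x.1‖ ≤ E := by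
    rw [hE]
    refine c2_root (c3 := c3 l) (c2 := c2 l) (c1 := c1 l) (c0 := c0 l) hδ0 h1 (by linarith)
      (by linarith) (by linarith) (by linarith) ?_
    rw [hc4, hc3, hc2, hc1, hc0]
    simp only
    linear_combination (Dm l 1 1 * x.1 ^ 2 - 2 * Dm l 1 2 * x.1 + Dm l 2 2) * e0 +
      x.2.2.1 ^ 2 * e2 - (Dm l 0 1 * x.1 ^ 2 - (Dm l 0 2 + Dm l 1 1) * x.1 + Dm l 1 2 +
        x.2.2.1 * x.2.2.2) * e1
  have hE0 : 0 ≤ E := (norm_nonneg _).trans he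
  have hb1 := c2_sq (T := T) (by linarith) (by linarith) (by linarith) he e0
  have hb2 := c2_sq (T := T) (by linarith) (by linarith) (by linarith) he e2
  have hX : 0 ≤ T * E ^ 2 + 2 * T * E + T := by positivity
  have hmu : ‖x.2.1‖ ≤ 1 + T := by
    refine (pi_norm_le_iff_of_nonneg (by linarith)).2 fun j => ?_
    by_cases hj : ‖x.2.1 j‖ ≤ 1
    · linarith
    · push Not at hj
      have a1 : ‖x.2.1 j‖ ≤ ‖x.2.1 j‖ ^ (2 * N) := le_self_pow₀ hj.le (by omega)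
      have a2 : ‖x.2.1 j‖ ^ (2 * N) = ‖l j‖ := by rw [← hpw, pw, norm_pow]
      have a3 := norm_le_pi_norm l j
      linarith
  rw [Prod.norm_def, Prod.norm_def, Prod.norm_def]
  refine max_le (by linarith) (max_le (by linarith) (max_le (by linarith) (by linarith)))

theorem fib_Z0 {N : ℕ} (hN : 0 < N) {l : V} (hl : gd l ≠ 0) {x : P6} (h : x ∈ fib N l) :
    x ∈ Z0 N ∧ pw N x.2.1 = l ∧
      Dm l = Gram (A0 x.1) (B0 x.1 x.2.2.1 x.2.2.2) (C0 x.1 (pw N x.2.1)) := by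
  obtain ⟨hR, hpw⟩ := c2_fib h
  refine ⟨⟨congrArg Prod.fst h, fun h0 => hl ?_⟩, hpw, ?_⟩
  · have : l 0 = 0 := by
      rw [← hpw, pw, h0, zero_pow (by omega)]
    simp [gd, this]
  · rw [hpw]; exact gram0 hR

end Vale.Agent.P296
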