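import Vale.Agent.P296.Alg0
import Vale.Agent.P296.Def2

namespace Vale.Agent.P296

open Matrix Filter Topology MeasureTheory Metric Laplacian ComplexOrder

theorem C3_poly {l : V} (hl : gd l ≠ 0) : ∃ q : Polynomial ℂ, q.natDegree = 4 ∧
    ∀ e, q.eval e = Rc (Dm l) 1 e 0 * Rc (Dm l) 1 e 2 - Rc (Dm l) 1 e 1 ^ 2 := by
  have ha : Dm l 0 0 * Dm l 1 1 - Dm l 0 1 ^ 2 ≠ 0 := fun h => hl (by simp [gd, h])
  have s1 := Dm_symm l 1 0
  have s2 := Dm_symm l 2 0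
  have s3 := Dm_symm l 2 1
  generalize Dm l = M at *
  refine ⟨Polynomial.C (M 0 0 * M 1 1 - M 0 1 ^ 2) * Polynomial.X ^ 4 +
    Polynomial.C (-2 * M 0 0 * M 1 2 - 2 * M 0 1 * M 1 1 + 2 * M 0 1 * (M 0 2 + M 1 1)) *
      Polynomial.X ^ 3 +
    Polynomial.C (M 0 0 * M 2 2 + 4 * M 0 1 * M 1 2 + M 1 1 ^ 2 - (M 0 2 + M 1 1) ^ 2 -
      2 * M 0 1 * M 1 2) * Polynomial.X ^ 2 +
    Polynomial.C (-2 * M 0 1 * M 2 2 - 2 * M 1 1 * M 1 2 + 2 * (M 0 2 + M 1 1) * M 1 2) *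
      Polynomial.X + Polynomial.C (M 1 1 * M 2 2 - M 1 2 ^ 2), ?_, fun e => ?_⟩
  · compute_degree!
  · simp only [Polynomial.eval_add, Polynomial.eval_mul, Polynomial.eval_C, Polynomial.eval_pow,
      Polynomial.eval_X]
    simp [Rc, bil, l1, l2, mulVec, dotProduct, Fin.sum_univ_three, s1, s2, s3]
    ring

theorem C3_mem {N : ℕ} {l : V} {x : P6} : x ∈ fib N l ↔
    Rc (Dm l) 1 x.1 = bb x.2.2.1 x.2.2.2 ∧ pw N x.2.1 = l := by
  simp only [fib, Phi, Feq, Set.mem_setOf_eq, Prod.mk.injEq, sub_eq_zero]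
  constructor
  · rintro ⟨h1, h2⟩
    exact ⟨h2 ▸ h1, h2⟩
  · rintro ⟨h1, h2⟩
    exact ⟨h2 ▸ h1, h2⟩

theorem fib_card {N : ℕ} (hN : 0 < N) : ∃ c : ℕ, ∀ l, gd l ≠ 0 →
    (fib N l).Finite ∧ (fib N l).ncard ≤ c ∧ (fib N l).Nonempty := by
  classical
  have h2N : 0 < 2 * N := by omega
  refine ⟨4 * (1 * ((2 * N) ^ 3 * (2 * 2))), fun l hl => ?_⟩
  obtain ⟨q, hq, eq⟩ := C3_poly hl
  have q0 : q ≠ 0 := fun h => by simp [h] at hq
  let S : ℕ → ℂ → Finset ℂ := fun n a => (Polynomial.nthRoots n a).toFinset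
  have cS : ∀ n a, (S n a).card ≤ n := fun n a =>
    (Multiset.toFinset_card_le _).trans (Polynomial.card_nthRoots n a)
  have mS : ∀ n a z, 0 < n → z ^ n = a → z ∈ S n a := fun n a z hn h =>
    Multiset.mem_toFinset.2 ((Polynomial.mem_nthRoots hn).2 h)
  let F : Finset P6 := q.roots.toFinset.biUnion fun e => ({e} : Finset ℂ) ×ˢ
    (Fintype.piFinset fun j => S (2 * N) (l j)) ×ˢ
      (S 2 (Rc (Dm l) 1 e 0) ×ˢ S 2 (Rc (Dm l) 1 e 2))
  have hF : fib N l ⊆ F := fun x hx => by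
    obtain ⟨h1, h2⟩ := C3_mem.1 hx
    have e0 : Rc (Dm l) 1 x.1 0 = x.2.2.1 ^ 2 := congrFun h1 0
    have e1 : Rc (Dm l) 1 x.1 1 = x.2.2.1 * x.2.2.2 := congrFun h1 1
    have e2 : Rc (Dm l) 1 x.1 2 = x.2.2.2 ^ 2 := congrFun h1 2
    refine Finset.mem_coe.2 (Finset.mem_biUnion.2 ⟨x.1, ?_, ?_⟩)
    · rw [Multiset.mem_toFinset, Polynomial.mem_roots q0, Polynomial.IsRoot, eq, e0, e1, e2]
      ring
    · simp only [Finset.mem_product, Finset.mem_singleton, Fintype.mem_piFinset, true_and]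
      exact ⟨fun j => mS _ _ _ h2N (congrFun h2 j), mS _ _ _ two_pos e0.symm,
        mS _ _ _ two_pos e2.symm⟩
  have cF : F.card ≤ 4 * (1 * ((2 * N) ^ 3 * (2 * 2))) := by
    refine (Finset.card_biUnion_le_card_mul _ _ (1 * ((2 * N) ^ 3 * (2 * 2))) fun e _ => ?_).trans
      (Nat.mul_le_mul_right _ ?_)
    · rw [Finset.card_product, Finset.card_product, Finset.card_product, Finset.card_singleton,
        Fintype.card_piFinset, Fin.prod_univ_three]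
      refine Nat.mul_le_mul le_rfl (Nat.mul_le_mul ?_ (Nat.mul_le_mul (cS _ _) (cS _ _)))
      rw [pow_succ, sq]
      exact Nat.mul_le_mul (Nat.mul_le_mul (cS _ _) (cS _ _)) (cS _ _)
    · exact (Multiset.toFinset_card_le _).trans (hq ▸ Polynomial.card_roots' q)
  refine ⟨F.finite_toSet.subset hF, ?_, ?_⟩
  · refine (Set.ncard_le_ncard hF F.finite_toSet).trans ?_
    rw [Set.ncard_coe_finset]
    exact cF
  · obtain ⟨e, he⟩ := IsAlgClosed.exists_root q (by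
      rw [Polynomial.degree_eq_natDegree q0, hq]
      norm_num)
    rw [Polynomial.IsRoot, eq] at he
    choose μ hμ using fun j => IsAlgClosed.exists_pow_nat_eq (l j) h2N
    obtain ⟨b1, h1⟩ := IsAlgClosed.exists_pow_nat_eq (Rc (Dm l) 1 e 0) two_pos
    obtain ⟨b2, h2⟩ := IsAlgClosed.exists_pow_nat_eq (Rc (Dm l) 1 e 2) two_pos
    have h3 : Rc (Dm l) 1 e 1 ^ 2 = (b1 * b2) ^ 2 := by
      rw [mul_pow, h1, h2]
      exact (sub_eq_zero.1 he).symm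
    rcases sq_eq_sq_iff_eq_or_eq_neg.1 h3 with h4 | h4
    · refine ⟨(e, μ, (b1, b2)), C3_mem.2 ⟨?_, funext hμ⟩⟩
      ext i
      fin_cases i
      · exact h1.symm
      · exact h4
      · exact h2.symm
    · refine ⟨(e, μ, (b1, -b2)), C3_mem.2 ⟨?_, funext hμ⟩⟩
      ext i
      fin_cases i
      · exact h1.symm
      · exact h4.trans (mul_neg b1 b2).symm
      · exact h2.symm.trans (neg_sq b2).symm

end Vale.Agent.P296
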