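import Vale.Agent.P296.Alg0

namespace Vale.Agent.P296

open Matrix Filter Topology MeasureTheory Metric Laplacian ComplexOrder

theorem Chg_null {a0 a1 a2 : ℂ} (h : a1 ^ 2 = 4 * a0 * a2) :
    ∃ u0 u1 : ℂ, a0 = u0 ^ 2 ∧ a1 = 2 * u0 * u1 ∧ a2 = u1 ^ 2 := by
  obtain ⟨u, hu⟩ := IsAlgClosed.exists_pow_nat_eq a0 (by norm_num : 0 < 2)
  obtain ⟨w, hw⟩ := IsAlgClosed.exists_pow_nat_eq a2 (by norm_num : 0 < 2)
  have : (a1 - 2 * u * w) * (a1 + 2 * u * w) = 0 := by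
    rw [← hu, ← hw] at h
    linear_combination h
  rcases mul_eq_zero.1 this with h1 | h1
  · exact ⟨u, w, hu.symm, by linear_combination h1, hw.symm⟩
  · exact ⟨u, -w, hu.symm, by linear_combination h1, by rw [← hw]; ring⟩

theorem Chg_mid {u0 u1 w0 w1 b0 b1 b2 : ℂ} (hd : u0 * w1 - u1 * w0 ≠ 0)
    (e1 : -u1 ^ 2 * b0 + u0 * u1 * b1 - u0 ^ 2 * b2 = 0)
    (e2 : -w1 ^ 2 * b0 + w0 * w1 * b1 - w0 ^ 2 * b2 = 0)
    (e3 : b1 ^ 2 - 4 * b0 * b2 = (u0 * w1 - u1 * w0) ^ 2) :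
    ∃ l : ℂ, l ^ 2 = 1 ∧ b0 = l * (u0 * w0) ∧ b1 = l * (u0 * w1 + u1 * w0) ∧ b2 = l * (u1 * w1) := by
  have h01 : b0 * (u0 * w1 + u1 * w0) = b1 * (u0 * w0) :=
    mul_left_cancel₀ hd (by linear_combination (-u0 ^ 2) * e2 + w0 ^ 2 * e1)
  have h12 : b1 * (u1 * w1) = b2 * (u0 * w1 + u1 * w0) :=
    mul_left_cancel₀ hd (by linear_combination (-u1 ^ 2) * e2 + w1 ^ 2 * e1)
  have h20 : b2 * (u0 * w0) = b0 * (u1 * w1) :=
    mul_left_cancel₀ hd (by linear_combination (u0 * u1) * e2 - w0 * w1 * e1)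
  have hd2 : (u0 * w1 - u1 * w0) ^ 2 ≠ 0 := pow_ne_zero _ hd
  obtain ⟨l, hl⟩ : ∃ l, l * (u0 * w1 - u1 * w0) ^ 2 =
      b1 * (u0 * w1 + u1 * w0) - 2 * (b0 * (u1 * w1) + b2 * (u0 * w0)) :=
    ⟨_, div_mul_cancel₀ _ hd2⟩
  have f0 : b0 = l * (u0 * w0) := mul_left_cancel₀ hd2 (by
    linear_combination (u0 * w1 + u1 * w0) * h01 + 2 * (u0 * w0) * h20 - (u0 * w0) * hl)
  have f1 : b1 = l * (u0 * w1 + u1 * w0) := mul_left_cancel₀ hd2 (by
    linear_combination 2 * (u1 * w1) * h01 - 2 * (u0 * w0) * h12 - (u0 * w1 + u1 * w0) * hl)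
  have f2 : b2 = l * (u1 * w1) := mul_left_cancel₀ hd2 (by
    linear_combination -(u0 * w1 + u1 * w0) * h12 - 2 * (u1 * w1) * h20 - (u1 * w1) * hl)
  refine ⟨l, mul_left_cancel₀ hd2 ?_, f0, f1, f2⟩
  rw [f0, f1, f2] at e3
  linear_combination e3

theorem Chg_gram (A B C : V) : Gram A B C = (of ![A, B, C])ᵀ *
    !![0, 0, -1 / 2; 0, 1, 0; -1 / 2, 0, 0] * of ![A, B, C] := by
  ext i j
  simp [Gram, Matrix.mul_apply, Fin.sum_univ_three]
  ring

/-- two parametrisations of one conic differ by a linear map -/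
theorem chg {A B C A' B' C' : V} {κ : ℂ} (hd : (Gram A' B' C').det ≠ 0)
    (h : Gram A' B' C' = κ • Gram A B C) :
    ∃ g : M2, ∀ v, qv A B C v = qv A' B' C' (g *ᵥ v) := by
  rw [Chg_gram A' B' C'] at hd h
  rw [Chg_gram A B C] at h
  obtain ⟨M, hM⟩ : ∃ M : M3, M = of ![A, B, C] := ⟨_, rfl⟩
  obtain ⟨M', hM'⟩ : ∃ M : M3, M = of ![A', B', C'] := ⟨_, rfl⟩
  obtain ⟨K, hK⟩ : ∃ K : M3, K = !![0, 0, -1 / 2; 0, 1, 0; -1 / 2, 0, 0] := ⟨_, rfl⟩
  obtain ⟨J, hJ⟩ : ∃ J : M3, J = !![0, 0, -2; 0, 1, 0; -2, 0, 0] := ⟨_, rfl⟩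
  rw [← hM', ← hK] at hd h
  rw [← hM] at h
  have hu : IsUnit M'.det := by
    rw [det_mul] at hd
    exact (right_ne_zero_of_mul hd).isUnit
  have hKJ : K * J = 1 := by
    rw [hK, hJ]
    ext i j
    fin_cases i <;> fin_cases j <;> simp [Matrix.mul_apply, Fin.sum_univ_three]
  have hJK : J * K = 1 := mul_eq_one_comm.1 hKJ
  obtain ⟨N, hN⟩ : ∃ N : M3, M = N * M' := ⟨M * M'⁻¹, by rw [nonsing_inv_mul_cancel_right _ _ hu]⟩
  have h1 : K = κ • (Nᵀ * K * N) := by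
    have hu' : IsUnit M'ᵀ.det := by rwa [det_transpose]
    have h2 : M'ᵀ * K * M' = M'ᵀ * (κ • (Nᵀ * K * N)) * M' := by
      rw [h, hN, transpose_mul]
      simp only [Matrix.mul_smul, Matrix.smul_mul, Matrix.mul_assoc]
    have h3 := congrArg (fun X => M'ᵀ⁻¹ * (X * M'⁻¹)) h2
    simpa only [mul_nonsing_inv_cancel_right _ _ hu, nonsing_inv_mul_cancel_left _ _ hu'] using h3
  have h2 : (κ • (J * Nᵀ * K)) * N = 1 := by
    rw [← hJK]
    conv_rhs => rw [h1]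
    simp only [Matrix.mul_smul, Matrix.smul_mul, Matrix.mul_assoc]
  have h3 : κ • (N * J * Nᵀ) = J := by
    have h4 := congrArg (· * J) (mul_eq_one_comm.1 h2)
    simp only [Matrix.mul_smul, Matrix.smul_mul, Matrix.mul_assoc, hKJ, Matrix.mul_one,
      Matrix.one_mul] at h4 ⊢
    exact h4
  have e : ∀ i j, κ * (N i 1 * N j 1 - 2 * (N i 0 * N j 2 + N i 2 * N j 0)) = J i j := by
    intro i j
    have := congrFun (congrFun h3 i) j
    rw [← this, hJ]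
    simp [Matrix.mul_apply, Fin.sum_univ_three]
    left
    ring
  have e00 := e 0 0
  have e22 := e 2 2
  have e01 := e 0 1
  have e21 := e 2 1
  have e11 := e 1 1
  have e02 := e 0 2
  simp only [hJ, of_apply, cons_val', cons_val_zero, cons_val_one, cons_val_fin_one, cons_val] at e00 e22 e01 e21 e11 e02
  have hκ : κ ≠ 0 := by
    rintro rfl
    simp at e11
  obtain ⟨u0, u1, a0, a1, a2⟩ := Chg_null (a0 := N 0 0) (a1 := N 0 1) (a2 := N 0 2)
    (mul_left_cancel₀ hκ (by linear_combination e00))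
  obtain ⟨w0, w1, c0, c1, c2⟩ := Chg_null (a0 := N 2 0) (a1 := N 2 1) (a2 := N 2 2)
    (mul_left_cancel₀ hκ (by linear_combination e22))
  rw [a0, a1, a2] at e01 e02
  rw [c0, c1, c2] at e21 e02
  obtain ⟨l, l0, b0, b1, b2⟩ := Chg_mid (u0 := u0) (u1 := u1) (w0 := w0) (w1 := w1) (b0 := N 1 0)
    (b1 := N 1 1) (b2 := N 1 2)
    (fun h0 => by
      have : (-2 : ℂ) = 0 := by linear_combination -e02 - 2 * κ * (u0 * w1 - u1 * w0) * h0
      norm_num at this)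
    (mul_left_cancel₀ hκ (by linear_combination e01 / 2))
    (mul_left_cancel₀ hκ (by linear_combination e21 / 2))
    (mul_left_cancel₀ hκ (by linear_combination e11 + e02 / 2))
  have r : ∀ i k, M i k = N i 0 * A' k + N i 1 * B' k + N i 2 * C' k := by
    intro i k
    rw [hN, hM']
    simp [Matrix.mul_apply, Fin.sum_univ_three]
  refine ⟨!![u0, l * w0; u1, l * w1], fun v => funext fun k => ?_⟩
  have r0 : A k = N 0 0 * A' k + N 0 1 * B' k + N 0 2 * C' k := by simpa [hM] using r 0 k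
  have r1 : B k = N 1 0 * A' k + N 1 1 * B' k + N 1 2 * C' k := by simpa [hM] using r 1 k
  have r2 : C k = N 2 0 * A' k + N 2 1 * B' k + N 2 2 * C' k := by simpa [hM] using r 2 k
  simp only [qv, mulVec, dotProduct, Fin.sum_univ_two, of_apply, cons_val', cons_val_zero,
    cons_val_one, cons_val_fin_one]
  rw [r0, r1, r2, a0, a1, a2, b0, b1, b2, c0, c1, c2]
  linear_combination (-(A' k * w0 ^ 2 + 2 * B' k * w0 * w1 + C' k * w1 ^ 2) * v 1 ^ 2) * l0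

end Vale.Agent.P296
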