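import Vale.Agent.P296.St

/-! Reduction to a connected component. -/

namespace Vale.Agent.P296

open Matrix Filter Topology ComplexOrder

variable {U W : Type} [NormedAddCommGroup U] [NormedSpace ℂ U] [FiniteDimensional ℂ U]
  [NormedAddCommGroup W] [NormedSpace ℂ W] [FiniteDimensional ℂ W] {I : Type} {r : ℕ}

theorem conn_loc {X : Set (U × W)} (hX : ProjMfd X) {a : U × W} (ha : a ∈ X) :
    ∀ᶠ x in 𝓝 a, x ∈ X → x ∈ connectedComponentIn X a := by
  have : CompleteSpace U := FiniteDimensional.complete ℂ U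
  have : CompleteSpace W := FiniteDimensional.complete ℂ W
  obtain ⟨c, F, hF, hs, hN⟩ := hX.smooth a ha
  have hf : HasStrictFDerivAt F (fderiv ℂ F a) a := hF.hasStrictFDerivAt
  have hf' : (fderiv ℂ F a).range = ⊤ := LinearMap.range_eq_top.2 hs
  let e := hf.implicitToOpenPartialHomeomorph F _ hf'
  have hsrc : a ∈ e.source := hf.mem_implicitToOpenPartialHomeomorph_source hf'
  have hFa : F a = 0 := hN.self_of_nhds.1 ha
  have hea : e a = (0, 0) := by
    rw [← hFa]; exact hf.implicitToOpenPartialHomeomorph_self hf'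
  have hfst : ∀ x, (e x).1 = F x := fun x => hf.implicitToOpenPartialHomeomorph_fst hf' x
  have h1 : e.target ∩ e.symm ⁻¹' {x | x ∈ X ↔ F x = 0} ∈ 𝓝 (e a) :=
    inter_mem (e.open_target.mem_nhds (e.map_source hsrc)) (e.tendsto_symm hsrc hN)
  obtain ⟨ε, hε, hb⟩ := Metric.mem_nhds_iff.1 h1
  have hball : ∀ y ∈ Metric.ball (0 : (fderiv ℂ F a).ker) ε,
      ((0, y) : (Fin c → ℂ) × (fderiv ℂ F a).ker) ∈ Metric.ball (e a) ε := by
    intro y hy
    rw [hea, ← ball_prod_same]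
    exact ⟨Metric.mem_ball_self hε, hy⟩
  have hC : IsPreconnected ((fun y => e.symm (0, y)) '' Metric.ball (0 : (fderiv ℂ F a).ker) ε) := by
    refine (convex_ball _ _).isPreconnected.image _ ?_
    exact e.continuousOn_symm.comp (by fun_prop) fun y hy => (hb (hball y hy)).1
  have hCX : (fun y => e.symm (0, y)) '' Metric.ball (0 : (fderiv ℂ F a).ker) ε ⊆ X := by
    rintro _ ⟨y, hy, rfl⟩
    have h2 := hb (hball y hy)
    refine h2.2.2 ?_
    rw [← hfst, e.right_inv h2.1]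
  have haC : a ∈ (fun y => e.symm (0, y)) '' Metric.ball (0 : (fderiv ℂ F a).ker) ε :=
    ⟨0, Metric.mem_ball_self hε, by dsimp only; rw [← hea, e.left_inv hsrc]⟩
  have hsub := hC.subset_connectedComponentIn haC hCX
  filter_upwards [hN, e.open_source.mem_nhds hsrc,
    e.continuousAt hsrc (Metric.ball_mem_nhds _ hε)] with x hx1 hx2 hx3 hx
  apply hsub
  have h0 : (e x).1 = 0 := by rw [hfst]; exact hx1.1 hx
  refine ⟨(e x).2, ?_, ?_⟩
  · have h4 : e x ∈ Metric.ball (e a) ε := hx3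
    rw [hea, ← ball_prod_same] at h4
    exact h4.2
  · dsimp only
    rw [← h0, Prod.mk.eta, e.left_inv hx2]

omit [FiniteDimensional ℂ U] [FiniteDimensional ℂ W] in
theorem conn_sc {X : Set (U × W)} (hX : ProjMfd X) {x : U × W} (hx : x ∈ X) {s t : ℂ}
    (hs : s ≠ 0) (ht : t ≠ 0) : sc s t x ∈ connectedComponentIn X x := by
  have h0 : IsPreconnected ({0}ᶜ : Set ℂ) :=
    (isConnected_compl_singleton_of_one_lt_rank (by simp) 0).isPreconnected
  have h1 : IsPreconnected ((fun p : ℂ × ℂ => sc p.1 p.2 x) '' (({0}ᶜ : Set ℂ) ×ˢ ({0}ᶜ : Set ℂ))) := by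
    refine (h0.prod h0).image _ (Continuous.continuousOn ?_)
    unfold sc
    fun_prop
  refine h1.subset_connectedComponentIn ⟨(1, 1), ⟨by simp, by simp⟩, by simp [sc]⟩ ?_
    ⟨(s, t), ⟨hs, ht⟩, rfl⟩
  rintro _ ⟨p, hp, rfl⟩
  exact hX.inv x hx _ _ hp.1 hp.2

theorem conn_proj {X : Set (U × W)} (hX : ProjMfd X) (a : U × W) :
    ProjMfd (connectedComponentIn X a) := by
  have hsub := connectedComponentIn_subset X a
  refine ⟨fun x hx => hX.ne x (hsub hx), fun x hx s t hs ht => ?_, fun x hx h1 h2 => ?_,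
    fun x hx => ?_⟩
  · rw [connectedComponentIn_eq hx]
    exact conn_sc hX (hsub hx) hs ht
  · have hxX : x ∈ X := hX.closed x (closure_mono hsub hx) h1 h2
    obtain ⟨y, hy1, hy2⟩ := mem_closure_iff_nhds.1 hx _ (conn_loc hX hxX)
    have h3 := hy1 (hsub hy2)
    rw [connectedComponentIn_eq hy2, ← connectedComponentIn_eq h3]
    exact mem_connectedComponentIn hxX
  · obtain ⟨c, F, hF, hs, hN⟩ := hX.smooth x (hsub hx)
    refine ⟨c, F, hF, hs, ?_⟩
    filter_upwards [hN, conn_loc hX (hsub hx)] with y h1 h2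
    refine ⟨fun h => h1.1 (hsub h), fun h => ?_⟩
    rw [connectedComponentIn_eq hx]
    exact h2 (h1.2 h)

theorem conn_dz {f g : ℂ → ℂ} {z : ℂ} (h : f =ᶠ[𝓝 z] g) : dz f =ᶠ[𝓝 z] dz g := by
  filter_upwards [h.fderiv (𝕜 := ℝ)] with w hw
  simp only [dz, hw]

theorem conn_dzb {f g : ℂ → ℂ} {z : ℂ} (h : f =ᶠ[𝓝 z] g) : dzb f z = dzb g z := by
  simp only [dzb, h.fderiv_eq (𝕜 := ℝ)]

theorem conn_curv {H H' : ℂ → Matrix (Fin r) (Fin r) ℂ} (h : H =ᶠ[𝓝 0] H') :
    curv H = curv H' := by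
  have h1 : ∀ i j, (fun z => H z i j) =ᶠ[𝓝 0] fun z => H' z i j := fun i j => by
    filter_upwards [h] with z hz
    rw [hz]
  have e1 : (fun i j => dzb (fun z => H z i j) 0) = fun i j => dzb (fun z => H' z i j) 0 := by
    funext i j; exact conn_dzb (h1 i j)
  have e2 : (fun i j => dz (fun z => H z i j) 0) = fun i j => dz (fun z => H' z i j) 0 := by
    funext i j; exact (conn_dz (h1 i j)).self_of_nhds
  have e3 : (fun i j => dzb (dz fun z => H z i j) 0) =
      fun i j => dzb (dz fun z => H' z i j) 0 := by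
    funext i j; exact conn_dzb (conn_dz (h1 i j))
  unfold curv
  rw [e1, e2, e3, h.self_of_nhds]

theorem to_connected {X : Set (U × W)} {O : I → Set (U × W)}
    {T : I → I → U × W → Matrix (Fin r) (Fin r) ℂ} (hX : ProjMfd X) (hB : Bundle X O T)
    (hA : Ample X O T) (hn : ¬ ∃ h, HMetric X O T h ∧ Griffiths X O h) :
    ∃ X1 : Set (U × W), IsConnected X1 ∧ ProjMfd X1 ∧ Bundle X1 O T ∧ Ample X1 O T ∧
      ¬ ∃ h, HMetric X1 O T h ∧ Griffiths X1 O h := by
  by_contra hcon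
  apply hn
  have key : ∀ C : Set (U × W), ∃ h : I → U × W → Matrix (Fin r) (Fin r) ℂ,
      (∃ a ∈ X, C = connectedComponentIn X a) → HMetric C O T h ∧ Griffiths C O h := by
    intro C
    by_cases hC : ∃ a ∈ X, C = connectedComponentIn X a
    · obtain ⟨a, ha, rfl⟩ := hC
      have hsub := connectedComponentIn_subset X a
      by_contra h
      refine hcon ⟨_, isConnected_connectedComponentIn_iff.2 ha, conn_proj hX a, ?_, ?_, ?_⟩
      · refine ⟨hB.op, hB.inv, fun x hx => hB.cover x (hsub hx), fun α β i j =>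
          (hB.hol α β i j).mono fun x hx => ⟨⟨hsub hx.1.1, hx.1.2⟩, hx.2⟩,
          fun α β x hx => hB.invT α β x ⟨⟨hsub hx.1.1, hx.1.2⟩, hx.2⟩,
          fun α x hx => hB.one α x ⟨hsub hx.1, hx.2⟩,
          fun α β γ x hx => hB.coc α β γ x ⟨⟨⟨hsub hx.1.1.1, hx.1.1.2⟩, hx.1.2⟩, hx.2⟩⟩
      · obtain ⟨m, n, σ, hm, h1, h2, h3⟩ := hA
        refine ⟨m, n, σ, hm, fun k => ⟨fun α => ((h1 k).hol α).mono fun p hp =>
          ⟨⟨hsub hp.1.1, hp.1.2⟩, hp.2⟩, fun α x hx => (h1 k).hom α x ⟨hsub hx.1, hx.2⟩,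
          fun α x hx => (h1 k).inv α x ⟨hsub hx.1, hx.2⟩,
          fun α β x hx => (h1 k).comp α β x ⟨⟨hsub hx.1.1, hx.1.2⟩, hx.2⟩⟩,
          fun α x hx => h2 α x ⟨hsub hx.1, hx.2⟩, fun α w => ?_⟩
        obtain ⟨P, hP, h4⟩ := h3 α w
        exact ⟨P, hP, fun x hx => h4 x ⟨hsub hx.1, hx.2⟩⟩
      · rintro ⟨h', hh⟩
        exact h ⟨h', fun _ => hh⟩
    · exact ⟨fun _ _ => 0, fun h => absurd h hC⟩
  choose g hg using key
  have hg' : ∀ a ∈ X, HMetric (connectedComponentIn X a) O T (g (connectedComponentIn X a)) ∧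
      Griffiths (connectedComponentIn X a) O (g (connectedComponentIn X a)) :=
    fun a ha => hg _ ⟨a, ha, rfl⟩
  refine ⟨fun α x => g (connectedComponentIn X x) α x, ⟨fun α i j x hx => ?_, fun α x hx => ?_,
    fun α x hx s t hs ht => ?_, fun α β x hx => ?_⟩, fun α γ hγ hev hd e he => ?_⟩
  · have h1 := (hg' x hx.1).1.sm α i j x ⟨mem_connectedComponentIn hx.1, hx.2⟩
    have h2 : connectedComponentIn X x ∩ O α ∈ 𝓝[X ∩ O α] x := by
      filter_upwards [nhdsWithin_le_nhds (conn_loc hX hx.1), self_mem_nhdsWithin] with y h3 h4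
      exact ⟨h3 h4.1, h4.2⟩
    refine (h1.mono_of_mem_nhdsWithin h2).congr_of_eventuallyEq ?_ rfl
    filter_upwards [h2] with y hy
    rw [← connectedComponentIn_eq hy.1]
  · exact (hg' x hx.1).1.pos α x ⟨mem_connectedComponentIn hx.1, hx.2⟩
  · rw [← connectedComponentIn_eq (conn_sc hX hx.1 hs ht)]
    exact (hg' x hx.1).1.inv α x ⟨mem_connectedComponentIn hx.1, hx.2⟩ s t hs ht
  · exact (hg' x hx.1.1).1.comp α β x ⟨⟨mem_connectedComponentIn hx.1.1, hx.1.2⟩, hx.2⟩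
  · have h0 : γ 0 ∈ X := hev.self_of_nhds.1
    have h1 : ∀ᶠ z in 𝓝 (0 : ℂ), γ z ∈ connectedComponentIn X (γ 0) ∩ O α := by
      filter_upwards [hγ.continuousAt (conn_loc hX h0), hev] with z h2 h3
      exact ⟨h2 h3.1, h3.2⟩
    have h2 := (hg' _ h0).2 α γ hγ h1 hd e he
    have h3 : (fun z => g (connectedComponentIn X (γ z)) α (γ z)) =ᶠ[𝓝 0]
        fun z => g (connectedComponentIn X (γ 0)) α (γ z) := by
      filter_upwards [h1] with z hz
      rw [← connectedComponentIn_eq hz.1]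
    rw [conn_curv h3]
    exact h2

end Vale.Agent.P296
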