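import Vale.Agent.P296.Def2
import Vale.Agent.P296.Conn

namespace Vale.Agent.P296

open Matrix Filter Topology MeasureTheory Metric Laplacian ComplexOrder

theorem comp_nhds {U W : Type} [NormedAddCommGroup U] [NormedSpace ℂ U] [FiniteDimensional ℂ U]
    [NormedAddCommGroup W] [NormedSpace ℂ W] [FiniteDimensional ℂ W] {X : Set (U × W)}
    (h : ProjMfd X) {x : U × W} (hx : x ∈ X) : connectedComponentIn X x ∈ 𝓝[X] x :=
  eventually_nhdsWithin_iff.2 (conn_loc h hx)

end Vale.Agent.P296
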