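import Vale.Agent.P296.Comp1

namespace Vale.Agent.P296

open Matrix Filter Topology MeasureTheory Metric Laplacian ComplexOrder

theorem comp_red {U W : Type} [NormedAddCommGroup U] [NormedSpace ℂ U] [FiniteDimensional ℂ U]
    [NormedAddCommGroup W] [NormedSpace ℂ W] [FiniteDimensional ℂ W] {I : Type} {r : ℕ}
    {X : Set (U × W)} {O : I → Set (U × W)} {T : I → I → U × W → Matrix (Fin r) (Fin r) ℂ}
    (h1 : ProjMfd X) (h2 : Bundle X O T) (h3 : Ample X O T)
    (h4 : ¬∃ h, HMetric X O T h ∧ Griffiths X O h) :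
    ∃ Y : Set (U × W), IsConnected Y ∧ ProjMfd Y ∧ Bundle Y O T ∧ Ample Y O T ∧
      ¬∃ h, HMetric Y O T h ∧ Griffiths Y O h :=
  to_connected h1 h2 h3 h4

end Vale.Agent.P296
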