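import Vale.Agent.P296.St

/-! Ampleness through a projective embedding. -/

namespace Vale.Agent.P296

open Matrix Filter Topology

variable {U W : Type} [NormedAddCommGroup U] [NormedSpace ℂ U] [NormedAddCommGroup W]
  [NormedSpace ℂ W] {I : Type} {r : ℕ}

/-- sections of some `O(m)`, `m > 0`, embed `ℙ(E)` in a projective space: they have no common
zero, separate points and separate tangent vectors -/
def AmpleV (X : Set (U × W)) (O : I → Set (U × W))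
    (T : I → I → U × W → Matrix (Fin r) (Fin r) ℂ) : Prop :=
  ∃ (m n : ℕ) (σ : Fin n → I → U × W → (Fin r → ℂ) → ℂ), 0 < m ∧ (∀ k, Sect X O T m (σ k)) ∧
    (∀ α, ∀ x ∈ X ∩ O α, ∀ v, v ≠ 0 → ∃ k, σ k α x v ≠ 0) ∧
    (∀ α β, ∀ x ∈ X ∩ O α, ∀ x' ∈ X ∩ O β, ∀ v v', v ≠ 0 → v' ≠ 0 →
      (∃ c : ℂ, ∀ k, σ k β x' v' = c * σ k α x v) →
        ∃ s t c : ℂ, s ≠ 0 ∧ t ≠ 0 ∧ x' = sc s t x ∧ v' = c • (T α β x)ᵀ *ᵥ v) ∧
    ∀ (α : I) (γ : ℂ → U × W) (u : ℂ → Fin r → ℂ), AnalyticAt ℂ γ 0 → AnalyticAt ℂ u 0 →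
      (∀ᶠ z in 𝓝 0, γ z ∈ X ∩ O α) → u 0 ≠ 0 →
      (∃ c : ℂ, ∀ k, deriv (fun z => σ k α (γ z) (u z)) 0 = c * σ k α (γ 0) (u 0)) →
        (∃ s t, deriv γ 0 = sc s t (γ 0)) ∧ ∃ c : ℂ, deriv u 0 = c • u 0

end Vale.Agent.P296
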