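import Vale.Agent.P296.Conn
import Vale.Agent.P296.St2

/-! Reduction to a connected component, for the embedding form of ampleness. -/

namespace Vale.Agent.P296

open Matrix Filter Topology ComplexOrder

variable {U W : Type} [NormedAddCommGroup U] [NormedSpace ℂ U] [FiniteDimensional ℂ U]
  [NormedAddCommGroup W] [NormedSpace ℂ W] [FiniteDimensional ℂ W] {I : Type} {r : ℕ}

theorem to_connectedV {X : Set (U × W)} {O : I → Set (U × W)}
    {T : I → I → U × W → Matrix (Fin r) (Fin r) ℂ} (hX : ProjMfd X) (hB : Bundle X O T)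
    (hA : AmpleV X O T) (hn : ¬ ∃ h, HMetric X O T h ∧ Griffiths X O h) :
    ∃ X1 : Set (U × W), IsConnected X1 ∧ ProjMfd X1 ∧ Bundle X1 O T ∧ AmpleV X1 O T ∧
      ¬ ∃ h, HMetric X1 O T h ∧ Griffiths X1 O h := by
  by_contra hcon
  apply hn
  have key : ∀ C : Set (U × W), ∃ h : I → U × W → Matrix (Fin r) (Fin r) ℂ,
      (∃ a ∈ X, C = connectedComponentIn X a) → HMetric C O T h ∧ Griffiths C O h := by
    intro C
    by_cases hC : ∃ a ∈ X, C = connectedComponentIn X a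
    · obtain ⟨a, ha, rfl⟩ := hC
      have hsub := connectedComponentIn_subset X a
      by_contra h
      refine hcon ⟨_, isConnected_connectedComponentIn_iff.2 ha, conn_proj hX a, ?_, ?_, ?_⟩
      · refine ⟨hB.op, hB.inv, fun x hx => hB.cover x (hsub hx), fun α β i j =>
          (hB.hol α β i j).mono fun x hx => ⟨⟨hsub hx.1.1, hx.1.2⟩, hx.2⟩,
          fun α β x hx => hB.invT α β x ⟨⟨hsub hx.1.1, hx.1.2⟩, hx.2⟩,
          fun α x hx => hB.one α x ⟨hsub hx.1, hx.2⟩,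
          fun α β γ x hx => hB.coc α β γ x ⟨⟨⟨hsub hx.1.1.1, hx.1.1.2⟩, hx.1.2⟩, hx.2⟩⟩
      · obtain ⟨m, n, σ, hm, h1, h2, h3, h4⟩ := hA
        refine ⟨m, n, σ, hm, fun k => ⟨fun α => ((h1 k).hol α).mono fun p hp =>
          ⟨⟨hsub hp.1.1, hp.1.2⟩, hp.2⟩, fun α x hx => (h1 k).hom α x ⟨hsub hx.1, hx.2⟩,
          fun α x hx => (h1 k).inv α x ⟨hsub hx.1, hx.2⟩,
          fun α β x hx => (h1 k).comp α β x ⟨⟨hsub hx.1.1, hx.1.2⟩, hx.2⟩⟩,
          fun α x hx => h2 α x ⟨hsub hx.1, hx.2⟩,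
          fun α β x hx x' hx' => h3 α β x ⟨hsub hx.1, hx.2⟩ x' ⟨hsub hx'.1, hx'.2⟩,
          fun α γ u hγ hu hev => h4 α γ u hγ hu (hev.mono fun z hz => ⟨hsub hz.1, hz.2⟩)⟩
      · rintro ⟨h', hh⟩
        exact h ⟨h', fun _ => hh⟩
    · exact ⟨fun _ _ => 0, fun h => absurd h hC⟩
  choose g hg using key
  have hg' : ∀ a ∈ X, HMetric (connectedComponentIn X a) O T (g (connectedComponentIn X a)) ∧
      Griffiths (connectedComponentIn X a) O (g (connectedComponentIn X a)) :=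
    fun a ha => hg _ ⟨a, ha, rfl⟩
  refine ⟨fun α x => g (connectedComponentIn X x) α x, ⟨fun α i j x hx => ?_, fun α x hx => ?_,
    fun α x hx s t hs ht => ?_, fun α β x hx => ?_⟩, fun α γ hγ hev hd e he => ?_⟩
  · have h1 := (hg' x hx.1).1.sm α i j x ⟨mem_connectedComponentIn hx.1, hx.2⟩
    have h2 : connectedComponentIn X x ∩ O α ∈ 𝓝[X ∩ O α] x := by
      filter_upwards [nhdsWithin_le_nhds (conn_loc hX hx.1), self_mem_nhdsWithin] with y h3 h4
      exact ⟨h3 h4.1, h4.2⟩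
    refine (h1.mono_of_mem_nhdsWithin h2).congr_of_eventuallyEq ?_ rfl
    filter_upwards [h2] with y hy
    rw [← connectedComponentIn_eq hy.1]
  · exact (hg' x hx.1).1.pos α x ⟨mem_connectedComponentIn hx.1, hx.2⟩
  · rw [← connectedComponentIn_eq (conn_sc hX hx.1 hs ht)]
    exact (hg' x hx.1).1.inv α x ⟨mem_connectedComponentIn hx.1, hx.2⟩ s t hs ht
  · exact (hg' x hx.1.1).1.comp α β x ⟨⟨mem_connectedComponentIn hx.1.1, hx.1.2⟩, hx.2⟩
  · have h0 : γ 0 ∈ X := hev.self_of_nhds.1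
    have h1 : ∀ᶠ z in 𝓝 (0 : ℂ), γ z ∈ connectedComponentIn X (γ 0) ∩ O α := by
      filter_upwards [hγ.continuousAt (conn_loc hX h0), hev] with z h2 h3
      exact ⟨h2 h3.1, h3.2⟩
    have h2 := (hg' _ h0).2 α γ hγ h1 hd e he
    have h3 : (fun z => g (connectedComponentIn X (γ z)) α (γ z)) =ᶠ[𝓝 0]
        fun z => g (connectedComponentIn X (γ 0)) α (γ z) := by
      filter_upwards [h1] with z hz
      rw [← connectedComponentIn_eq hz.1]
    rw [conn_curv h3]
    exact h2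

end Vale.Agent.P296
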