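import Vale.Agent.P296.Def2

namespace Vale.Agent.P296

open Matrix Filter Topology MeasureTheory Metric Laplacian ComplexOrder

theorem cov_loc {E F : Type} [NormedAddCommGroup E] [NormedSpace ℂ E] [FiniteDimensional ℂ E]
    [NormedAddCommGroup F] [NormedSpace ℂ F] [FiniteDimensional ℂ F] {Φ : E → F} {x : E}
    (hΦ : AnalyticAt ℂ Φ x) (hb : Function.Bijective (fderiv ℂ Φ x)) :
    ∃ φ : OpenPartialHomeomorph E F, (φ : E → F) = Φ ∧ x ∈ φ.source ∧
      AnalyticAt ℂ φ.symm (Φ x) := by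
  haveI : CompleteSpace E := FiniteDimensional.complete ℂ E
  haveI : CompleteSpace F := FiniteDimensional.complete ℂ F
  let L : E ≃L[ℂ] F :=
    (LinearEquiv.ofBijective (fderiv ℂ Φ x : E →ₗ[ℂ] F) hb).toContinuousLinearEquiv
  have hL : (L : E →L[ℂ] F) = fderiv ℂ Φ x := by
    ext v; rfl
  have h1 : ContDiffAt ℂ ⊤ Φ x := hΦ.contDiffAt
  have h2 : HasFDerivAt Φ (L : E →L[ℂ] F) x := by
    rw [hL]; exact hΦ.differentiableAt.hasFDerivAt
  refine ⟨h1.toOpenPartialHomeomorph Φ h2 (by simp), rfl,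
    h1.mem_toOpenPartialHomeomorph_source h2 (by simp), ?_⟩
  exact (h1.to_localInverse h2 (by simp)).analyticAt

theorem cov {E F P : Type} [NormedAddCommGroup E] [NormedSpace ℂ E] [FiniteDimensional ℂ E]
    [NormedAddCommGroup F] [NormedSpace ℂ F] [FiniteDimensional ℂ F] [NormedAddCommGroup P]
    [NormedSpace ℂ P] {Φ : E → F} (hΦ : ∀ x, AnalyticAt ℂ Φ x) {τ : P → F} {p₀ : P}
    (hτ : AnalyticAt ℂ τ p₀) (hb : ∀ x, Φ x = τ p₀ → Function.Bijective (fderiv ℂ Φ x))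
    (hR : ∃ R, ∀ᶠ p in 𝓝 p₀, ∀ x, Φ x = τ p → ‖x‖ ≤ R) :
    ∃ (n : ℕ) (σ : Fin n → P → E), (∀ k, AnalyticAt ℂ (σ k) p₀) ∧ ∀ᶠ p in 𝓝 p₀,
      Function.Injective (fun k => σ k p) ∧ {x | Φ x = τ p} = Set.range fun k => σ k p := by
  obtain ⟨R, hR⟩ := hR
  haveI : ProperSpace E := FiniteDimensional.proper_rclike ℂ E
  have hc : Continuous Φ := continuous_iff_continuousAt.2 fun x => (hΦ x).continuousAt
  set S : Set E := {x | Φ x = τ p₀} with hS
  have hSc : IsCompact S := by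
    refine (isCompact_closedBall (0 : E) R).of_isClosed_subset
      (isClosed_eq hc continuous_const) fun x hx => ?_
    simpa using hR.self_of_nhds x hx
  choose φ hφ hs ha using fun (x : E) (hx : x ∈ S) => cov_loc (hΦ x) (hb x hx)
  have hfin : S.Finite := by
    obtain ⟨t, ht⟩ := hSc.elim_nhds_subcover' (fun x hx => (φ x hx).source)
      (fun x hx => (φ x hx).open_source.mem_nhds (hs x hx))
    refine (t.finite_toSet.image Subtype.val).subset fun y hy => ?_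
    obtain ⟨x, hx, hyx⟩ := Set.mem_iUnion₂.1 (ht hy)
    refine ⟨x, hx, ?_⟩
    refine (φ x x.2).injOn (hs x x.2) hyx ?_
    rw [hφ]
    exact (x.2 : Φ x = τ p₀).trans (hy : Φ y = τ p₀).symm
  obtain ⟨n, ⟨e⟩⟩ : ∃ n, Nonempty (Fin n ≃ S) := by
    haveI := hfin.to_subtype
    obtain ⟨n, ⟨e⟩⟩ := Finite.exists_equiv_fin S
    exact ⟨n, ⟨e.symm⟩⟩
  have he : ∀ k, Φ (e k) = τ p₀ := fun k => (e k).2
  have hA : ∀ k, AnalyticAt ℂ (fun p => (φ (e k) (e k).2).symm (τ p)) p₀ := fun k =>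
    AnalyticAt.comp (f := τ) (he k ▸ ha (e k) (e k).2) hτ
  have h0 : ∀ k, (φ (e k) (e k).2).symm (τ p₀) = e k := fun k => by
    have := (φ (e k) (e k).2).left_inv (hs (e k) (e k).2)
    rwa [hφ, he] at this
  refine ⟨n, fun k p => (φ (e k) (e k).2).symm (τ p), hA, ?_⟩
  have h1 : ∀ᶠ p in 𝓝 p₀, ∀ k j, k ≠ j →
      (φ (e k) (e k).2).symm (τ p) ≠ (φ (e j) (e j).2).symm (τ p) := by
    refine eventually_all.2 fun k => eventually_all.2 fun j => ?_
    by_cases hkj : k = j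
    · exact Eventually.of_forall fun p h => (h hkj).elim
    · refine (((hA k).continuousAt.ne_iff_eventually_ne (hA j).continuousAt).1 ?_).mono
        fun p h _ => h
      simp only [h0]
      exact fun h => hkj (e.injective (Subtype.ext h))
  have h2 : ∀ᶠ p in 𝓝 p₀, ∀ k, τ p ∈ (φ (e k) (e k).2).target := by
    refine eventually_all.2 fun k => hτ.continuousAt.eventually
      ((φ (e k) (e k).2).open_target.mem_nhds ?_)
    have := (φ (e k) (e k).2).map_source (hs (e k) (e k).2)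
    rwa [hφ, he] at this
  have hK : IsCompact (closedBall (0 : E) R \ ⋃ k, (φ (e k) (e k).2).source) :=
    (isCompact_closedBall _ _).diff (isOpen_iUnion fun k => (φ (e k) (e k).2).open_source)
  have h3 : ∀ᶠ p in 𝓝 p₀,
      τ p ∈ (Φ '' (closedBall (0 : E) R \ ⋃ k, (φ (e k) (e k).2).source))ᶜ := by
    refine hτ.continuousAt.eventually ((hK.image hc).isClosed.isOpen_compl.mem_nhds ?_)
    rintro ⟨x, ⟨-, hx⟩, hx'⟩
    refine hx (Set.mem_iUnion.2 ⟨e.symm ⟨x, hx'⟩, ?_⟩)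
    have := hs (e (e.symm ⟨x, hx'⟩)) (e (e.symm ⟨x, hx'⟩)).2
    simpa using this
  filter_upwards [hR, h1, h2, h3] with p hp g1 g2 g3
  refine ⟨fun k j h => by_contra fun hkj => g1 k j hkj h, Set.Subset.antisymm ?_ ?_⟩
  · intro x hx
    have hx' : Φ x = τ p := hx
    by_contra hn
    refine g3 ⟨x, ⟨by simpa using hp x hx', fun hm => hn ?_⟩, hx'⟩
    obtain ⟨k, hk⟩ := Set.mem_iUnion.1 hm
    refine ⟨k, ?_⟩
    have := (φ (e k) (e k).2).left_inv hk
    rwa [hφ, hx'] at this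
  · rintro x ⟨k, rfl⟩
    have := (φ (e k) (e k).2).right_inv (g2 k)
    rwa [hφ] at this

end Vale.Agent.P296
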