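import Vale.Agent.P296.Def2
import Vale.Agent.P296.St2

/-! Definitions for the projective embedding of `ℙ(E)` (P296). -/

namespace Vale.Agent.P296

open Matrix

noncomputable section

abbrev Ix := Fin 2 × Fin 3

abbrev Fn := Ix → V × Zc → (Fin 2 → ℂ) → ℂ

/-- functions of degree `d` in the fibre and weight `w` -/
structure WS (N d w : ℕ) (f : Fn) : Prop where
  hol : ∀ α, ∀ p : (V × Zc) × (Fin 2 → ℂ), p.1 ∈ OO α →
    AnalyticAt ℂ (fun p : (V × Zc) × (Fin 2 → ℂ) => f α p.1 p.2) p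
  hom : ∀ α x v, ∀ c : ℂ, f α x (c • v) = c ^ d * f α x v
  inv : ∀ α x v s t, s ≠ 0 → t ≠ 0 → f α (sc s t x) v = f α x v
  comp : ∀ α β, ∀ x ∈ XX N ∩ OO α ∩ OO β, ∀ v,
    f β x ((TT N α β x)ᵀ *ᵥ v) * mu α x β.2 ^ w = mu α x β.2 ^ d * f α x v

/-- coefficients of the quartic -/
def pc (l : V) : Fin 5 → ℂ := ![(Dm l).adjugate 0 0, 2 * (Dm l).adjugate 0 1,
  2 * (Dm l).adjugate 0 2 + (Dm l).adjugate 1 1, 2 * (Dm l).adjugate 1 2, (Dm l).adjugate 2 2]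

def rho (l : V) (r : ℂ) : ℂ := pc l 0 + pc l 1 * r + pc l 2 * r ^ 2 + pc l 3 * r ^ 3 + pc l 4 * r ^ 4

def g0 (l : V) (r e : ℂ) : ℂ := pc l 1 + pc l 2 * (r + e) + pc l 3 * (r ^ 2 + r * e + e ^ 2) +
  pc l 4 * (r ^ 3 + r ^ 2 * e + r * e ^ 2 + e ^ 3)

def g1 (l : V) (r e : ℂ) : ℂ := -(pc l 0 * (1 + r * e + (r * e) ^ 2 + (r * e) ^ 3) +
  pc l 1 * r * (1 + r * e + (r * e) ^ 2) + pc l 2 * r ^ 2 * (1 + r * e) + pc l 3 * r ^ 3)

def gg (N : ℕ) (r : ℂ) (α : Ix) (x : V × Zc) : ℂ :=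
  if α.1 = 0 then g0 (pw N (mu α x)) r (et α x 1) else g1 (pw N (mu α x)) r (et α x 0)

def uu (N : ℕ) (r : ℂ) (i : Fin 2) : Fn := fun α x v =>
  gg N r α x ^ 2 * (et α x i ^ 3 * v 0 - ((i.val : ℂ) - α.1.val) * et α x i *
    ((bc α x).1 * et α x 1 + (bc α x).2 * et α x 0) * v 1)

abbrev Jx := Fin 3 × Fin 3 × Fin 5 × Fin 2 × Fin 3 × Fin 3 × Fin 8

/-- the sections of `O(16 N + 2)`; index `(k, l, r, i, k', l', τ)` -/
def sec2 (N : ℕ) (j : Jx) : Fn := fun α x v =>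
  let q := qc N α x v j.1
  let m := mu α x j.2.1
  let g := gg N (j.2.2.1.val : ℂ) α x
  let u := uu N (j.2.2.1.val : ℂ) j.2.2.2.1 α x v
  q ^ (8 * N) * ![qc N α x v j.2.2.2.2.1 * mu α x j.2.2.2.2.2.1 * m ^ (16 * N + 1),
    q * (g * et α x 0) * m ^ (12 * N + 2), q * (g * et α x 1) * m ^ (12 * N + 2),
    q * (g * (bc α x).1) * m ^ (11 * N + 2), q * (g * (bc α x).2) * m ^ (11 * N + 2),
    u * u * m ^ 2, u * (g * v 1) * m ^ (5 * N + 2), g * v 1 * (g * v 1) * m ^ (10 * N + 2)]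
    j.2.2.2.2.2.2

end

end Vale.Agent.P296
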