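import Vale.Agent.P296.Alg0
import Vale.Agent.P296.Def2

namespace Vale.Agent.P296

open Matrix Filter Topology MeasureTheory Metric Laplacian ComplexOrder

theorem der_cd (N : ℕ) : ContDiff ℂ (⊤ : WithTop ℕ∞) (Feq N) := by
  refine contDiff_pi.2 fun i => ?_
  fin_cases i <;>
    simp [Feq, Rc, bil, l1, l2, Dm, pw, bb, mulVec, dotProduct, Fin.sum_univ_three] <;> fun_prop

theorem an_Feq (N : ℕ) (p : (ℂ × ℂ) × V × (ℂ × ℂ)) : AnalyticAt ℂ (Feq N) p :=
  (der_cd N).contDiffAt.analyticAt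

theorem an_Phi (N : ℕ) (x : P6) : AnalyticAt ℂ (Phi N) x := by
  have h : ContDiff ℂ (⊤ : WithTop ℕ∞) (Phi N) := by
    refine ContDiff.prodMk ((der_cd N).comp (f := fun x : P6 => ((1, x.1), x.2)) (by fun_prop))
      (contDiff_pi.2 fun j => ?_)
    simp only [pw]
    fun_prop
  exact h.contDiffAt.analyticAt

theorem an_pt (N : ℕ) (p : (ℂ × ℂ) × V × (ℂ × ℂ)) : AnalyticAt ℂ (pt N) p := by
  have h : ContDiff ℂ (⊤ : WithTop ℕ∞) (pt N) := by
    refine ContDiff.prodMk (by fun_prop) (contDiff_pi.2 fun j => ?_)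
    fin_cases j <;> simp <;> fun_prop
  exact h.contDiffAt.analyticAt

theorem der_Rc {M : M3} (h1 : M 1 0 = M 0 1) (h2 : M 2 0 = M 0 2) (h3 : M 2 1 = M 1 2)
    {x y : ℂ → ℂ} {x' y' : ℂ} (hx : HasDerivAt x x' 0) (hy : HasDerivAt y y' 0) (i : Fin 3) :
    HasDerivAt (fun t => Rc M (x t) (y t) i) (Rp M (x 0) (y 0) x' y' i) 0 := by
  have k : ∀ a b c : ℂ, HasDerivAt (fun t => a * (y t * y t) + b * (x t * y t) + c * (x t * x t))
      (a * (y' * y 0 + y 0 * y') + b * (x' * y 0 + x 0 * y') + c * (x' * x 0 + x 0 * x')) 0 :=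
    fun a b c => (((hy.mul hy).const_mul a).add ((hx.mul hy).const_mul b)).add
      ((hx.mul hx).const_mul c)
  fin_cases i
  · convert k (M 0 0) (-2 * M 0 1) (M 1 1) using 1
    · ext t
      simp [Rc, bil, l1, l2, mulVec, dotProduct, Fin.sum_univ_three, h1]
      ring
    · simp [Rp, bil, l1, l2, mulVec, dotProduct, Fin.sum_univ_three, h1]
      ring
  · convert k (M 0 1) (-(M 0 2 + M 1 1)) (M 1 2) using 1
    · ext t
      simp [Rc, bil, l1, l2, mulVec, dotProduct, Fin.sum_univ_three]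
      ring
    · simp [Rp, bil, l1, l2, mulVec, dotProduct, Fin.sum_univ_three]
      ring
  · convert k (M 1 1) (-2 * M 1 2) (M 2 2) using 1
    · ext t
      simp [Rc, bil, l1, l2, mulVec, dotProduct, Fin.sum_univ_three, h3]
      ring
    · simp [Rp, bil, l1, l2, mulVec, dotProduct, Fin.sum_univ_three, h3]
      ring

theorem der_bil (l u v : V) : bil (Dm l) u v = ∑ j, l j * bil (Dj j) u v := by
  simp [bil, Dm, add_mulVec, smul_mulVec, Fin.sum_univ_three, Dj]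

theorem der_lin (a b : ℂ) : HasDerivAt (fun t : ℂ => a + t * b) b 0 := by
  simpa using ((hasDerivAt_id (0 : ℂ)).mul_const b).const_add a

theorem der_pow (n : ℕ) (a b : ℂ) :
    HasDerivAt (fun t : ℂ => (a + t * b) ^ n) (n * a ^ (n - 1) * b) 0 := by
  simpa using (der_lin a b).fun_pow n

theorem der_bb (a b a' b' : ℂ) (i : Fin 3) :
    HasDerivAt (fun t : ℂ => bb (a + t * a') (b + t * b') i) (dbb a b a' b' i) 0 := by
  fin_cases i
  · simpa [bb, dbb] using der_pow 2 a a'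
  · simpa [bb, dbb, add_comm, mul_comm] using (der_lin a a').fun_mul (der_lin b b')
  · simpa [bb, dbb] using der_pow 2 b b'

theorem fd_Feq (N : ℕ) (p d : (ℂ × ℂ) × V × (ℂ × ℂ)) : fderiv ℂ (Feq N) p d =
    Rp (Dm (pw N p.2.1)) p.1.1 p.1.2 d.1.1 d.1.2 +
      ∑ j, ((2 * N : ℕ) * p.2.1 j ^ (2 * N - 1) * d.2.1 j) • Rc (Dj j) p.1.1 p.1.2 -
      dbb p.2.2.1 p.2.2.2 d.2.2.1 d.2.2.2 := by
  refine ((an_Feq N p).differentiableAt.hasFDerivAt.hasLineDerivAt d).unique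
    (hasDerivAt_pi.2 fun i => ?_)
  have h1 : ∀ j : Fin 3, HasDerivAt
      (fun t : ℂ => Rc (Dj j) (p.1.1 + t * d.1.1) (p.1.2 + t * d.1.2) i)
      (Rp (Dj j) p.1.1 p.1.2 d.1.1 d.1.2 i) 0 := fun j => by
    simpa using der_Rc (M := Dj j) (by fin_cases j <;> simp [Dj, D0, D1, D2])
      (by fin_cases j <;> simp [Dj, D0, D1, D2]) (by fin_cases j <;> simp [Dj, D0, D1, D2])
      (der_lin p.1.1 d.1.1) (der_lin p.1.2 d.1.2) i
  have h2 := (HasDerivAt.fun_sum (u := Finset.univ) fun j _ =>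
    (der_pow (2 * N) (p.2.1 j) (d.2.1 j)).fun_mul (h1 j)).fun_sub
    (der_bb p.2.2.1 p.2.2.2 d.2.2.1 d.2.2.2 i)
  convert h2 using 1
  · ext t
    fin_cases i <;> simp [Feq, Rc, der_bil, pw]
  · fin_cases i <;> simp [Rc, Rp, der_bil, pw, Fin.sum_univ_three] <;> ring

theorem fd_Phi (N : ℕ) (x d : P6) : fderiv ℂ (Phi N) x d =
    (fderiv ℂ (Feq N) ((1, x.1), x.2) ((0, d.1), d.2),
      fun j => (2 * N : ℕ) * x.2.1 j ^ (2 * N - 1) * d.2.1 j) := by
  refine ((an_Phi N x).differentiableAt.hasFDerivAt.hasLineDerivAt d).unique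
    (HasDerivAt.prodMk ?_ (hasDerivAt_pi.2 fun j => ?_))
  · have h := (an_Feq N ((1, x.1), x.2)).differentiableAt.hasFDerivAt.hasLineDerivAt
      ((0, d.1), d.2)
    unfold HasLineDerivAt at h
    simpa using h
  · simpa [pw] using der_pow (2 * N) (x.2.1 j) (d.2.1 j)

end Vale.Agent.P296
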