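import Vale.Agent.P296.SC2
import Vale.Agent.P296.Base

namespace Vale.Agent.P296

open Matrix Filter Topology MeasureTheory Metric Laplacian ComplexOrder

theorem FA_k1 (w : Pm) : Ry w.1.1 *ᵥ (Xi w).1 =
    (w.1.2.1 * (Ry w.1.1).det) • ![1, w.2.1, w.2.1 ^ 2] := by
  simp only [Xi, mulVec_smul, Ry_Lam, smul_smul]

theorem FA_k2 (w : Pm) : Ry w.1.1 *ᵥ (Xi w).2 =
    (w.1.2.2 * (Ry w.1.1).det) • ![1, w.2.2, w.2.2 ^ 2] := by
  simp only [Xi, mulVec_smul, Ry_Lam, smul_smul]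

theorem FA_g1 {w : Pm} (h : Nd w) : gd (Xi w).1 ≠ 0 := by
  simp only [Xi, gd_smul]
  exact mul_ne_zero (pow_ne_zero _ h.2.2.1) h.2.2.2.2.1

theorem FA_g2 {w : Pm} (h : Nd w) : gd (Xi w).2 ≠ 0 := by
  simp only [Xi, gd_smul]
  exact mul_ne_zero (pow_ne_zero _ h.2.2.2.1) h.2.2.2.2.2

theorem FA_cXi : Continuous Xi := by
  have h1 : Continuous fun w : Pm => Lam w.1.1 w.2.1 :=
    cont_Lam.comp (f := fun w : Pm => (w.1.1, w.2.1)) (by fun_prop)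
  have h2 : Continuous fun w : Pm => Lam w.1.1 w.2.2 :=
    cont_Lam.comp (f := fun w : Pm => (w.1.1, w.2.2)) (by fun_prop)
  unfold Xi
  exact ((by fun_prop : Continuous fun w : Pm => w.1.2.1).smul h1).prodMk
    ((by fun_prop : Continuous fun w : Pm => w.1.2.2).smul h2)

theorem FA_cdet : Continuous fun w : Pm => (Ry w.1.1).det :=
  cont_detRy.comp (f := fun w : Pm => w.1.1) (by fun_prop)

/-- the nondegeneracy needed near the base points -/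
def FAok (w : Pm) : Prop := w.1.2.1 * (Ry w.1.1).det ≠ 0 ∧ w.1.2.2 * (Ry w.1.1).det ≠ 0

theorem FA_ok : ∀ᶠ p : ℝ × (Fin 6 → Pm) in 𝓝 (0, wb), ∀ k, FAok (p.2 k) := by
  rw [eventually_all]
  intro k
  have hk := base_nd k
  have hc : Tendsto (fun p : ℝ × (Fin 6 → Pm) => p.2 k) (𝓝 (0, wb)) (𝓝 (wb k)) :=
    (by fun_prop : Continuous fun p : ℝ × (Fin 6 → Pm) => p.2 k).tendsto' _ _ rfl
  have h1 : Continuous fun w : Pm => w.1.2.1 * (Ry w.1.1).det :=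
    (by fun_prop : Continuous fun w : Pm => w.1.2.1).mul FA_cdet
  have h2 : Continuous fun w : Pm => w.1.2.2 * (Ry w.1.1).det :=
    (by fun_prop : Continuous fun w : Pm => w.1.2.2).mul FA_cdet
  have e1 := (h1.continuousAt (x := wb k)).eventually_ne (mul_ne_zero hk.2.2.1 hk.1)
  have e2 := (h2.continuousAt (x := wb k)).eventually_ne (mul_ne_zero hk.2.2.2.1 hk.1)
  exact hc.eventually (e1.and e2)

theorem FA_1 : ∀ᶠ p : ℝ × (Fin 6 → Pm) in 𝓝 (0, wb), ∀ a : V, (Xi (p.2 0)).1 = a →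
    (Xi (p.2 1)).1 = a → (Xi (p.2 2)).1 = a → ∀ N G, GI N G →
    0 < -7 * (1 + p.1) * G a (Yp (p.2 0).1.1) + 3 * G a (Yp (p.2 1).1.1) +
      2 * G a (Yp (p.2 2).1.1) := by
  have hx : (Xi (wb 0)).1 = lb0 := by rw [base_xi.1]
  have hκ : (wb 0).1.2.1 * (Ry (wb 0).1.1).det = -2 := by
    have : (wb 0).1.1 = (0, 1) := rfl
    rw [this, base_det.1]; simp [wb]; norm_num
  have h0 := FA_k1 (wb 0)
  rw [hx, hκ] at h0
  have hs := sc2 (ι := Fin 3) (l := lb0) (y := (wb 0).1.1) (s := (wb 0).2.1) (κ := -2)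
    (by norm_num) (hx ▸ FA_g1 (base_nd 0)) h0 ![(wb 0).1.1, (wb 1).1.1, (wb 2).1.1] ![-7, 3, 2]
    ![(1, 0, 0), (3 / 2, -1 / 2, 1 / 6), (3 / 2, 1 / 2, 1 / 6)]
    (by
      intro k
      fin_cases k <;> ext j <;> fin_cases j <;>
        simp [wb, Yp, Cy, Dm, D0, D1, D2, lb0] <;> norm_num)
    (by intro k; fin_cases k <;> norm_num) (by simp [Fin.sum_univ_three]; norm_num)
    (by simp [Fin.sum_univ_three]; norm_num)
  have hc : Continuous fun p : ℝ × (Fin 6 → Pm) =>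
      ((((Xi (p.2 0)).1, (p.2 0).1.1, (p.2 0).2.1, (p.2 0).1.2.1 * (Ry (p.2 0).1.1).det),
        ![(p.2 0).1.1, (p.2 1).1.1, (p.2 2).1.1], ![-7 * (1 + p.1), 3, 2]) :
        (V × (ℂ × ℂ) × ℂ × ℂ) × (Fin 3 → ℂ × ℂ) × (Fin 3 → ℝ)) := by
    have h1 : Continuous fun p : ℝ × (Fin 6 → Pm) => Xi (p.2 0) :=
      FA_cXi.comp (f := fun p : ℝ × (Fin 6 → Pm) => p.2 0) (by fun_prop)
    have h2 : Continuous fun p : ℝ × (Fin 6 → Pm) => (Ry (p.2 0).1.1).det :=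
      FA_cdet.comp (f := fun p : ℝ × (Fin 6 → Pm) => p.2 0) (by fun_prop)
    exact (h1.fst.prodMk ((by fun_prop : Continuous _).prodMk ((by fun_prop : Continuous _).prodMk
      ((by fun_prop : Continuous fun p : ℝ × (Fin 6 → Pm) => (p.2 0).1.2.1).mul h2)))).prodMk
      (by fun_prop)
  have ht := (hc.tendsto' (0, wb) _ (by simp only [hx, hκ, add_zero, mul_one])).eventually hs
  filter_upwards [ht, FA_ok] with p hp hok a h0 h1 h2 N G hG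
  have := hp (FA_k1 _) (by
    intro k
    fin_cases k
    · exact ⟨_, _, (hok 0).1, FA_k1 _⟩
    · exact ⟨_, _, (hok 1).1, by rw [h0, ← h1]; exact FA_k1 _⟩
    · exact ⟨_, _, (hok 2).1, by rw [h0, ← h2]; exact FA_k1 _⟩) N G hG
  simpa [Fin.sum_univ_three, h0] using this

theorem FA_2 : ∀ᶠ p : ℝ × (Fin 6 → Pm) in 𝓝 (0, wb), ∀ b : V, (Xi (p.2 0)).2 = b →
    (Xi (p.2 1)).2 = b → (Xi (p.2 2)).2 = b → (Xi (p.2 3)).1 = b → (Xi (p.2 4)).1 = b →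
    (Xi (p.2 5)).1 = b → ∀ N G, GI N G →
    0 < 7 * G b (Yp (p.2 0).1.1) + -3 * (1 + p.1) * G b (Yp (p.2 1).1.1) +
      -2 * (1 + p.1) * G b (Yp (p.2 2).1.1) + -2 * (1 + p.1) * G b (Yp (p.2 3).1.1) +
      -4 * (1 + p.1) * G b (Yp (p.2 4).1.1) + 5 * G b (Yp (p.2 5).1.1) := by
  have hx : (Xi (wb 0)).2 = lb1 := by rw [base_xi.1]
  have hκ : (wb 0).1.2.2 * (Ry (wb 0).1.1).det = 8 := by
    have : (wb 0).1.1 = (0, 1) := rfl
    rw [this, base_det.1]; simp [wb]; norm_num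
  have h0 := FA_k2 (wb 0)
  rw [hx, hκ] at h0
  have hs := sc2 (ι := Fin 6) (l := lb1) (y := (wb 0).1.1) (s := (wb 0).2.2) (κ := 8)
    (by norm_num) (hx ▸ FA_g2 (base_nd 0)) h0 (fun k => (wb k).1.1) ![7, -3, -2, -2, -4, 5]
    ![(1, 0, 0), (3 / 4, -1 / 2, 1 / 3), (1 / 4, 1 / 2, 1), (1, 0, 0), (3 / 4, -1 / 2, 1 / 3),
      (1 / 4, -1 / 2, 1)]
    (by
      intro k
      fin_cases k <;> ext j <;> fin_cases j <;>
        simp [wb, Yp, Cy, Dm, D0, D1, D2, lb1] <;> norm_num)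
    (by intro k; fin_cases k <;> norm_num) (by simp [Fin.sum_univ_six]; norm_num)
    (by simp [Fin.sum_univ_six]; norm_num)
  have hc : Continuous fun p : ℝ × (Fin 6 → Pm) =>
      ((((Xi (p.2 0)).2, (p.2 0).1.1, (p.2 0).2.2, (p.2 0).1.2.2 * (Ry (p.2 0).1.1).det),
        fun k => (p.2 k).1.1, ![7, -3 * (1 + p.1), -2 * (1 + p.1), -2 * (1 + p.1),
          -4 * (1 + p.1), 5]) :
        (V × (ℂ × ℂ) × ℂ × ℂ) × (Fin 6 → ℂ × ℂ) × (Fin 6 → ℝ)) := by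
    have h1 : Continuous fun p : ℝ × (Fin 6 → Pm) => Xi (p.2 0) :=
      FA_cXi.comp (f := fun p : ℝ × (Fin 6 → Pm) => p.2 0) (by fun_prop)
    have h2 : Continuous fun p : ℝ × (Fin 6 → Pm) => (Ry (p.2 0).1.1).det :=
      FA_cdet.comp (f := fun p : ℝ × (Fin 6 → Pm) => p.2 0) (by fun_prop)
    exact (h1.snd.prodMk ((by fun_prop : Continuous _).prodMk ((by fun_prop : Continuous _).prodMk
      ((by fun_prop : Continuous fun p : ℝ × (Fin 6 → Pm) => (p.2 0).1.2.2).mul h2)))).prodMk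
      (by fun_prop)
  have ht := (hc.tendsto' (0, wb) _ (by simp only [hx, hκ, add_zero, mul_one])).eventually hs
  filter_upwards [ht, FA_ok] with p hp hok a h0 h1 h2 h3 h4 h5 N G hG
  have := hp (FA_k2 _) (by
    intro k
    fin_cases k
    · exact ⟨_, _, (hok 0).2, FA_k2 _⟩
    · exact ⟨_, _, (hok 1).2, by rw [h0, ← h1]; exact FA_k2 _⟩
    · exact ⟨_, _, (hok 2).2, by rw [h0, ← h2]; exact FA_k2 _⟩
    · exact ⟨_, _, (hok 3).1, by rw [h0, ← h3]; exact FA_k1 _⟩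
    · exact ⟨_, _, (hok 4).1, by rw [h0, ← h4]; exact FA_k1 _⟩
    · exact ⟨_, _, (hok 5).1, by rw [h0, ← h5]; exact FA_k1 _⟩) N G hG
  simpa [Fin.sum_univ_six, h0] using this

theorem FA_3 : ∀ᶠ p : ℝ × (Fin 6 → Pm) in 𝓝 (0, wb), ∀ c : V, (Xi (p.2 3)).2 = c →
    (Xi (p.2 4)).2 = c → (Xi (p.2 5)).2 = c → ∀ N G, GI N G →
    0 < 2 * G c (Yp (p.2 3).1.1) + 4 * G c (Yp (p.2 4).1.1) +
      -5 * (1 + p.1) * G c (Yp (p.2 5).1.1) := by
  have hx : (Xi (wb 3)).2 = lb2 := by rw [base_xi.2.2.2.1]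
  have hκ : (wb 3).1.2.2 * (Ry (wb 3).1.1).det = -18 := by
    have : (wb 3).1.1 = (0, 1) := rfl
    rw [this, base_det.1]; simp [wb]; norm_num
  have h0 := FA_k2 (wb 3)
  rw [hx, hκ] at h0
  have hs := sc2 (ι := Fin 3) (l := lb2) (y := (wb 3).1.1) (s := (wb 3).2.2) (κ := -18)
    (by norm_num) (hx ▸ FA_g2 (base_nd 3)) h0 ![(wb 3).1.1, (wb 4).1.1, (wb 5).1.1] ![2, 4, -5]
    ![(1, 0, 0), (1, -3 / 2, 9 / 4), (1, -3 / 4, 9 / 16)]
    (by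
      intro k
      fin_cases k <;> ext j <;> fin_cases j <;>
        simp [wb, Yp, Cy, Dm, D0, D1, D2, lb2] <;> norm_num)
    (by intro k; fin_cases k <;> norm_num) (by simp [Fin.sum_univ_three]; norm_num)
    (by simp [Fin.sum_univ_three]; norm_num)
  have hc : Continuous fun p : ℝ × (Fin 6 → Pm) =>
      ((((Xi (p.2 3)).2, (p.2 3).1.1, (p.2 3).2.2, (p.2 3).1.2.2 * (Ry (p.2 3).1.1).det),
        ![(p.2 3).1.1, (p.2 4).1.1, (p.2 5).1.1], ![2, 4, -5 * (1 + p.1)]) :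
        (V × (ℂ × ℂ) × ℂ × ℂ) × (Fin 3 → ℂ × ℂ) × (Fin 3 → ℝ)) := by
    have h1 : Continuous fun p : ℝ × (Fin 6 → Pm) => Xi (p.2 3) :=
      FA_cXi.comp (f := fun p : ℝ × (Fin 6 → Pm) => p.2 3) (by fun_prop)
    have h2 : Continuous fun p : ℝ × (Fin 6 → Pm) => (Ry (p.2 3).1.1).det :=
      FA_cdet.comp (f := fun p : ℝ × (Fin 6 → Pm) => p.2 3) (by fun_prop)
    exact (h1.snd.prodMk ((by fun_prop : Continuous _).prodMk ((by fun_prop : Continuous _).prodMk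
      ((by fun_prop : Continuous fun p : ℝ × (Fin 6 → Pm) => (p.2 3).1.2.2).mul h2)))).prodMk
      (by fun_prop)
  have ht := (hc.tendsto' (0, wb) _ (by simp only [hx, hκ, add_zero, mul_one])).eventually hs
  filter_upwards [ht, FA_ok] with p hp hok a h0 h1 h2 N G hG
  have := hp (FA_k2 _) (by
    intro k
    fin_cases k
    · exact ⟨_, _, (hok 3).2, FA_k2 _⟩
    · exact ⟨_, _, (hok 4).2, by rw [h0, ← h1]; exact FA_k2 _⟩
    · exact ⟨_, _, (hok 5).2, by rw [h0, ← h2]; exact FA_k2 _⟩) N G hG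
  simpa [Fin.sum_univ_three, h0] using this

theorem fa : ∃ δ : ℝ, 0 < δ ∧ ∃ W : Fin 6 → Set Pm, (∀ k, W k ∈ 𝓝 (wb k)) ∧
    ∀ N G, GI N G → ∀ (a b c : V) (w : Fin 6 → Pm), (∀ k, w k ∈ W k ∧ Cmp G δ (w k)) →
      Xi (w 0) = (a, b) → Xi (w 1) = (a, b) → Xi (w 2) = (a, b) →
      Xi (w 3) = (b, c) → Xi (w 4) = (b, c) → Xi (w 5) = (b, c) → False := by
  obtain ⟨ε, hε, h⟩ := Metric.eventually_nhds_iff.1 (FA_1.and (FA_2.and FA_3))
  refine ⟨ε / 2, by positivity, fun k => ball (wb k) ε, fun k => ball_mem_nhds _ hε, ?_⟩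
  intro N G hG a b c w hw e0 e1 e2 e3 e4 e5
  have hd : dist ((ε / 2, w) : ℝ × (Fin 6 → Pm)) (0, wb) < ε := by
    rw [Prod.dist_eq, max_lt_iff]
    refine ⟨?_, (dist_pi_lt_iff hε).2 fun k => (hw k).1⟩
    rw [Real.dist_eq, sub_zero, abs_of_pos (by positivity)]; linarith
  obtain ⟨h1, h2, h3⟩ := h hd
  have i1 := h1 a (by rw [e0]) (by rw [e1]) (by rw [e2]) N G hG
  have i2 := h2 b (by rw [e0]) (by rw [e1]) (by rw [e2]) (by rw [e3]) (by rw [e4]) (by rw [e5])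
    N G hG
  have i3 := h3 c (by rw [e3]) (by rw [e4]) (by rw [e5]) N G hG
  have c0 := (hw 0).2.2
  have c1 := (hw 1).2.1
  have c2 := (hw 2).2.1
  have c3 := (hw 3).2.2
  have c4 := (hw 4).2.2
  have c5 := (hw 5).2.1
  rw [e0] at c0; rw [e1] at c1; rw [e2] at c2; rw [e3] at c3; rw [e4] at c4; rw [e5] at c5
  simp only at c0 c1 c2 c3 c4 c5 i1 i2 i3
  linarith

end Vale.Agent.P296
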