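import Vale.Agent.P296.GA

namespace Vale.Agent.P296

open Matrix Filter Topology MeasureTheory Metric Laplacian ComplexOrder

/-- rescaling of a point -/
def gbS (N : ℕ) (t : ℂ) (x : P6) : P6 := (x.1, t • x.2.1, (t ^ N * x.2.2.1, t ^ N * x.2.2.2))

theorem gb_pw (N : ℕ) (t : ℂ) (μ : V) : pw N (t • μ) = t ^ (2 * N) • pw N μ := by
  funext j
  simp [pw, mul_pow]

theorem gb_Rc (c : ℂ) (M : M3) (e0 e1 : ℂ) : Rc (c • M) e0 e1 = c • Rc M e0 e1 := by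
  funext j
  fin_cases j <;> simp [Rc, bil, smul_mulVec]

theorem gb_Phi (N : ℕ) (t : ℂ) (x : P6) : Phi N (gbS N t x) = t ^ (2 * N) • Phi N x := by
  refine Prod.ext ?_ (gb_pw N t _)
  simp only [Phi, Feq, gbS, gb_pw, Dm_smul, gb_Rc, Prod.smul_fst, smul_sub]
  congr 1
  funext j
  fin_cases j <;> simp [bb] <;> ring

theorem gb_inv (N : ℕ) {t u : ℂ} (h : t * u = 1) (x : P6) : gbS N t (gbS N u x) = x := by
  simp only [gbS, smul_smul, ← mul_assoc, ← mul_pow, h, one_smul, one_pow, one_mul]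

theorem gb_q0 (N : ℕ) {t : ℂ} (ht : t ≠ 0) (x : P6) (v : Fin 2 → ℂ) :
    q0 N (gbS N t x) ![v 0, v 1 / t ^ N] = q0 N x v := by
  have h : t ^ N ≠ 0 := pow_ne_zero _ ht
  funext k
  simp only [q0, gbS, gb_pw, qv, C0, Dm_smul, Matrix.smul_apply, smul_eq_mul, cons_val_zero,
    cons_val_one, mul_comm 2 N, pow_mul]
  fin_cases k <;> simp [B0] <;> field_simp

theorem gb_bij (N : ℕ) {t : ℂ} (ht : t ≠ 0) (l : V) :
    Set.BijOn (gbS N t) (fib N l) (fib N (t ^ (2 * N) • l)) := by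
  refine Set.InvOn.bijOn (f' := gbS N t⁻¹) ⟨fun x _ => gb_inv N (inv_mul_cancel₀ ht) x,
    fun x _ => gb_inv N (mul_inv_cancel₀ ht) x⟩ (fun x hx => ?_) fun x hx => ?_
  · have h : Phi N x = (0, l) := hx
    show Phi N _ = _
    rw [gb_Phi, h]
    simp
  · have h : Phi N x = (0, t ^ (2 * N) • l) := hx
    show Phi N _ = _
    rw [gb_Phi, h]
    simp [smul_smul, ht]

theorem gb_rpow {N : ℕ} (hN : 0 < N) {a : ℝ} (ha : 0 ≤ a) :
    (a ^ (2 * N)) ^ (1 / (N : ℝ)) = a ^ 2 := by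
  rw [pow_mul, one_div, Real.pow_rpow_inv_natCast (by positivity) hN.ne']

theorem gg_hom {N : ℕ} (hN : 0 < N) {H : P6 → (Fin 2 → ℂ) → ℝ} (hH : HI N H) (y : ℂ × ℂ)
    (s τ : ℂ) (hτ : τ ≠ 0) (hy : (Ry y).det ≠ 0) (hl : gd (Lam y s) ≠ 0) :
    GG N H (τ • Lam y s) (Yp y) = ‖τ‖ ^ (1 / (N : ℝ)) * GG N H (Lam y s) (Yp y) := by
  obtain ⟨t, rfl⟩ := IsAlgClosed.exists_pow_nat_eq τ (show 0 < 2 * N by omega)
  have ht : t ≠ 0 := fun h => hτ (by rw [h, zero_pow (by omega)])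
  obtain ⟨c, hc⟩ := fib_card hN
  have hl' : gd (t ^ (2 * N) • Lam y s) ≠ 0 := by
    rw [gd_smul]
    exact mul_ne_zero (pow_ne_zero _ hτ) hl
  rw [norm_pow, gb_rpow hN (norm_nonneg _), GG, GG,
    finsum_mem_eq_finite_toFinset_sum _ (hc _ hl).1, Finset.mul_sum,
    ← finsum_mem_eq_finite_toFinset_sum _ (hc _ hl).1]
  refine (finsum_mem_eq_of_bijOn _ (gb_bij N ht _) fun x hx => ?_).symm
  obtain ⟨v, hv⟩ := on_cone hN one_ne_zero hy hl (x := x) (by rwa [one_smul])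
  have e1 := vec_eq hN hH hl hx v
  have e2 := vec_eq hN hH hl' ((gb_bij N ht _).mapsTo hx) ![v 0, v 1 / t ^ N]
  rw [gb_q0 N ht, hv] at e2
  rw [hv] at e1
  rw [e1, e2]
  exact (hH.hom x (fib_Z0 hN hl hx).1 t ht v).symm

theorem gg_bd {N : ℕ} (hN : 0 < N) {H : P6 → (Fin 2 → ℂ) → ℝ} (hH : HI N H) :
    ∃ K, ∀ y s, (Ry y).det ≠ 0 → gd (Lam y s) ≠ 0 →
      GG N H (Lam y s) (Yp y) ≤ K * ‖Lam y s‖ ^ (1 / (N : ℝ)) * ‖Yp y‖ := by
  obtain ⟨c, hc⟩ := fib_card hN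
  obtain ⟨K, hK⟩ := hH.bd
  refine ⟨c * |K|, fun y s hy hl => ?_⟩
  have h0 : 0 ≤ ‖Lam y s‖ ^ (1 / (N : ℝ)) := by positivity
  rw [GG, finsum_mem_eq_finite_toFinset_sum _ (hc _ hl).1]
  refine (Finset.sum_le_card_nsmul _ _ (|K| * ‖Lam y s‖ ^ (1 / (N : ℝ)) * ‖Yp y‖)
    fun x hx => ?_).trans ?_
  · rw [Set.Finite.mem_toFinset] at hx
    obtain ⟨z1, z2, -⟩ := fib_Z0 hN hl hx
    have e : q0 N x (vec N x (Yp y)) = Yp y := Classical.epsilon_spec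
      (on_cone hN one_ne_zero hy hl (x := x) (by rwa [one_smul]))
    have a := hK x z1 (vec N x (Yp y))
    rw [e] at a
    have b : ‖x.2.1‖ ^ 2 ≤ ‖Lam y s‖ ^ (1 / (N : ℝ)) := by
      rw [← Real.le_sqrt (norm_nonneg _) h0, pi_norm_le_iff_of_nonneg (Real.sqrt_nonneg _)]
      intro j
      rw [Real.le_sqrt (norm_nonneg _) h0, ← gb_rpow hN (norm_nonneg _), ← norm_pow, ← z2]
      exact Real.rpow_le_rpow (norm_nonneg _) (norm_le_pi_norm (pw N x.2.1) j) (by positivity)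
    refine a.trans (mul_le_mul_of_nonneg_right ?_ (norm_nonneg _))
    exact mul_le_mul (le_abs_self K) b (by positivity) (abs_nonneg K)
  · rw [nsmul_eq_mul, ← Set.ncard_eq_toFinset_card _ (hc _ hl).1, mul_assoc (c : ℝ),
      mul_assoc (c : ℝ)]
    exact mul_le_mul_of_nonneg_right (Nat.cast_le.2 (hc _ hl).2.1) (by positivity)

end Vale.Agent.P296
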