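import Vale.Agent.P296.Def2

namespace Vale.Agent.P296

open Matrix Filter Topology MeasureTheory Metric Laplacian ComplexOrder

theorem supl_line {g : ℂ → ℝ} {z : ℂ} (hg : ContDiffAt ℝ 2 g z) (hm : IsLocalMax g z) (v : ℂ) :
    iteratedFDeriv ℝ 2 g z ![v, v] ≤ 0 := by
  by_contra hc
  rw [not_le, iteratedFDeriv_two_apply] at hc
  simp only [cons_val_zero, cons_val_one] at hc
  have hl : ∀ t : ℝ, HasDerivAt (fun t : ℝ => z + t • v) v t := fun t => by
    simpa using ((hasDerivAt_id t).smul_const v).const_add z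
  have l0 : z + (0 : ℝ) • v = z := by simp
  have ht : Tendsto (fun t : ℝ => z + t • v) (𝓝 0) (𝓝 z) := by
    have := (hl 0).continuousAt.tendsto
    rwa [l0] at this
  have h1 : ∀ᶠ w in 𝓝 z, DifferentiableAt ℝ g w :=
    (hg.eventually (by simp)).mono fun w hw => hw.differentiableAt (by simp)
  have h2 : deriv (fun t : ℝ => g (z + t • v)) =ᶠ[𝓝 0] fun t => fderiv ℝ g (z + t • v) v :=
    (ht.eventually h1).mono fun t hw => (hw.hasFDerivAt.comp_hasDerivAt t (hl t)).deriv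
  have h3 : DifferentiableAt ℝ (fderiv ℝ g) (z + (0 : ℝ) • v) := by
    rw [l0]
    exact (hg.fderiv_right (m := 1) (by norm_num)).differentiableAt (by simp)
  have h4 : HasDerivAt (fun t : ℝ => fderiv ℝ g (z + t • v) v) (fderiv ℝ (fderiv ℝ g) z v v) 0 := by
    have b : HasDerivAt (fun t : ℝ => fderiv ℝ g (z + t • v))
        (fderiv ℝ (fderiv ℝ g) (z + (0 : ℝ) • v) v) 0 :=
      HasFDerivAt.comp_hasDerivAt (f := fun t : ℝ => z + t • v) 0 h3.hasFDerivAt (hl 0)
    rw [l0] at b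
    exact (ContinuousLinearMap.apply ℝ ℝ v).hasFDerivAt.comp_hasDerivAt 0 b
  have h5 : deriv (deriv fun t : ℝ => g (z + t • v)) 0 = fderiv ℝ (fderiv ℝ g) z v v := by
    rw [h2.deriv_eq, h4.deriv]
  have h6 : IsLocalMax (fun t : ℝ => g (z + t • v)) 0 := by
    have a := ht.eventually hm
    unfold IsLocalMax IsMaxFilter
    beta_reduce
    rwa [l0]
  have h7 : ContinuousAt (fun t : ℝ => g (z + t • v)) 0 :=
    ContinuousAt.comp (f := fun t : ℝ => z + t • v) (by rw [l0]; exact hg.continuousAt)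
      (hl 0).continuousAt
  have h8 := isLocalMin_of_deriv_deriv_pos (h5 ▸ hc) h6.deriv_eq_zero h7
  have h9 : (fun t : ℝ => g (z + t • v)) =ᶠ[𝓝 0] fun _ => g (z + (0 : ℝ) • v) :=
    (h6.and h8).mono fun t a => le_antisymm a.1 a.2
  rw [h9.deriv.deriv_eq] at h5
  simp only [deriv_const'] at h5
  linarith

theorem Sup.not_max {f : ℂ → ℝ} {z : ℂ} (h : Sup f z) : ¬IsLocalMax f z := by
  intro hm
  obtain ⟨g, h1, h2, h3, h4⟩ := h
  have a : IsLocalMax g z := (h2.and hm).mono fun w hw => hw.1.trans (h3 ▸ hw.2)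
  rw [InnerProductSpace.laplacian_eq_iteratedFDeriv_complexPlane] at h4
  linarith [supl_line h1 a 1, supl_line h1 a Complex.I]

theorem Sup.congr {f g : ℂ → ℝ} {z : ℂ} (h : Sup f z) (e : ∀ᶠ w in 𝓝 z, f w = g w) : Sup g z := by
  obtain ⟨u, h1, h2, h3, h4⟩ := h
  exact ⟨u, h1, (h2.and e).mono fun w hw => hw.2 ▸ hw.1, h3.trans e.self_of_nhds, h4⟩

theorem supl_add {f g : ℂ → ℝ} {z : ℂ} (h : Sup f z) (h' : Sup g z) :
    Sup (fun w => f w + g w) z := by
  obtain ⟨u, h1, h2, h3, h4⟩ := h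
  obtain ⟨u', k1, k2, k3, k4⟩ := h'
  refine ⟨u + u', h1.add k1, (h2.and k2).mono fun w hw => add_le_add hw.1 hw.2,
    by rw [Pi.add_apply, h3, k3], ?_⟩
  rw [h1.laplacian_add k1]
  exact add_pos h4 k4

theorem Sup.sum {n : ℕ} (hn : 0 < n) {f : Fin n → ℂ → ℝ} {z : ℂ} (h : ∀ k, Sup (f k) z) :
    Sup (fun w => ∑ k, f k w) z := by
  have key : ∀ s : Finset (Fin n), s.Nonempty → Sup (fun w => ∑ k ∈ s, f k w) z := by
    intro s hs
    induction hs using Finset.Nonempty.cons_induction with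
    | singleton a => simpa using h a
    | cons a s ha _ ih =>
      simp only [Finset.sum_cons]
      exact supl_add (h a) ih
  exact key _ ⟨⟨0, hn⟩, Finset.mem_univ _⟩

theorem Sup.shift {f : ℂ → ℝ} {z : ℂ} (h : Sup (fun w => f (w + z)) 0) : Sup f z := by
  obtain ⟨u, h1, h2, h3, h4⟩ := h
  have ht : Tendsto (fun w : ℂ => w - z) (𝓝 z) (𝓝 0) := by
    have := (continuous_sub_right z).tendsto z
    rwa [sub_self] at this
  refine ⟨fun w => u (w - z), ?_, (ht.eventually h2).mono fun w hw => by simpa using hw,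
    by simpa using h3, ?_⟩
  · exact ContDiffAt.comp (g := u) (f := fun w : ℂ => w - z) z (by rwa [sub_self]) (by fun_prop)
  · rw [InnerProductSpace.laplacian_eq_iteratedFDeriv_complexPlane] at h4 ⊢
    simpa only [iteratedFDeriv_comp_sub, sub_self] using h4

end Vale.Agent.P296
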