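import Vale.Agent.P296.Loc
import Vale.Agent.P296.GB
import Vale.Agent.P296.SupL

namespace Vale.Agent.P296

open Matrix Filter Topology MeasureTheory Metric Laplacian ComplexOrder

theorem gd_not_radial {N : ℕ} (hN : 0 < N) {y : ℂ × ℂ} (hy : (Ry y).det ≠ 0) {s : ℂ} {μ : ℂ → V}
    (hμ : AnalyticAt ℂ μ s) (he : ∀ᶠ z in 𝓝 s, pw N (μ z) = Lam y z) (c : ℂ) :
    deriv μ s ≠ c • μ s := by
  intro hc
  have hd : HasDerivAt μ (c • μ s) s := hc ▸ hμ.differentiableAt.hasDerivAt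
  have hj : ∀ j, HasDerivAt (fun z => μ z j) (c * μ s j) s := fun j => hasDerivAt_pi.1 hd j
  have hi : ∀ i, HasDerivAt (fun z => (Ry y *ᵥ pw N (μ z)) i)
      (((2 * N : ℕ) : ℂ) * c * (Ry y *ᵥ pw N (μ s)) i) s := by
    intro i
    have h1 : HasDerivAt (fun z => ∑ j, Ry y i j * μ z j ^ (2 * N))
        (∑ j, Ry y i j * (((2 * N : ℕ) : ℂ) * μ s j ^ (2 * N - 1) * (c * μ s j))) s :=
      HasDerivAt.fun_sum fun j _ => ((hj j).fun_pow (2 * N)).const_mul _
    have h2 : ((2 * N : ℕ) : ℂ) * c * (Ry y *ᵥ pw N (μ s)) i =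
        ∑ j, Ry y i j * (((2 * N : ℕ) : ℂ) * μ s j ^ (2 * N - 1) * (c * μ s j)) := by
      change ((2 * N : ℕ) : ℂ) * c * (∑ j, Ry y i j * μ s j ^ (2 * N)) = _
      rw [Finset.mul_sum]
      refine Finset.sum_congr rfl fun j _ => ?_
      have e : μ s j ^ (2 * N) = μ s j ^ (2 * N - 1) * μ s j := by
        rw [← pow_succ]; congr 1; omega
      rw [e]; ring
    rw [h2]
    exact h1
  have e0 : (fun z => (Ry y *ᵥ pw N (μ z)) 0) =ᶠ[𝓝 s] fun _ => (Ry y).det := by
    filter_upwards [he] with z hz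
    rw [hz, Ry_Lam]; simp
  have e1 : (fun z => (Ry y *ᵥ pw N (μ z)) 1) =ᶠ[𝓝 s] fun z => (Ry y).det * z := by
    filter_upwards [he] with z hz
    rw [hz, Ry_Lam]; simp
  have d0 := ((hi 0).congr_of_eventuallyEq e0.symm).unique (hasDerivAt_const s (Ry y).det)
  have d1 := ((hi 1).congr_of_eventuallyEq e1.symm).unique
    ((hasDerivAt_id s).const_mul (Ry y).det)
  have f0 : (Ry y *ᵥ pw N (μ s)) 0 = (Ry y).det := e0.self_of_nhds
  have f1 : (Ry y *ᵥ pw N (μ s)) 1 = (Ry y).det * s := e1.self_of_nhds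
  rw [f0] at d0
  rw [f1] at d1
  apply hy
  linear_combination s * d0 - d1

theorem gi {N : ℕ} (hN : 0 < N) {H : P6 → (Fin 2 → ℂ) → ℝ} (hH : HI N H) : GI N (GG N H) := by
  refine ⟨gg_herm hN hH, fun y s τ hτ hy hl => gg_hom hN hH y s τ hτ hy hl, gg_bd hN hH,
    fun p₀ hp₀ => ?_, fun y s hy hl p hp hmax => ?_⟩
  · obtain ⟨n, x, v, -, ha, hev⟩ := loc hN hH hp₀.1 hp₀.2
    have hc : ContinuousAt (fun p => ∑ k, H (x k p) (v k p)) p₀ := by
      refine tendsto_finsetSum _ fun k _ => ?_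
      have h0 : (x k p₀, v k p₀) ∈ Z0 N ×ˢ (Set.univ : Set (Fin 2 → ℂ)) :=
        ⟨(hev.self_of_nhds.1 k).1, trivial⟩
      have h1 : Tendsto (fun p => (x k p, v k p)) (𝓝 p₀)
          (𝓝[Z0 N ×ˢ (Set.univ : Set (Fin 2 → ℂ))] (x k p₀, v k p₀)) := by
        refine tendsto_nhdsWithin_iff.2
          ⟨(ha k).1.continuousAt.prodMk (ha k).2.1.continuousAt, ?_⟩
        filter_upwards [hev] with p hp
        exact ⟨(hp.1 k).1, trivial⟩
      exact (hH.cont _ h0).tendsto.comp h1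
    refine (hc.congr ?_).continuousWithinAt
    filter_upwards [hev] with p hp
    exact hp.2.symm
  · obtain ⟨n, x, v, hn, ha, hev⟩ := loc (p₀ := (y, s)) hN hH hy hl
    have hι : AnalyticAt ℂ (fun z : ℂ => (y, z)) s := analyticAt_const.prod analyticAt_id
    have hev' := hι.continuousAt.eventually hev
    have hsup : ∀ k, Sup (fun z => H (x k (y, z)) (Complex.exp (p z / 2) • v k (y, z))) s := by
      intro k
      have hx : AnalyticAt ℂ (fun z : ℂ => x k (y, z)) s := (ha k).1.comp_of_eq hι rfl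
      have hv : AnalyticAt ℂ (fun z : ℂ => v k (y, z)) s := (ha k).2.1.comp_of_eq hι rfl
      have hexp : AnalyticAt ℂ (fun z => Complex.exp (p z / 2)) s := by fun_prop
      refine hH.sup (fun z => x k (y, z)) (fun z => Complex.exp (p z / 2) • v k (y, z)) s hx
        (hexp.smul hv) ?_ ?_ ?_
      · filter_upwards [hev'] with z hz
        exact (hz.1 k).1
      · refine gd_not_radial hN hy (μ := fun z => (x k (y, z)).2.1) ?_ ?_
        · exact analyticAt_fst.comp (analyticAt_snd.comp hx)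
        · filter_upwards [hev'] with z hz
          exact (hz.1 k).2
      · exact smul_ne_zero (Complex.exp_ne_zero _) (ha k).2.2
    refine ((Sup.sum hn hsup).congr ?_).not_max hmax
    filter_upwards [hev'] with z hz
    rw [hz.2, Finset.sum_mul]
    refine Finset.sum_congr rfl fun k _ => ?_
    rw [(hH.herm _ (hz.1 k).1).smul, Complex.norm_exp, ← Real.exp_nat_mul, mul_comm]
    congr 2
    simp
    ring

end Vale.Agent.P296
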