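import Vale.Agent.P296.Def2

namespace Vale.Agent.P296

open Matrix Filter Topology MeasureTheory Metric Laplacian ComplexOrder

theorem m2a_snd {f : ℂ → ℂ} (hf : ContDiffAt ℝ 2 f 0) : DifferentiableAt ℝ (fderiv ℝ f) 0 :=
  (hf.fderiv_right (m := 1) (by norm_num)).differentiableAt one_ne_zero

theorem m2a_dz {f : ℂ → ℂ} (hf : ContDiffAt ℝ 2 f 0) : DifferentiableAt ℝ (dz f) 0 ∧
    ∀ v, fderiv ℝ (dz f) 0 v = (fderiv ℝ (fderiv ℝ f) 0 v 1 -
      Complex.I * fderiv ℝ (fderiv ℝ f) 0 v Complex.I) / 2 := by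
  have h := (m2a_snd hf).hasFDerivAt
  have h1 := h.clm_apply (hasFDerivAt_const (1 : ℂ) (0 : ℂ))
  have h2 := h.clm_apply (hasFDerivAt_const Complex.I (0 : ℂ))
  have h3 := (h1.sub (h2.const_mul Complex.I)).mul_const (2⁻¹ : ℂ)
  have e : dz f = fun z => (fderiv ℝ f z 1 - Complex.I * fderiv ℝ f z Complex.I) * 2⁻¹ := by
    funext z
    rw [dz, div_eq_mul_inv]
  rw [e]
  refine ⟨h3.differentiableAt, fun v => ?_⟩
  rw [show fderiv ℝ (fun z => (fderiv ℝ f z 1 - Complex.I * fderiv ℝ f z Complex.I) * 2⁻¹) 0 = _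
    from h3.fderiv]
  simp
  ring

theorem m2a_mul {u v : ℂ → ℂ} {z : ℂ} (hu : DifferentiableAt ℝ u z) (hv : DifferentiableAt ℝ v z) :
    dz (fun z => u z * v z) z = dz u z * v z + u z * dz v z ∧
      dzb (fun z => u z * v z) z = dzb u z * v z + u z * dzb v z := by
  simp only [dz, dzb, fderiv_fun_mul hu hv, _root_.add_apply,
    _root_.smul_apply, smul_eq_mul]
  constructor <;> ring

theorem m2a_add {u v : ℂ → ℂ} {z : ℂ} (hu : DifferentiableAt ℝ u z) (hv : DifferentiableAt ℝ v z) :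
    dzb (fun z => u z + v z) z = dzb u z + dzb v z := by
  simp only [dzb, fderiv_fun_add hu hv, _root_.add_apply]
  ring

theorem m2a_lin (c d z : ℂ) : DifferentiableAt ℝ (fun z => c + z * d) z ∧
    dz (fun z => c + z * d) z = d ∧ dzb (fun z => c + z * d) z = 0 := by
  have h := ((hasFDerivAt_id (𝕜 := ℝ) z).mul_const d).const_add c
  refine ⟨h.differentiableAt, ?_⟩
  simp only [dz, dzb]
  rw [show fderiv ℝ (fun z => c + z * d) z = _ from h.fderiv]
  constructor
  · simp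
    linear_combination (-d / 2) * Complex.I_mul_I
  · simp
    linear_combination d * Complex.I_mul_I

theorem m2a_conj (a b z : ℂ) : DifferentiableAt ℝ (fun z => (starRingEnd ℂ) (a + z * b)) z ∧
    dz (fun z => (starRingEnd ℂ) (a + z * b)) z = 0 ∧
    dzb (fun z => (starRingEnd ℂ) (a + z * b)) z = (starRingEnd ℂ) b := by
  have h := Complex.conjCLE.toContinuousLinearMap.hasFDerivAt.comp z
    (((hasFDerivAt_id (𝕜 := ℝ) z).mul_const b).const_add a)
  refine ⟨h.differentiableAt, ?_⟩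
  simp only [dz, dzb]
  rw [show fderiv ℝ (fun z => (starRingEnd ℂ) (a + z * b)) z = _ from h.fderiv]
  constructor
  · simp
    linear_combination ((starRingEnd ℂ) b) * Complex.I_mul_I
  · simp
    linear_combination (-(starRingEnd ℂ) b / 2) * Complex.I_mul_I
theorem lap_re {f : ℂ → ℂ} (hf : ContDiffAt ℝ 2 f 0) :
    (Δ fun z => (f z).re) 0 = 4 * (dzb (dz f) 0).re := by
  have h1 : (Δ fun z => (f z).re) 0 = ((Δ f) 0).re :=
    hf.laplacian_CLM_comp_left (l := Complex.reCLM)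
  have hs := hf.isSymmSndFDerivAt (by simp)
  have h2 : (Δ f) 0 = 4 * dzb (dz f) 0 := by
    rw [InnerProductSpace.laplacian_eq_iteratedFDeriv_complexPlane, dzb, (m2a_dz hf).2,
      (m2a_dz hf).2, hs Complex.I 1]
    simp only [iteratedFDeriv_two_apply, cons_val_zero, cons_val_one]
    linear_combination (fderiv ℝ (fderiv ℝ f) 0 Complex.I Complex.I) * Complex.I_mul_I
  rw [h1, h2]
  simp

theorem ddb_mul {f : ℂ → ℂ} (hf : ContDiffAt ℝ 2 f 0) (a b c d : ℂ) :
    dzb (dz fun z => (starRingEnd ℂ) (a + z * b) * f z * (c + z * d)) 0 =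
      (starRingEnd ℂ) a * c * dzb (dz f) 0 + (starRingEnd ℂ) b * c * dz f 0 +
        (starRingEnd ℂ) a * d * dzb f 0 + (starRingEnd ℂ) b * d * f 0 := by
  have hd : ∀ᶠ z in 𝓝 (0 : ℂ), DifferentiableAt ℝ f z :=
    (hf.eventually (by simp)).mono fun z hz => hz.differentiableAt two_ne_zero
  have h0 := hd.self_of_nhds
  have he : (dz fun z => (starRingEnd ℂ) (a + z * b) * f z * (c + z * d)) =ᶠ[𝓝 0] fun z =>
      (starRingEnd ℂ) (a + z * b) * dz f z * (c + z * d) +
        (starRingEnd ℂ) (a + z * b) * f z * d := by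
    refine hd.mono fun z hz => ?_
    rw [(m2a_mul ((m2a_conj a b z).1.fun_mul hz) (m2a_lin c d z).1).1,
      (m2a_mul (m2a_conj a b z).1 hz).1, (m2a_conj a b z).2.1, (m2a_lin c d z).2.1]
    simp
  have h1 := (m2a_conj a b 0).1
  have h2 := (m2a_dz hf).1
  have h3 := (m2a_lin c d 0).1
  have h4 : dzb (fun _ => d) 0 = 0 := by simp [dzb]
  rw [dzb, he.fderiv_eq, ← dzb, m2a_add ((h1.fun_mul h2).fun_mul h3) ((h1.fun_mul h0).mul_const d),
    (m2a_mul (h1.fun_mul h2) h3).2, (m2a_mul h1 h2).2,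
    (m2a_mul (h1.fun_mul h0) (differentiableAt_const d)).2, (m2a_mul h1 h0).2,
    (m2a_conj a b 0).2.2, (m2a_lin c d 0).2.2, h4]
  simp
  ring

end Vale.Agent.P296
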