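import Vale.Agent.P296.M1
import Vale.Agent.P296.M2a

namespace Vale.Agent.P296

open Matrix Filter Topology MeasureTheory Metric Laplacian ComplexOrder

theorem M2_cd {f : ℂ → ℂ} (hf : ContDiffAt ℝ 2 f 0) (a b c d : ℂ) :
    ContDiffAt ℝ 2 (fun z => (starRingEnd ℂ) (a + z * b) * f z * (c + z * d)) 0 := by
  have h1 : ContDiffAt ℝ 2 (fun z : ℂ => (starRingEnd ℂ) (a + z * b)) 0 :=
    Complex.conjCLE.contDiff.contDiffAt.comp 0
      (contDiffAt_const.add (contDiffAt_id.mul contDiffAt_const))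
  exact (h1.mul hf).mul (contDiffAt_const.add (contDiffAt_id.mul contDiffAt_const))

theorem M2_re {f : ℂ → ℂ} (hf : ContDiffAt ℝ 2 f 0) : ContDiffAt ℝ 2 (fun z => (f z).re) 0 :=
  Complex.reCLM.contDiff.contDiffAt.comp 0 hf

theorem M2_alg (H0 A B C : M2) (hd : IsUnit H0.det) (e : Fin 2 → ℂ) :
    star e ⬝ᵥ C *ᵥ e + star (-(H0⁻¹ *ᵥ (A *ᵥ e))) ⬝ᵥ A *ᵥ e +
      star e ⬝ᵥ B *ᵥ (-(H0⁻¹ *ᵥ (A *ᵥ e))) +
      star (-(H0⁻¹ *ᵥ (A *ᵥ e))) ⬝ᵥ H0 *ᵥ (-(H0⁻¹ *ᵥ (A *ᵥ e))) =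
      -(star e ⬝ᵥ (B * H0⁻¹ * A - C) *ᵥ e) := by
  have h : H0 *ᵥ (-(H0⁻¹ *ᵥ (A *ᵥ e))) = -(A *ᵥ e) := by
    rw [mulVec_neg, mulVec_mulVec, mul_nonsing_inv _ hd, one_mulVec]
  rw [h, sub_mulVec, dotProduct_sub, dotProduct_neg, mulVec_neg, dotProduct_neg,
    ← mulVec_mulVec, ← mulVec_mulVec]
  ring

theorem sup_dn {H : ℂ → M2} {v : ℂ → Fin 2 → ℂ} (hH : ∀ i j, ContDiffAt ℝ 2 (fun z => H z i j) 0)
    (hp : ∀ᶠ z in 𝓝 0, (H z).PosDef) (hv : AnalyticAt ℂ v 0) (h0 : v 0 ≠ 0)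
    (hc : ∀ e, e ≠ 0 → 0 < (star e ⬝ᵥ curv H *ᵥ e).re) : Sup (fun z => dn (H z) (v z)) 0 := by
  have hp0 : (H 0).PosDef := hp.self_of_nhds
  have hdet : IsUnit (H 0).det := (isUnit_iff_isUnit_det _).1 hp0.isUnit
  set e : Fin 2 → ℂ := (H 0)⁻¹ *ᵥ star (v 0) with he
  have he0 : e ≠ 0 := by
    intro h
    apply h0
    have h1 : H 0 *ᵥ e = star (v 0) := by
      rw [he, mulVec_mulVec, mul_nonsing_inv _ hdet, one_mulVec]
    rw [h, mulVec_zero] at h1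
    exact star_eq_zero.1 h1.symm
  set A : M2 := of fun i j => dz (fun z => H z i j) 0 with hA
  set B : M2 := of fun i j => dzb (fun z => H z i j) 0 with hB
  set C : M2 := of fun i j => dzb (dz fun z => H z i j) 0 with hC
  set d : Fin 2 → ℂ := -((H 0)⁻¹ *ᵥ (A *ᵥ e)) with hd
  let F : Fin 2 → Fin 2 → ℂ → ℂ := fun i j z =>
    (starRingEnd ℂ) (e i + z * d i) * H z i j * (e j + z * d j)
  have hF : ∀ i j, ContDiffAt ℝ 2 (F i j) 0 := fun i j => M2_cd (hH i j) _ _ _ _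
  let R : Fin 2 → Fin 2 → ℂ → ℝ := fun i j z => (F i j z).re
  have hR : ∀ i j, ContDiffAt ℝ 2 (R i j) 0 := fun i j => M2_re (hF i j)
  let P : ℂ → ℂ := fun z => 2 * (v z 0 * (e 0 + z * d 0) + v z 1 * (e 1 + z * d 1))
  have hvi : ∀ i, AnalyticAt ℂ (fun z => v z i) 0 := fun i => analyticAt_pi_iff.1 hv i
  have hP : AnalyticAt ℂ P 0 := by
    have := hvi 0
    have := hvi 1
    fun_prop
  have hPh := hP.harmonicAt_re
  let g : ℂ → ℝ := (fun z => (P z).re) - (R 0 0 + R 0 1 + R 1 0 + R 1 1)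
  have hg : ∀ z, g z = 2 * (v z ⬝ᵥ (e + z • d)).re -
      (star (e + z • d) ⬝ᵥ H z *ᵥ (e + z • d)).re := by
    intro z
    have h1 : P z = 2 * (v z ⬝ᵥ (e + z • d)) := by
      simp [P, dotProduct, Fin.sum_univ_two]
    have h2 : F 0 0 z + F 0 1 z + F 1 0 z + F 1 1 z =
        star (e + z • d) ⬝ᵥ H z *ᵥ (e + z • d) := by
      simp only [F, dotProduct, mulVec, Fin.sum_univ_two, Pi.star_apply, Pi.add_apply,
        Pi.smul_apply, smul_eq_mul, RCLike.star_def]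
      ring
    rw [← h2]
    simp only [g, R, Pi.sub_apply, Pi.add_apply, h1, Complex.add_re]
    simp
  have hS : ContDiffAt ℝ 2 (R 0 0 + R 0 1 + R 1 0 + R 1 1) 0 :=
    (((hR 0 0).add (hR 0 1)).add (hR 1 0)).add (hR 1 1)
  refine ⟨g, hPh.1.sub hS, ?_, ?_, ?_⟩
  · filter_upwards [hp] with z hz
    rw [hg]
    exact dn_ge hz _ _
  · rw [hg, zero_smul, add_zero]
    exact dn_eq hp0 _
  · have h1 : (Δ g) 0 = (Δ fun z => (P z).re) 0 - (Δ (R 0 0 + R 0 1 + R 1 0 + R 1 1)) 0 :=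
      hPh.1.laplacian_sub hS
    have h2 : (Δ fun z => (P z).re) 0 = 0 := hPh.2.self_of_nhds
    have h3 : (Δ (R 0 0 + R 0 1 + R 1 0 + R 1 1)) 0 =
        (Δ (R 0 0)) 0 + (Δ (R 0 1)) 0 + (Δ (R 1 0)) 0 + (Δ (R 1 1)) 0 := by
      have s2 : ContDiffAt ℝ 2 (R 0 0 + R 0 1) 0 := (hR 0 0).add (hR 0 1)
      have s3 : ContDiffAt ℝ 2 (R 0 0 + R 0 1 + R 1 0) 0 := s2.add (hR 1 0)
      rw [s3.laplacian_add (hR 1 1), s2.laplacian_add (hR 1 0), (hR 0 0).laplacian_add (hR 0 1)]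
    have h4 : ∀ i j, (Δ (R i j)) 0 = 4 * ((starRingEnd ℂ) (e i) * e j * C i j +
        (starRingEnd ℂ) (d i) * e j * A i j + (starRingEnd ℂ) (e i) * d j * B i j +
        (starRingEnd ℂ) (d i) * d j * H 0 i j).re := by
      intro i j
      have := lap_re (hF i j)
      rw [ddb_mul (hH i j)] at this
      exact this
    have h5 := M2_alg (H 0) A B C hdet e
    rw [← hd] at h5
    have h6 : curv H = B * (H 0)⁻¹ * A - C := rfl
    have h7 := hc e he0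
    rw [h6] at h7
    have h8 : (Δ (R 0 0)) 0 + (Δ (R 0 1)) 0 + (Δ (R 1 0)) 0 + (Δ (R 1 1)) 0 =
        4 * (star e ⬝ᵥ C *ᵥ e + star d ⬝ᵥ A *ᵥ e + star e ⬝ᵥ B *ᵥ d +
          star d ⬝ᵥ H 0 *ᵥ d).re := by
      rw [h4, h4, h4, h4, ← mul_add, ← mul_add, ← mul_add, ← Complex.add_re, ← Complex.add_re,
        ← Complex.add_re]
      congr 2
      simp only [dotProduct, mulVec, Fin.sum_univ_two, Pi.star_apply, RCLike.star_def]
      ring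
    rw [h1, h2, h3, h8, h5, Complex.neg_re]
    linarith

end Vale.Agent.P296
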