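import Vale.Agent.P296.M4
import Vale.Agent.P296.M2
import Vale.Agent.P296.SupL
import Vale.Agent.P296.Der

namespace Vale.Agent.P296

open Matrix Filter Topology MeasureTheory Metric Laplacian ComplexOrder

theorem M5_mem {N : ℕ} {x : P6} (hx : x ∈ Z0 N) :
    pt N ((1, x.1), x.2) ∈ XX N ∩ OO (0, 0) := by
  obtain ⟨h1, h2⟩ := hx
  refine ⟨pt_mem (by simp) (fun h => h2 (by simp [show x.2.1 = 0 from h])) h1, h2, ?_⟩
  have : (pt N ((1, x.1), x.2)).2 (ix 0 0) = 1 * x.2.1 0 ^ N := rfl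
  rw [this, one_mul]
  exact pow_ne_zero _ h2

theorem M5_vec {a b : ℂ} (ha : a ≠ 0) (hb : b ≠ 0) {v : Fin 2 → ℂ} (hv : v ≠ 0) :
    (![a * v 0, b * v 1] : Fin 2 → ℂ) ≠ 0 := by
  intro h
  apply hv
  have h0 : a * v 0 = 0 := congrFun h 0
  have h1 : b * v 1 = 0 := congrFun h 1
  ext i
  fin_cases i
  · exact (mul_eq_zero.1 h0).resolve_left ha
  · exact (mul_eq_zero.1 h1).resolve_left hb

theorem M5_an (N : ℕ) (x : P6) : AnalyticAt ℂ (fun x : P6 => pt N ((1, x.1), x.2)) x :=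
  (an_pt N _).comp (f := fun x : P6 => (((1 : ℂ), x.1), x.2))
    ((analyticAt_const.prod analyticAt_fst).prod analyticAt_snd)

theorem hi {N : ℕ} {h : Fin 2 × Fin 3 → V × Zc → M2} (hh : HMetric (XX N) OO (TT N) h)
    (hg : Griffiths (XX N) OO h) : HI N (Hf N h) := by
  have hpos : ∀ x ∈ Z0 N, (h (0, 0) (pt N ((1, x.1), x.2))).PosDef :=
    fun x hx => hh.pos _ _ (M5_mem hx)
  refine ⟨fun x hx => ?_, fun x hx v hv => ?_, fun x hx t ht v => ?_, hf_bd hh, ?_, ?_⟩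
  · have := (dn_herm (hpos x hx)).mulVec !![x.2.1 0, 0; 0, x.2.1 0 ^ (N + 1)]
    convert this using 2 with v
    unfold Hf
    congr 1
    ext i
    fin_cases i <;> simp [mulVec, dotProduct, Fin.sum_univ_two]
  · exact dn_pos (hpos x hx) (M5_vec hx.2 (pow_ne_zero _ hx.2) hv)
  · have h1 : pt N ((1, x.1), t • x.2.1, (t ^ N * x.2.2.1, t ^ N * x.2.2.2)) =
        sc t (t ^ N) (pt N ((1, x.1), x.2)) := by
      refine Prod.ext rfl ?_
      ext i
      fin_cases i <;> simp [pt, sc, mul_pow] <;> ring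
    have h2 : (![(t • x.2.1) 0 * v 0, (t • x.2.1) 0 ^ (N + 1) * (v 1 / t ^ N)] : Fin 2 → ℂ) =
        t • ![x.2.1 0 * v 0, x.2.1 0 ^ (N + 1) * v 1] := by
      ext i
      fin_cases i
      · simp; ring
      · simp; field_simp; ring
    have h3 := (dn_herm (hpos x hx)).smul t ![x.2.1 0 * v 0, x.2.1 0 ^ (N + 1) * v 1]
    show dn (h (0, 0) (pt N ((1, x.1), t • x.2.1, (t ^ N * x.2.2.1, t ^ N * x.2.2.2))))
      ![(t • x.2.1) 0 * v 0, (t • x.2.1) 0 ^ (N + 1) * (v 1 / t ^ N)] = _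
    rw [h1, hh.inv _ _ (M5_mem hx) t (t ^ N) ht (pow_ne_zero _ ht), h2]
    exact h3
  · have hc : Continuous fun x : P6 => pt N ((1, x.1), x.2) :=
      continuous_iff_continuousAt.2 fun x => (M5_an N x).continuousAt
    refine dn_cont (h := fun p : P6 × (Fin 2 → ℂ) => h (0, 0) (pt N ((1, p.1.1), p.1.2)))
      (v := fun p : P6 × (Fin 2 → ℂ) => ![p.1.2.1 0 * p.2 0, p.1.2.1 0 ^ (N + 1) * p.2 1])
      (fun i j => ?_) (fun p hp => hpos p.1 hp.1) (Continuous.continuousOn (by fun_prop))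
    exact (hh.sm (0, 0) i j).continuousOn.comp (hc.comp continuous_fst).continuousOn
      fun p hp => M5_mem hp.1
  · intro x v z₀ hx hv hZ hd hv0
    apply Sup.shift
    have hs : AnalyticAt ℂ (fun w : ℂ => w + z₀) 0 := by fun_prop
    have hs0 : (fun w : ℂ => w + z₀) 0 = z₀ := zero_add _
    have hx' : AnalyticAt ℂ (fun w => x (w + z₀)) 0 := hx.comp_of_eq hs hs0
    have hv' : AnalyticAt ℂ (fun w => v (w + z₀)) 0 := hv.comp_of_eq hs hs0
    have hZ' : ∀ᶠ w in 𝓝 (0 : ℂ), x (w + z₀) ∈ Z0 N := by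
      have : Tendsto (fun w : ℂ => w + z₀) (𝓝 0) (𝓝 z₀) := by
        simpa using hs.continuousAt.tendsto
      exact this.eventually hZ
    have hZ0 : x (0 + z₀) ∈ Z0 N := hZ'.self_of_nhds
    let γ : ℂ → V × Zc := fun w => pt N ((1, (x (w + z₀)).1), (x (w + z₀)).2)
    have hγ : AnalyticAt ℂ γ 0 := (M5_an N _).comp (f := fun w => x (w + z₀)) hx'
    have hγm : ∀ᶠ w in 𝓝 (0 : ℂ), γ w ∈ XX N ∩ OO (0, 0) := hZ'.mono fun w hw => M5_mem hw
    have hm : AnalyticAt ℂ (fun w => (x (w + z₀)).2.1 0) 0 :=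
      analyticAt_pi_iff.1 (analyticAt_fst.comp (analyticAt_snd.comp hx')) 0
    refine sup_dn (H := fun w => h (0, 0) (γ w))
      (v := fun w => ![(x (w + z₀)).2.1 0 * v (w + z₀) 0,
        (x (w + z₀)).2.1 0 ^ (N + 1) * v (w + z₀) 1]) (fun i j => ?_)
      (hZ'.mono fun w hw => hpos _ hw) ?_ ?_ (hg (0, 0) γ hγ hγm fun s t hst => hd s ?_)
    · have h1 : ContDiffAt ℝ (⊤ : ℕ∞) γ 0 := (hγ.contDiffAt (n := (⊤ : ℕ∞))).restrict_scalars ℝ
      have h2 := ((hh.sm (0, 0) i j) _ hγm.self_of_nhds).comp 0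
        (h1.contDiffWithinAt (s := γ ⁻¹' (XX N ∩ OO (0, 0)))) (Set.mapsTo_preimage _ _)
      exact (h2.contDiffAt hγm).of_le (WithTop.coe_le_coe.2 (le_top : (2 : ℕ∞) ≤ ⊤))
    · refine analyticAt_pi_iff.2 fun i => ?_
      fin_cases i
      · exact hm.mul (analyticAt_pi_iff.1 hv' 0)
      · exact (hm.pow _).mul (analyticAt_pi_iff.1 hv' 1)
    · exact M5_vec hZ0.2 (pow_ne_zero _ hZ0.2) (by rwa [zero_add])
    · have h1 : HasDerivAt (fun w => (γ w).1) (deriv γ 0).1 0 :=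
        hγ.differentiableAt.hasDerivAt.fst
      have h2 : deriv (fun w => (γ w).1) 0 = deriv (fun z => (x z).2.1) z₀ := by
        have := deriv_comp_add_const (fun z => (x z).2.1) z₀ 0
        rw [zero_add] at this
        exact this
      rw [← h2, h1.deriv, hst]
      simp [sc, γ, pt]

end Vale.Agent.P296
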