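import Vale.Agent.P296.Alg0

namespace Vale.Agent.P296

open Matrix Filter Topology MeasureTheory Metric Laplacian ComplexOrder

theorem ift_an (w : Pm) : AnalyticAt ℂ Xi w := by
  have k : ∀ {F : Type} [NormedAddCommGroup F] [NormedSpace ℂ F] [CompleteSpace F] {f : Pm → F},
      ContDiffAt ℂ ⊤ f w → AnalyticAt ℂ f w := fun h => h.analyticAt
  have h1 : AnalyticAt ℂ (fun w : Pm => Lam w.1.1 w.2.1) w :=
    AnalyticAt.comp (g := fun p : (ℂ × ℂ) × ℂ => Lam p.1 p.2) (f := fun w : Pm => (w.1.1, w.2.1))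
      (an_Lam _) (k (by fun_prop))
  have h2 : AnalyticAt ℂ (fun w : Pm => Lam w.1.1 w.2.2) w :=
    AnalyticAt.comp (g := fun p : (ℂ × ℂ) × ℂ => Lam p.1 p.2) (f := fun w : Pm => (w.1.1, w.2.2))
      (an_Lam _) (k (by fun_prop))
  have h3 : AnalyticAt ℂ (fun w : Pm => w.1.2.1) w := k (by fun_prop)
  have h4 : AnalyticAt ℂ (fun w : Pm => w.1.2.2) w := k (by fun_prop)
  exact (h3.smul h1).prod (h4.smul h2)

theorem xi_smooth : ContDiff ℝ 1 Xi :=
  contDiff_iff_contDiffAt.2 fun w => (ift_an w).contDiffAt.restrict_scalars ℝ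

theorem ift_bil {M : ℂ → M3} {u v : ℂ → V} {u' v' : V}
    (hM : ∀ i j, HasDerivAt (fun τ => M τ i j) 0 0)
    (hu : ∀ i, HasDerivAt (fun τ => u τ i) (u' i) 0)
    (hv : ∀ i, HasDerivAt (fun τ => v τ i) (v' i) 0) (h0 : ∀ τ, bil (M τ) (u τ) (v τ) = 0) :
    bil (M 0) u' (v 0) + bil (M 0) (u 0) v' = 0 := by
  have h : HasDerivAt (fun τ => ∑ i, u τ i * ∑ j, M τ i j * v τ j) _ 0 :=
    HasDerivAt.fun_sum fun i _ => (hu i).fun_mul
      (HasDerivAt.fun_sum fun j _ => (hM i j).fun_mul (hv j))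
  have e : (fun τ => ∑ i, u τ i * ∑ j, M τ i j * v τ j) = fun _ => 0 := funext h0
  rw [e] at h
  have h2 := h.unique (hasDerivAt_const _ _)
  simp only [zero_mul, zero_add, Finset.sum_add_distrib] at h2
  exact h2

theorem ift_lin (a b : ℂ) : HasDerivAt (fun τ : ℂ => a + τ * b) b 0 := by
  simpa using ((hasDerivAt_id (0 : ℂ)).mul_const b).const_add a

theorem ift_one (y1 y2 a1 a2 t dt s ds : ℂ) (hd : (Ry (y1, y2)).det ≠ 0) (ht : t ≠ 0)
    (hg : gd (Lam (y1, y2) s) ≠ 0)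
    (h : HasDerivAt (fun τ : ℂ => (t + τ * dt) • Lam (y1 + τ * a1, y2 + τ * a2) (s + τ * ds)) 0 0) :
    a2 = s * a1 ∧ (a1 = 0 → a2 = 0 → ds = 0 ∧ dt = 0) := by
  set L : ℂ → V := fun τ : ℂ => (t + τ * dt) • Lam (y1 + τ * a1, y2 + τ * a2) (s + τ * ds)
    with hL
  have hR : ∀ τ, ![bil (Dm (L τ)) (m1 (y1 + τ * a1, y2 + τ * a2)) (m1 (y1 + τ * a1, y2 + τ * a2)),
      bil (Dm (L τ)) (m1 (y1 + τ * a1, y2 + τ * a2)) (m2 (y1 + τ * a1, y2 + τ * a2)),
      bil (Dm (L τ)) (m2 (y1 + τ * a1, y2 + τ * a2)) (m2 (y1 + τ * a1, y2 + τ * a2))] =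
      ((t + τ * dt) * (Ry (y1 + τ * a1, y2 + τ * a2)).det) •
        ![1, s + τ * ds, (s + τ * ds) ^ 2] := fun τ => by
    rw [← Ry_mul, hL, mulVec_smul, Ry_Lam, smul_smul]
  have hM : ∀ i j, HasDerivAt (fun τ => Dm (L τ) i j) 0 0 := fun i j => by
    have h0 := hasDerivAt_pi.1 h
    simpa [Dm] using (((h0 0).mul_const (D0 i j)).fun_add ((h0 1).mul_const (D1 i j))).fun_add
      ((h0 2).mul_const (D2 i j))
  have hn : ∀ i, HasDerivAt (fun τ : ℂ => (![(s + τ * ds) * (y1 + τ * a1) - (y2 + τ * a2),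
      -(s + τ * ds), 1] : V) i) ((![ds * y1 + s * a1 - a2, -ds, 0] : V) i) 0 := fun i => by
    fin_cases i
    · simpa using ((ift_lin s ds).fun_mul (ift_lin y1 a1)).fun_sub (ift_lin y2 a2)
    · exact (ift_lin s ds).fun_neg
    · exact hasDerivAt_const _ _
  have h1 : ∀ i, HasDerivAt (fun τ : ℂ => m1 (y1 + τ * a1, y2 + τ * a2) i)
      ((![-a1, 0, 0] : V) i) 0 := fun i => by
    fin_cases i
    · exact (ift_lin y1 a1).fun_neg
    · exact hasDerivAt_const _ _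
    · exact hasDerivAt_const _ _
  have h2 : ∀ i, HasDerivAt (fun τ : ℂ => m2 (y1 + τ * a1, y2 + τ * a2) i)
      ((![-a2, 0, 0] : V) i) 0 := fun i => by
    fin_cases i
    · exact (ift_lin y2 a2).fun_neg
    · exact hasDerivAt_const _ _
    · exact hasDerivAt_const _ _
  have z : ∀ τ, bil (Dm (L τ)) (m1 (y1 + τ * a1, y2 + τ * a2))
      ![(s + τ * ds) * (y1 + τ * a1) - (y2 + τ * a2), -(s + τ * ds), 1] = 0 ∧
      bil (Dm (L τ)) (m2 (y1 + τ * a1, y2 + τ * a2))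
      ![(s + τ * ds) * (y1 + τ * a1) - (y2 + τ * a2), -(s + τ * ds), 1] = 0 := fun τ => by
    have r0 := congrFun (hR τ) 0
    have r1 := congrFun (hR τ) 1
    have r2 := congrFun (hR τ) 2
    have s1 := Dm_symm (L τ) 1 0
    have s2 := Dm_symm (L τ) 2 0
    have s3 := Dm_symm (L τ) 2 1
    generalize Dm (L τ) = M at *
    generalize (t + τ * dt) * (Ry (y1 + τ * a1, y2 + τ * a2)).det = κ at *
    simp [bil, dotProduct, mulVec, Fin.sum_univ_three, m1, m2, s1, s2, s3] at r0 r1 r2 ⊢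
    constructor
    · linear_combination r1 - (s + τ * ds) * r0
    · linear_combination r2 - (s + τ * ds) * r1
  have e1 := ift_bil hM h1 hn fun τ => (z τ).1
  have e2 := ift_bil hM h2 hn fun τ => (z τ).2
  obtain ⟨z1, z2⟩ := z 0
  have r0 := congrFun (hR 0) 0
  have L0 : L 0 = t • Lam (y1, y2) s := by simp [hL]
  have dM : (Dm (L 0)).det ≠ 0 := by
    have : gd (L 0) ≠ 0 := by
      rw [L0, gd_smul]
      exact mul_ne_zero (pow_ne_zero _ ht) hg
    intro e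
    exact this (by rw [gd, e]; ring)
  have s1 := Dm_symm (L 0) 1 0
  have s2 := Dm_symm (L 0) 2 0
  have s3 := Dm_symm (L 0) 2 1
  have κ0 := mul_ne_zero ht hd
  simp only [zero_mul, add_zero] at e1 e2 z1 z2 r0
  generalize Dm (L 0) = M at *
  generalize t * (Ry (y1, y2)).det = κ at *
  have θ0 : M 0 0 * (s * y1 - y2) - M 0 1 * s + M 0 2 ≠ 0 := fun e => by
    have : M *ᵥ ![s * y1 - y2, -s, 1] = 0 := by
      simp [bil, dotProduct, mulVec, Fin.sum_univ_three, m1, m2, s1, s2, s3] at z1 z2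
      ext i
      fin_cases i <;> simp [dotProduct, mulVec, Fin.sum_univ_three, s1, s2, s3]
      · linear_combination e
      · linear_combination z1 + y1 * e
      · linear_combination z2 + y2 * e
    simpa using congrFun (eq_zero_of_mulVec_eq_zero dM this) 2
  simp [bil, dotProduct, mulVec, Fin.sum_univ_three, m1, m2, s1, s2, s3] at z1 z2 e1 e2 r0
  refine ⟨mul_left_cancel₀ (mul_ne_zero two_ne_zero θ0) ?_, fun b1 b2 => ?_⟩
  · linear_combination s * e1 - e2 - ds * z1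
  · subst b1 b2
    have hs : ds = 0 := mul_left_cancel₀ κ0 (by linear_combination -e1 - ds * r0)
    subst hs
    refine ⟨rfl, ?_⟩
    have k := ((ift_lin t dt).smul_const (Lam (y1, y2) s)).unique (by simpa [hL] using h)
    by_contra hdt
    have k2 := Ry_Lam (y1, y2) s
    rw [(smul_eq_zero.1 k).resolve_left hdt, mulVec_zero] at k2
    exact hd (by simpa using (congrFun k2 0).symm)

theorem xi_open {w : Pm} (h : Nd w) : map Xi (𝓝 w) = 𝓝 (Xi w) := by
  refine (ift_an w).hasStrictFDerivAt.map_nhds_eq_of_surj (LinearMap.range_eq_top.2 ?_)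
  refine (LinearMap.injective_iff_surjective_of_finrank_eq_finrank (by simp)).1
    ((injective_iff_map_eq_zero _).2 fun v hv => ?_)
  have hc : HasDerivAt (fun τ : ℂ => w + τ • v) v 0 := by
    simpa using ((hasDerivAt_id (0 : ℂ)).smul_const v).const_add w
  have hx := (ift_an w).differentiableAt.hasFDerivAt.comp_hasDerivAt_of_eq 0 hc (by simp)
  have hv' : fderiv ℂ Xi w v = 0 := hv
  rw [hv'] at hx
  obtain ⟨⟨⟨y1, y2⟩, t, t'⟩, s, s'⟩ := w
  obtain ⟨⟨⟨a1, a2⟩, dt, dt'⟩, ds, ds'⟩ := v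
  obtain ⟨n1, n2, n3, n4, n5, n6⟩ := h
  obtain ⟨p1, p2⟩ := ift_one y1 y2 a1 a2 t dt s ds n1 n3 n5
    ((ContinuousLinearMap.fst ℂ V V).hasFDerivAt.comp_hasDerivAt 0 hx)
  obtain ⟨q1, q2⟩ := ift_one y1 y2 a1 a2 t' dt' s' ds' n1 n4 n6
    ((ContinuousLinearMap.snd ℂ V V).hasFDerivAt.comp_hasDerivAt 0 hx)
  have b1 : a1 = 0 := by
    by_contra hne
    exact n2 (mul_right_cancel₀ hne (p1.symm.trans q1))
  have b2 : a2 = 0 := by rw [p1, b1, mul_zero]
  obtain ⟨c1, c2⟩ := p2 b1 b2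
  obtain ⟨c3, c4⟩ := q2 b1 b2
  subst b1 b2 c1 c2 c3 c4
  rfl

end Vale.Agent.P296
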