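import Vale.Agent.P296.Defs

namespace Vale.Agent.P296

open Matrix Filter Topology MeasureTheory Metric Laplacian ComplexOrder

theorem img {f : Pm → V × V} (hf : ContDiff ℝ 1 f) {K : Set Pm} (hK : IsCompact K) :
    ∃ C : ℝ, 0 < C ∧ ∀ B : Set Pm, MeasurableSet B → B ⊆ K →
      volume (f '' B) ≤ ENNReal.ofReal C * volume B := by
  have hrk : Module.finrank ℝ Pm = Module.finrank ℝ (V × V) := by
    simp [Module.finrank_prod, Module.finrank_pi_fintype, Complex.finrank_real_complex]
  let L : Pm ≃L[ℝ] (V × V) := ContinuousLinearEquiv.ofFinrankEq hrk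
  let g : V × V → V × V := f ∘ L.symm
  have hg : ContDiff ℝ 1 g := hf.comp L.symm.contDiff
  have hc : Continuous fun x => |(fderiv ℝ g x).det| :=
    (ContinuousLinearMap.continuous_det.comp (hg.continuous_fderiv one_ne_zero)).abs
  obtain ⟨M, hM⟩ := (hK.image L.continuous).bddAbove_image hc.continuousOn
  have : (volume : Measure (V × V)).IsAddHaarMeasure := Measure.prod.instIsAddHaarMeasure _ _
  have h1 : (volume : Measure (ℂ × ℂ)).IsAddHaarMeasure := Measure.prod.instIsAddHaarMeasure _ _
  have h2 : (volume : Measure ((ℂ × ℂ) × (ℂ × ℂ))).IsAddHaarMeasure :=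
    Measure.prod.instIsAddHaarMeasure _ _
  have h3 : (volume : Measure Pm).IsAddHaarMeasure := Measure.prod.instIsAddHaarMeasure _ _
  let μ : Measure Pm := (volume : Measure (V × V)).map L.symm
  have hμ : μ.IsAddHaarMeasure := L.symm.isAddHaarMeasure_map _
  have he := Measure.isAddLeftInvariant_eq_smul μ (volume : Measure Pm)
  set c := Measure.addHaarScalarFactor μ (volume : Measure Pm)
  refine ⟨(|M| + 1) * (c + 1), by positivity, fun B hB hBK => ?_⟩
  have hLB : L '' B = L.symm ⁻¹' B := L.toEquiv.image_eq_preimage_symm B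
  have hm : MeasurableSet (L '' B) := by
    rw [hLB]
    exact L.symm.continuous.measurable hB
  have e1 : f '' B = g '' (L '' B) := by
    rw [← Set.image_comp]
    congr 1
    funext x
    simp [g]
  have e2 : volume (L '' B) = (c : ENNReal) * volume B := by
    rw [hLB, ← Measure.map_apply L.symm.continuous.measurable hB]
    change μ B = _
    rw [he]
    rfl
  calc volume (f '' B) ≤ ∫⁻ x in L '' B, ENNReal.ofReal |(fderiv ℝ g x).det| := by
        rw [e1]
        exact addHaar_image_le_lintegral_abs_det_fderiv volume hm fun x _ =>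
          (hg.differentiable one_ne_zero x).hasFDerivAt.hasFDerivWithinAt
    _ ≤ ∫⁻ _ in L '' B, ENNReal.ofReal (|M| + 1) := by
        refine setLIntegral_mono' hm fun x hx => ENNReal.ofReal_le_ofReal ?_
        have := hM ⟨x, Set.image_mono hBK hx, rfl⟩
        have := le_abs_self M
        linarith
    _ = ENNReal.ofReal (|M| + 1) * ((c : ENNReal) * volume B) := by rw [setLIntegral_const, e2]
    _ ≤ _ := by
        rw [ENNReal.ofReal_mul (by positivity), mul_assoc]
        gcongr
        rw [← ENNReal.ofReal_coe_nnreal]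
        exact ENNReal.ofReal_le_ofReal (by linarith)

end Vale.Agent.P296
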