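import Vale.Agent.P296.PB
import Vale.Agent.P296.IMG
import Vale.Agent.P296.IFT

namespace Vale.Agent.P296

open Matrix Filter Topology MeasureTheory Metric Laplacian ComplexOrder

theorem pair {w₀ : Pm} (h : Nd w₀) {δ : ℝ} (hδ : 0 < δ) {W : Set Pm} (hW : W ∈ 𝓝 w₀) :
    ∃ U ∈ 𝓝 (Xi w₀), ∀ θ : ℝ, 0 < θ → ∀ᶠ N : ℕ in atTop, ∀ G, GI N G →
      ∃ B : Set (V × V), volume B ≤ ENNReal.ofReal θ ∧
        ∀ u ∈ U, u ∉ B → ∃ w ∈ W, Xi w = u ∧ Cmp G δ w := by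
  obtain ⟨W', hW', hs, hb⟩ := pb h hδ hW
  obtain ⟨C, C0, hC⟩ := img xi_smooth (isCompact_closedBall w₀ 1)
  refine ⟨Xi '' W', xi_open h ▸ image_mem_map hW', fun θ hθ => ?_⟩
  filter_upwards [hb (θ / C) (by positivity)] with N hN G hG
  obtain ⟨B, b1, b2, b3, b4⟩ := hN G hG
  refine ⟨Xi '' B, (hC B b1 b2).trans ?_, ?_⟩
  · calc ENNReal.ofReal C * volume B ≤ ENNReal.ofReal C * ENNReal.ofReal (θ / C) := by gcongr
      _ = ENNReal.ofReal θ := by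
        rw [← ENNReal.ofReal_mul C0.le, mul_div_cancel₀ _ C0.ne']
  · rintro _ ⟨w, hw, rfl⟩ hu
    exact ⟨w, hs hw, rfl, b4 w hw fun c => hu ⟨w, c, rfl⟩⟩

end Vale.Agent.P296
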