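import Vale.Agent.P296.Defs

namespace Vale.Agent.P296

open Matrix Filter Topology MeasureTheory Metric Laplacian ComplexOrder

theorem tri (a b c : V) {r : ℝ} (hr : 0 < r) : ∃ θ : ℝ, 0 < θ ∧ ∀ B B' : Set (V × V),
    volume B ≤ ENNReal.ofReal θ → volume B' ≤ ENNReal.ofReal θ →
    ∃ x ∈ ball a r, ∃ y ∈ ball b r, ∃ z ∈ ball c r, (x, y) ∉ B ∧ (y, z) ∉ B' := by
  have hpos : 0 < volume (ball (0 : V) r) := measure_ball_pos _ _ hr
  have hfin : volume (ball (0 : V) r) ≠ ⊤ := measure_ball_lt_top.ne
  obtain ⟨m, hm⟩ : ∃ m : ℝ, m = (volume (ball (0 : V) r)).toReal := ⟨_, rfl⟩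
  have hm0 : 0 < m := hm ▸ ENNReal.toReal_pos hpos.ne' hfin
  have hball : ∀ x : V, volume (ball x r) = ENNReal.ofReal m := by
    intro x
    rw [Measure.addHaar_ball_center, hm, ENNReal.ofReal_toReal hfin]
  refine ⟨m * m / 4, by positivity, fun B B' hB hB' => ?_⟩
  by_contra hcon
  push Not at hcon
  have hm1 := measurableSet_toMeasurable (volume : Measure (V × V)) B
  have hm2 := measurableSet_toMeasurable (volume : Measure (V × V)) B'
  have h1 : ∫⁻ y, volume ((fun x : V => (x, y)) ⁻¹' toMeasurable volume B) ≤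
      ENNReal.ofReal (m * m / 4) := by
    rw [← Measure.prod_apply_symm hm1, ← Measure.volume_eq_prod, measure_toMeasurable]
    exact hB
  have h2 : ∫⁻ y, volume (Prod.mk y ⁻¹' toMeasurable volume B') ≤
      ENNReal.ofReal (m * m / 4) := by
    rw [← Measure.prod_apply hm2, ← Measure.volume_eq_prod, measure_toMeasurable]
    exact hB'
  have h3 : ∀ y ∈ ball b r, ENNReal.ofReal m ≤
      volume ((fun x : V => (x, y)) ⁻¹' toMeasurable volume B) +
        volume (Prod.mk y ⁻¹' toMeasurable volume B') := by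
    intro y hy
    by_cases h : ∀ x ∈ ball a r, (x, y) ∈ B
    · refine le_trans ?_ le_self_add
      rw [← hball a]
      exact measure_mono fun x hx => subset_toMeasurable _ _ (h x hx)
    · push Not at h
      obtain ⟨x, hx, hxB⟩ := h
      refine le_trans ?_ le_add_self
      rw [← hball c]
      exact measure_mono fun z hz => subset_toMeasurable _ _ (hcon x hx y hy z hz hxB)
  have h4 : ENNReal.ofReal m * ENNReal.ofReal m ≤
      ENNReal.ofReal (m * m / 4) + ENNReal.ofReal (m * m / 4) := by
    calc ENNReal.ofReal m * ENNReal.ofReal m = ∫⁻ _ in ball b r, ENNReal.ofReal m := by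
          rw [setLIntegral_const, hball]
      _ ≤ ∫⁻ y in ball b r, (volume ((fun x : V => (x, y)) ⁻¹' toMeasurable volume B) +
          volume (Prod.mk y ⁻¹' toMeasurable volume B')) :=
          setLIntegral_mono' measurableSet_ball h3
      _ ≤ ∫⁻ y, (volume ((fun x : V => (x, y)) ⁻¹' toMeasurable volume B) +
          volume (Prod.mk y ⁻¹' toMeasurable volume B')) := setLIntegral_le_lintegral _ _
      _ ≤ _ := by
          rw [lintegral_add_right _ (measurable_measure_prodMk_left hm2)]
          exact add_le_add h1 h2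
  rw [← ENNReal.ofReal_mul hm0.le, ← ENNReal.ofReal_add (by positivity) (by positivity),
    ENNReal.ofReal_le_ofReal_iff (by positivity)] at h4
  nlinarith [mul_pos hm0 hm0]

end Vale.Agent.P296
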