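import Vale.Agent.P296.FA
import Vale.Agent.P296.Pair
import Vale.Agent.P296.Tri

namespace Vale.Agent.P296

open Matrix Filter Topology MeasureTheory Metric Laplacian ComplexOrder

theorem nog_three {B0 B1 B2 : Set (V × V)} {θ : ℝ} (hθ : 0 < θ)
    (h0 : volume B0 ≤ ENNReal.ofReal (θ / 3)) (h1 : volume B1 ≤ ENNReal.ofReal (θ / 3))
    (h2 : volume B2 ≤ ENNReal.ofReal (θ / 3)) : volume (B0 ∪ B1 ∪ B2) ≤ ENNReal.ofReal θ := by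
  calc volume (B0 ∪ B1 ∪ B2) ≤ volume B0 + volume B1 + volume B2 :=
        (measure_union_le _ _).trans (add_le_add (measure_union_le _ _) le_rfl)
    _ ≤ ENNReal.ofReal (θ / 3) + ENNReal.ofReal (θ / 3) + ENNReal.ofReal (θ / 3) :=
        add_le_add (add_le_add h0 h1) h2
    _ = ENNReal.ofReal θ := by
        rw [← ENNReal.ofReal_add (by positivity) (by positivity),
          ← ENNReal.ofReal_add (by positivity) (by positivity)]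
        congr 1; ring

theorem noG : ∀ᶠ N : ℕ in atTop, ∀ G, ¬GI N G := by
  obtain ⟨δ, hδ, W, hW, hfa⟩ := fa
  choose U hU hp using fun k => pair (base_nd k) hδ (hW k)
  have hI : ∀ k, ∃ r > 0, ball (Xi (wb k)) r ⊆ U k := fun k => Metric.mem_nhds_iff.1 (hU k)
  choose ρ hρ hρU using hI
  obtain ⟨k0, hk0⟩ := Finite.exists_min ρ
  have hball : ∀ k, ball (Xi (wb k)) (ρ k0) ⊆ U k :=
    fun k => (ball_subset_ball (hk0 k)).trans (hρU k)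
  obtain ⟨θ, hθ, htri⟩ := tri lb0 lb1 lb2 (hρ k0)
  have hev := eventually_all.2 fun k => hp k (θ / 3) (by positivity)
  filter_upwards [hev] with N hN G hG
  choose B hB hBU using fun k => hN k G hG
  obtain ⟨x, hx, y, hy, z, hz, h1, h2⟩ := htri (B 0 ∪ B 1 ∪ B 2) (B 3 ∪ B 4 ∪ B 5)
    (nog_three hθ (hB 0) (hB 1) (hB 2)) (nog_three hθ (hB 3) (hB 4) (hB 5))
  simp only [Set.mem_union, not_or] at h1 h2
  obtain ⟨e0, e1, e2, e3, e4, e5⟩ := base_xi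
  have hxy : (x, y) ∈ ball (lb0, lb1) (ρ k0) := by
    rw [← ball_prod_same]; exact ⟨hx, hy⟩
  have hyz : (y, z) ∈ ball (lb1, lb2) (ρ k0) := by
    rw [← ball_prod_same]; exact ⟨hy, hz⟩
  obtain ⟨w0, a0, b0, c0⟩ := hBU 0 (x, y) (hball 0 (e0 ▸ hxy)) h1.1.1
  obtain ⟨w1, a1, b1, c1⟩ := hBU 1 (x, y) (hball 1 (e1 ▸ hxy)) h1.1.2
  obtain ⟨w2, a2, b2, c2⟩ := hBU 2 (x, y) (hball 2 (e2 ▸ hxy)) h1.2
  obtain ⟨w3, a3, b3, c3⟩ := hBU 3 (y, z) (hball 3 (e3 ▸ hyz)) h2.1.1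
  obtain ⟨w4, a4, b4, c4⟩ := hBU 4 (y, z) (hball 4 (e4 ▸ hyz)) h2.1.2
  obtain ⟨w5, a5, b5, c5⟩ := hBU 5 (y, z) (hball 5 (e5 ▸ hyz)) h2.2
  refine hfa N G hG x y z ![w0, w1, w2, w3, w4, w5] ?_ b0 b1 b2 b3 b4 b5
  intro k
  fin_cases k
  exacts [⟨a0, c0⟩, ⟨a1, c1⟩, ⟨a2, c2⟩, ⟨a3, c3⟩, ⟨a4, c4⟩, ⟨a5, c5⟩]

end Vale.Agent.P296
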