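import Vale.Agent.P296.X2

namespace Vale.Agent.P296

open Matrix Filter Topology MeasureTheory Metric Laplacian ComplexOrder

theorem x3_fin {E G : Type} [NormedAddCommGroup E] [NormedSpace ℂ E] [NormedAddCommGroup G]
    [NormedSpace ℂ G] [FiniteDimensional ℂ G] {X : Set E} {x : E} {F : E → G}
    (h1 : AnalyticAt ℂ F x) (h2 : Function.Surjective (fderiv ℂ F x))
    (h3 : ∀ᶠ x' in 𝓝 x, x' ∈ X ↔ F x' = 0) :
    ∃ (c : ℕ) (F : E → Fin c → ℂ), AnalyticAt ℂ F x ∧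
      Function.Surjective (fderiv ℂ F x) ∧ ∀ᶠ x' in 𝓝 x, x' ∈ X ↔ F x' = 0 := by
  let L : G ≃L[ℂ] (Fin (Module.finrank ℂ G) → ℂ) := ContinuousLinearEquiv.ofFinrankEq (by simp)
  refine ⟨_, L ∘ F, (L.analyticAt _).comp h1, ?_, h3.mono fun y hy => by simp [hy]⟩
  rw [L.comp_fderiv]
  exact L.surjective.comp h2

noncomputable def x3r (N : ℕ) (j : Fin 3) (x : V × Zc) : (ℂ × ℂ) × V × (ℂ × ℂ) :=
  ((x.2 (ix 0 j) / x.1 j ^ N, x.2 (ix 1 j) / x.1 j ^ N), x.1, (x.2 6, x.2 7))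

noncomputable def x3F (N : ℕ) (j : Fin 3) (x : V × Zc) : (Fin 2 × Fin 2 → ℂ) × V :=
  (fun a => x.2 (ix a.1 (j.succAbove a.2)) - x.2 (ix a.1 j) / x.1 j ^ N * x.1 (j.succAbove a.2) ^ N,
    Feq N (x3r N j x))

noncomputable def x3s (N : ℕ) (j : Fin 3)
    (q : ((ℂ × ℂ) × V × (ℂ × ℂ)) × (Fin 2 × Fin 2 → ℂ)) : V × Zc :=
  pt N q.1 + (0, ∑ a : Fin 2 × Fin 2, q.2 a • Pi.single (ix a.1 (j.succAbove a.2)) 1)

theorem x3_pt (N : ℕ) (p : (ℂ × ℂ) × V × (ℂ × ℂ)) (a : Fin 2) (l : Fin 3) :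
    (pt N p).2 (ix a l) = ![p.1.1, p.1.2] a * p.2.1 l ^ N := by
  fin_cases a <;> fin_cases l <;> rfl

theorem x3_hom (M : M3) (e0 e1 c : ℂ) : Rc M (e0 * c) (e1 * c) = c ^ 2 • Rc M e0 e1 := by
  have h1 : l1 (e0 * c) (e1 * c) = c • l1 e0 e1 := by
    ext k; fin_cases k <;> simp [l1, mul_comm]
  have h2 : l2 (e0 * c) (e1 * c) = c • l2 e0 e1 := by
    ext k; fin_cases k <;> simp [l2, mul_comm]
  have h3 : ∀ u v, bil M (c • u) (c • v) = c ^ 2 * bil M u v := fun u v => by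
    rw [bil, bil, mulVec_smul, dotProduct_smul, smul_dotProduct, smul_eq_mul, smul_eq_mul]
    ring
  rw [Rc, Rc, h1, h2, h3, h3, h3]
  ext k; fin_cases k <;> rfl

theorem x3_lin (l : V) (e0 e1 : ℂ) : Rc (Dm l) e0 e1 = ∑ j, l j • Rc (Dj j) e0 e1 := by
  have h3 : ∀ u v, bil (Dm l) u v = l 0 * bil D0 u v + l 1 * bil D1 u v + l 2 * bil D2 u v :=
    fun u v => by
    simp only [bil, Dm, add_mulVec, smul_mulVec, dotProduct_add, dotProduct_smul, smul_eq_mul]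
  rw [Fin.sum_univ_three, Rc, h3, h3, h3]
  ext k; fin_cases k <;> rfl

theorem x3_sum (N : ℕ) (μ : V) (e0 e1 : ℂ) :
    ∑ l, Rc (Dj l) (e0 * μ l ^ N) (e1 * μ l ^ N) = Rc (Dm (pw N μ)) e0 e1 := by
  rw [x3_lin]
  refine Finset.sum_congr rfl fun l _ => ?_
  rw [x3_hom, ← pow_mul, mul_comm N]
  rfl

theorem x3_ix : ∀ (j : Fin 3) (a b : Fin 2 × Fin 2),
    (ix a.1 (j.succAbove a.2) = ix b.1 (j.succAbove b.2) ↔ a = b) ∧
    (∀ c, ix c j ≠ ix a.1 (j.succAbove a.2)) ∧ 6 ≠ ix a.1 (j.succAbove a.2) ∧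
    7 ≠ ix a.1 (j.succAbove a.2) := by decide

theorem x3_Fs (N : ℕ) (j : Fin 3) (q : ((ℂ × ℂ) × V × (ℂ × ℂ)) × (Fin 2 × Fin 2 → ℂ))
    (hq : q.1.2.1 j ≠ 0) : x3F N j (x3s N j q) = (q.2, Feq N q.1) := by
  have h0 : (x3s N j q).1 = q.1.2.1 := by simp [x3s, pt]
  have h1 : ∀ c, (x3s N j q).2 (ix c j) = ![q.1.1.1, q.1.1.2] c * q.1.2.1 j ^ N := fun c => by
    simp [x3s, x3_pt, Finset.sum_apply, Pi.single_apply, fun a => (x3_ix j a a).2.1 c]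
  have h2 : ∀ b : Fin 2 × Fin 2, (x3s N j q).2 (ix b.1 (j.succAbove b.2)) =
      ![q.1.1.1, q.1.1.2] b.1 * q.1.2.1 (j.succAbove b.2) ^ N + q.2 b := fun b => by
    simp [x3s, x3_pt, Finset.sum_apply, Pi.single_apply, fun a => (x3_ix j b a).1]
  have h3 : (x3s N j q).2 6 = q.1.2.2.1 := by
    have : (pt N q.1).2 6 = q.1.2.2.1 := rfl
    simp [x3s, this, Finset.sum_apply, Pi.single_apply, fun a => (x3_ix j a a).2.2.1]
  have h4 : (x3s N j q).2 7 = q.1.2.2.2 := by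
    have : (pt N q.1).2 7 = q.1.2.2.2 := rfl
    simp [x3s, this, Finset.sum_apply, Pi.single_apply, fun a => (x3_ix j a a).2.2.2]
  have h5 : q.1.2.1 j ^ N ≠ 0 := pow_ne_zero _ hq
  refine Prod.ext (funext fun b => ?_) ?_
  · simp only [x3F, h0, h1, h2, mul_div_cancel_right₀ _ h5]
    ring
  · simp only [x3F, x3r, h0, h1, h3, h4, mul_div_cancel_right₀ _ h5]
    rfl

theorem x3_pr {N : ℕ} {j : Fin 3} {x : V × Zc} (h1 : x.1 j ≠ 0) (h : (x3F N j x).1 = 0)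
    (a : Fin 2) (l : Fin 3) : x.2 (ix a l) = x.2 (ix a j) / x.1 j ^ N * x.1 l ^ N := by
  by_cases hl : l = j
  · rw [hl, div_mul_cancel₀ _ (pow_ne_zero _ h1)]
  · obtain ⟨c, rfl⟩ := Fin.exists_succAbove_eq hl
    exact sub_eq_zero.1 (congrFun h (a, c))

theorem x3_iff {N : ℕ} {j : Fin 3} {x : V × Zc} (h1 : x.1 j ≠ 0) (h2 : x.2 ≠ 0) :
    x ∈ XX N ↔ x3F N j x = 0 := by
  have h5 : x.1 j ^ N ≠ 0 := pow_ne_zero _ h1
  have key : (x3F N j x).1 = 0 → (x3F N j x).2 =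
      ∑ l, Rc (Dj l) (x.2 (ix 0 l)) (x.2 (ix 1 l)) - bb (x.2 6) (x.2 7) := fun h => by
    simp only [x3F, x3r, Feq, ← x3_sum, ← x3_pr h1 h]
  constructor
  · rintro ⟨-, -, a3, a4⟩
    have b : (x3F N j x).1 = 0 := funext fun a => by
      simp only [x3F, Pi.zero_apply]
      rw [sub_eq_zero, div_mul_eq_mul_div, eq_div_iff h5, a3 a.1 j]
    exact Prod.ext b (by rw [key b, a4, sub_self]; rfl)
  · intro h
    have b : (x3F N j x).1 = 0 := by rw [h]; rfl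
    refine ⟨fun h0 => h1 (by rw [h0]; rfl), h2, fun a m l => ?_, ?_⟩
    · rw [x3_pr h1 b a m, x3_pr h1 b a l]
      ring
    · rw [← sub_eq_zero, ← key b, h]
      rfl

theorem x3_an {N : ℕ} {j : Fin 3} {x : V × Zc} (h1 : x.1 j ≠ 0) : AnalyticAt ℂ (x3F N j) x := by
  have h5 : x.1 j ^ N ≠ 0 := pow_ne_zero _ h1
  have a1 : ∀ l, AnalyticAt ℂ (fun x : V × Zc => x.1 l) x := fun l =>
    ((ContinuousLinearMap.proj l).comp (ContinuousLinearMap.fst ℂ V Zc)).analyticAt x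
  have a2 : ∀ l, AnalyticAt ℂ (fun x : V × Zc => x.2 l) x := fun l =>
    ((ContinuousLinearMap.proj l).comp (ContinuousLinearMap.snd ℂ V Zc)).analyticAt x
  have a3 : ∀ c, AnalyticAt ℂ (fun x : V × Zc => x.2 (ix c j) / x.1 j ^ N) x := fun c =>
    (a2 _).div ((a1 j).pow N) h5
  refine AnalyticAt.prod (analyticAt_pi_iff.2 fun a => (a2 _).sub ((a3 _).mul ((a1 _).pow N))) ?_
  exact (an_Feq N _).comp (((a3 0).prod (a3 1)).prod (analyticAt_fst.prod ((a2 6).prod (a2 7))))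

theorem xx_mfd {N : ℕ} (hN : 0 < N) : ProjMfd (XX N) := by
  refine ⟨fun x hx => ⟨hx.1, hx.2.1⟩, fun x hx s t hs ht => xx_inv hx hs ht,
    fun x hx h1 h2 => xx_closed hx h1 h2, fun x hx => ?_⟩
  obtain ⟨⟨i, j⟩, ⟨h1, h2⟩, -⟩ := xx_cover hx
  change x.1 j ≠ 0 at h1
  change x.2 (ix i j) ≠ 0 at h2
  have h5 : x.1 j ^ N ≠ 0 := pow_ne_zero _ h1
  have hF := (x3_iff h1 hx.2.1).1 hx
  have e1 : ∀ᶠ y : V × Zc in 𝓝 x, y.1 j ≠ 0 := ContinuousAt.eventually_ne (by fun_prop) h1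
  have e2 : ∀ᶠ y : V × Zc in 𝓝 x, y.2 ≠ 0 := ContinuousAt.eventually_ne (by fun_prop) hx.2.1
  refine x3_fin (x3_an (N := N) h1) ?_ ((e1.and e2).mono fun y hy => x3_iff hy.1 hy.2)
  let q0 : ((ℂ × ℂ) × V × (ℂ × ℂ)) × (Fin 2 × Fin 2 → ℂ) := (x3r N j x, 0)
  have hs : x3s N j q0 = x := by
    have := x3_pr h1 (show (x3F N j x).1 = 0 by rw [hF]; rfl)
    simp only [x3s, q0, Pi.zero_apply, zero_smul, Finset.sum_const_zero, Prod.mk_zero_zero,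
      add_zero]
    refine Prod.ext rfl (funext fun m => ?_)
    fin_cases m
    exacts [(this 0 0).symm, (this 0 1).symm, (this 0 2).symm, (this 1 0).symm, (this 1 1).symm,
      (this 1 2).symm, rfl, rfl]
  have ds : DifferentiableAt ℂ (x3s N j) q0 := by
    refine (((an_pt N _).differentiableAt).comp q0 differentiableAt_fst).add ?_
    fun_prop
  have su := feq_surj hN (p := x3r N j x) (fun h => h2 (by
      have a0 : x.2 (ix 0 j) / x.1 j ^ N = 0 := congrArg Prod.fst h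
      have a1 : x.2 (ix 1 j) / x.1 j ^ N = 0 := congrArg Prod.snd h
      fin_cases i
      · exact (div_eq_zero_iff.1 a0).resolve_right h5
      · exact (div_eq_zero_iff.1 a1).resolve_right h5)) hx.1 (congrArg Prod.snd hF)
  have d1 : HasFDerivAt (fun q : ((ℂ × ℂ) × V × (ℂ × ℂ)) × (Fin 2 × Fin 2 → ℂ) =>
      (q.2, Feq N q.1)) _ q0 := hasFDerivAt_snd.prodMk
    (((an_Feq N q0.1).differentiableAt.hasFDerivAt).comp q0 hasFDerivAt_fst)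
  have e3 : ∀ᶠ q : ((ℂ × ℂ) × V × (ℂ × ℂ)) × (Fin 2 × Fin 2 → ℂ) in 𝓝 q0, q.1.2.1 j ≠ 0 :=
    ContinuousAt.eventually_ne (by fun_prop) h1
  have d2 := d1.congr_of_eventuallyEq (f₁ := x3F N j ∘ x3s N j) (e3.mono fun q hq => x3_Fs N j q hq)
  have d3 := HasFDerivAt.comp q0 (g := x3F N j) (by
    rw [hs]; exact (x3_an (N := N) h1).differentiableAt.hasFDerivAt) ds.hasFDerivAt
  have d4 := d3.unique d2
  rintro ⟨u, v⟩
  obtain ⟨d, rfl⟩ := su v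
  exact ⟨fderiv ℂ (x3s N j) q0 (d, u), congrArg (fun L => L (d, u)) d4⟩

end Vale.Agent.P296
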