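import Vale.Agent.P296.Comp2
import Vale.Agent.P296.NoG
import Vale.Agent.P296.GD
import Vale.Agent.P296.M5
import Vale.Agent.P296.X3
import Vale.Agent.P296.B1
import Vale.Agent.P296.B4

namespace Vale.Agent.P296

open Matrix Filter Topology MeasureTheory Metric Laplacian ComplexOrder

theorem final : ∃ (X : Set (V × Zc)) (O : Fin 2 × Fin 3 → Set (V × Zc))
    (T : Fin 2 × Fin 3 → Fin 2 × Fin 3 → V × Zc → M2), IsConnected X ∧ ProjMfd X ∧ Bundle X O T ∧
      Ample X O T ∧ ¬∃ h, HMetric X O T h ∧ Griffiths X O h := by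
  obtain ⟨N, hN, hG⟩ := ((eventually_gt_atTop 0).and noG).exists
  obtain ⟨Y, h⟩ := comp_red (xx_mfd hN) (bundle N) (ample hN)
    (fun ⟨h, h1, h2⟩ => hG _ (gi hN (hi h1 h2)))
  exact ⟨Y, OO, TT N, h⟩

end Vale.Agent.P296
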