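import Vale.Agent.P296.W3
import Vale.Agent.P296.Der

namespace Vale.Agent.P296

open Matrix Filter Topology MeasureTheory Metric Laplacian ComplexOrder

theorem w6_div {A F : ℂ → ℂ} {a c : ℂ} (hA : AnalyticAt ℂ A 0) (hF : AnalyticAt ℂ F 0)
    (h0 : A 0 ≠ 0) (h1 : deriv A 0 = a * A 0)
    (h2 : deriv (fun z => A z * F z) 0 = c * (A 0 * F 0)) : deriv F 0 = (c - a) * F 0 := by
  rw [deriv_fun_mul hA.differentiableAt hF.differentiableAt, h1] at h2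
  apply mul_left_cancel₀ h0
  linear_combination h2

theorem w6_zero {A F : ℂ → ℂ} {c : ℂ} (hA : AnalyticAt ℂ A 0) (hF : AnalyticAt ℂ F 0)
    (h0 : A 0 ≠ 0) (h1 : deriv A 0 = c * A 0)
    (h2 : deriv (fun z => A z * F z) 0 = c * (A 0 * F 0)) : deriv F 0 = 0 := by
  rw [w6_div hA hF h0 h1 h2, sub_self, zero_mul]

theorem w6_pow {G : ℂ → ℂ} (hG : AnalyticAt ℂ G 0) (h : deriv G 0 = 0) (n : ℕ) :
    deriv (fun z => G z ^ n) 0 = 0 * G 0 ^ n := by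
  rw [deriv_fun_pow hG.differentiableAt, h, mul_zero, zero_mul]

theorem w6_u {u : ℂ → Fin 2 → ℂ} (hu : AnalyticAt ℂ u 0) (h0 : u 0 ≠ 0) {κ : ℂ}
    (a : deriv (fun z => u z 0 * u z 0) 0 = κ * (u 0 0 * u 0 0))
    (b : deriv (fun z => u z 0 * u z 1) 0 = κ * (u 0 0 * u 0 1))
    (c : deriv (fun z => u z 1 * u z 1) 0 = κ * (u 0 1 * u 0 1)) : deriv u 0 = (κ / 2) • u 0 := by
  have d := hasDerivAt_pi.1 hu.differentiableAt.hasDerivAt
  rw [((d 0).fun_mul (d 0)).deriv] at a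
  rw [((d 0).fun_mul (d 1)).deriv] at b
  rw [((d 1).fun_mul (d 1)).deriv] at c
  have key : deriv u 0 0 = κ / 2 * u 0 0 ∧ deriv u 0 1 = κ / 2 * u 0 1 := by
    by_cases h : u 0 0 = 0
    · have h' : u 0 1 ≠ 0 := fun h' => h0 (funext (Fin.forall_fin_two.2 ⟨h, h'⟩))
      have e : deriv u 0 1 = κ / 2 * u 0 1 := mul_left_cancel₀ h' (by linear_combination c / 2)
      exact ⟨mul_left_cancel₀ h' (by linear_combination b - u 0 0 * e), e⟩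
    · have e : deriv u 0 0 = κ / 2 * u 0 0 := mul_left_cancel₀ h (by linear_combination a / 2)
      exact ⟨e, mul_left_cancel₀ h (by linear_combination b - u 0 1 * e)⟩
  exact funext (Fin.forall_fin_two.2 key)

theorem w6_gam {N : ℕ} {α : Ix} {γ : ℂ → V × Zc} (hγ : AnalyticAt ℂ γ 0)
    (h : ∀ᶠ z in 𝓝 0, γ z ∈ XX N ∩ OO α) (hr : HasDerivAt (fun z => rep α (γ z)) 0 0) :
    ∃ s t, deriv γ 0 = sc s t (γ 0) := by
  have hx := h.self_of_nhds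
  have hW : HasDerivAt (fun z => pt N (rep α (γ z))) 0 0 := by
    have a := HasFDerivAt.comp_hasDerivAt (f := fun z => rep α (γ z)) 0
      (an_pt N (rep α (γ 0))).differentiableAt.hasFDerivAt hr
    rwa [map_zero] at a
  have d := hγ.differentiableAt.hasDerivAt
  have d1 : HasDerivAt (fun z => (γ z).1 α.2) ((deriv γ 0).1 α.2) 0 := hasDerivAt_pi.1 d.fst α.2
  have d2 : HasDerivAt (fun z => (γ z).2 (ix α.1 α.2)) ((deriv γ 0).2 (ix α.1 α.2)) 0 :=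
    hasDerivAt_pi.1 d.snd _
  have d3 := (d1.fun_smul hW.fst).prodMk (d2.fun_smul hW.snd)
  have e : γ =ᶠ[𝓝 0] fun z => ((γ z).1 α.2 • (pt N (rep α (γ z))).1,
      (γ z).2 (ix α.1 α.2) • (pt N (rep α (γ z))).2) := h.mono fun z hz => (rep_eq hz).2.2.2
  refine ⟨(deriv γ 0).1 α.2 / (γ 0).1 α.2, (deriv γ 0).2 (ix α.1 α.2) / (γ 0).2 (ix α.1 α.2), ?_⟩
  have e0 := e.self_of_nhds
  have e1 : (γ 0).1 = (γ 0).1 α.2 • (pt N (rep α (γ 0))).1 := congrArg Prod.fst e0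
  have e2 : (γ 0).2 = (γ 0).2 (ix α.1 α.2) • (pt N (rep α (γ 0))).2 := congrArg Prod.snd e0
  refine (e.deriv_eq.trans d3.deriv).trans (Prod.ext ?_ ?_)
  · show _ = ((deriv γ 0).1 α.2 / (γ 0).1 α.2) • (γ 0).1
    refine Eq.trans ?_ (congrArg (fun w => ((deriv γ 0).1 α.2 / (γ 0).1 α.2) • w) e1.symm)
    simp only [Prod.fst_zero, smul_zero, zero_add, smul_smul, div_mul_cancel₀ _ hx.2.1]
  · show _ = ((deriv γ 0).2 (ix α.1 α.2) / (γ 0).2 (ix α.1 α.2)) • (γ 0).2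
    refine Eq.trans ?_ (congrArg
      (fun w => ((deriv γ 0).2 (ix α.1 α.2) / (γ 0).2 (ix α.1 α.2)) • w) e2.symm)
    simp only [Prod.snd_zero, smul_zero, zero_add, smul_smul, div_mul_cancel₀ _ hx.2.2]

theorem imm {N : ℕ} {α : Ix} {γ : ℂ → V × Zc} {u : ℂ → Fin 2 → ℂ} (hγ : AnalyticAt ℂ γ 0)
    (hu : AnalyticAt ℂ u 0) (h : ∀ᶠ z in 𝓝 0, γ z ∈ XX N ∩ OO α) (h0 : u 0 ≠ 0) {c : ℂ}
    (e : ∀ j, deriv (fun z => sec2 N j α (γ z) (u z)) 0 = c * sec2 N j α (γ 0) (u 0)) :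
    (∃ s t, deriv γ 0 = sc s t (γ 0)) ∧ ∃ c : ℂ, deriv u 0 = c • u 0 := by
  have hx := h.self_of_nhds
  obtain ⟨k, hk⟩ := Function.ne_iff.1 (qc_ne hx h0)
  obtain ⟨r, hr⟩ := gg_ne hx
  obtain ⟨r1, r2, r3, r4⟩ := rep_an hx.2
  have E : ∀ j (F : ℂ → ℂ), (∀ x ∈ XX N ∩ OO α, ∀ z, γ z = x → et α x α.1 = 1 → mu α x α.2 = 1 →
      sec2 N j α x (u z) = F z) → deriv F 0 = c * F 0 := fun j F hF => by
    have a : (fun z => sec2 N j α (γ z) (u z)) =ᶠ[𝓝 0] F :=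
      h.mono fun z hz => hF _ hz z rfl (rep_eq hz).2.1 (rep_eq hz).2.2.1
    rw [← a.deriv_eq, ← a.self_of_nhds]
    exact e j
  have aQ : AnalyticAt ℂ (fun z => qc N α (γ z) (u z) k) 0 :=
    AnalyticAt.comp (f := fun z => (γ z, u z)) (an_qc N α k (p := (γ 0, u 0)) hx.2) (hγ.prod hu)
  have aG : AnalyticAt ℂ (fun z => gg N (r.val : ℂ) α (γ z)) 0 :=
    AnalyticAt.comp (f := γ) (gg_an N _ hx.2) hγ
  have aE : ∀ i, AnalyticAt ℂ (fun z => et α (γ z) i) 0 := fun i =>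
    AnalyticAt.comp (f := γ) (r1 i) hγ
  have aM : ∀ l, AnalyticAt ℂ (fun z => mu α (γ z) l) 0 := fun l =>
    AnalyticAt.comp (f := γ) (r2 l) hγ
  have aB1 : AnalyticAt ℂ (fun z => (bc α (γ z)).1) 0 := AnalyticAt.comp (f := γ) r3 hγ
  have aB2 : AnalyticAt ℂ (fun z => (bc α (γ z)).2) 0 := AnalyticAt.comp (f := γ) r4 hγ
  have aU : ∀ i, AnalyticAt ℂ (fun z => u z i) 0 := fun i => analyticAt_pi_iff.1 hu i
  have aP : AnalyticAt ℂ (fun z => qc N α (γ z) (u z) k ^ (8 * N + 1)) 0 := aQ.fun_pow _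
  have aR : AnalyticAt ℂ (fun z => qc N α (γ z) (u z) k ^ (8 * N)) 0 := aQ.fun_pow _
  have P0 : qc N α (γ 0) (u 0) k ^ (8 * N + 1) ≠ 0 := pow_ne_zero _ hk
  have R0 : qc N α (γ 0) (u 0) k ^ (8 * N) ≠ 0 := pow_ne_zero _ hk
  have hP := E (k, α.2, r, α.1, k, α.2, 0) (fun z => qc N α (γ z) (u z) k ^ (8 * N + 1))
    (by rintro _ - z rfl a b; simp [sec2, b]; ring)
  have dM : ∀ l, deriv (fun z => mu α (γ z) l) 0 = 0 := fun l =>
    w6_zero aP (aM l) P0 hP (E (k, α.2, r, α.1, k, l, 0) _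
      (by rintro _ - z rfl a b; simp [sec2, b]; ring))
  have dGE : ∀ i, deriv (fun z => gg N (r.val : ℂ) α (γ z) * et α (γ z) i) 0 = 0 :=
    Fin.forall_fin_two.2 ⟨w6_zero aP (aG.fun_mul (aE 0)) P0 hP (E (k, α.2, r, α.1, k, α.2, 1) _
      (by rintro _ - z rfl a b; simp [sec2, b]; ring)),
      w6_zero aP (aG.fun_mul (aE 1)) P0 hP (E (k, α.2, r, α.1, k, α.2, 2) _
      (by rintro _ - z rfl a b; simp [sec2, b]; ring))⟩
  have dG : deriv (fun z => gg N (r.val : ℂ) α (γ z)) 0 = 0 := by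
    have a : (fun z => gg N (r.val : ℂ) α (γ z)) =ᶠ[𝓝 0]
        fun z => gg N (r.val : ℂ) α (γ z) * et α (γ z) α.1 :=
      h.mono fun z hz => by simp only [(rep_eq hz).2.1, mul_one]
    rw [a.deriv_eq, dGE]
  have Z : ∀ F : ℂ → ℂ, AnalyticAt ℂ F 0 →
      deriv (fun z => gg N (r.val : ℂ) α (γ z) * F z) 0 = 0 → deriv F 0 = 0 := fun F hF a =>
    w6_zero (c := 0) aG hF hr (by rw [dG, zero_mul]) (by rw [a, zero_mul])
  have dE : ∀ i, deriv (fun z => et α (γ z) i) 0 = 0 := fun i => Z _ (aE i) (dGE i)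
  have dB1 := Z _ aB1 (w6_zero aP (aG.fun_mul aB1) P0 hP (E (k, α.2, r, α.1, k, α.2, 3) _
    (by rintro _ - z rfl a b; simp [sec2, b]; ring)))
  have dB2 := Z _ aB2 (w6_zero aP (aG.fun_mul aB2) P0 hP (E (k, α.2, r, α.1, k, α.2, 4) _
    (by rintro _ - z rfl a b; simp [sec2, b]; ring)))
  constructor
  · refine w6_gam hγ h ?_
    have D : ∀ F : ℂ → ℂ, AnalyticAt ℂ F 0 → deriv F 0 = 0 → HasDerivAt F 0 0 := fun F a b => by
      have := a.differentiableAt.hasDerivAt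
      rwa [b] at this
    exact ((D _ (aE 0) (dE 0)).prodMk (D _ (aE 1) (dE 1))).prodMk
      ((hasDerivAt_pi.2 fun l => D _ (aM l) (dM l)).prodMk ((D _ aB1 dB1).prodMk (D _ aB2 dB2)))
  · obtain ⟨ρ, hρ⟩ : ∃ ρ, deriv (fun z => qc N α (γ z) (u z) k ^ (8 * N)) 0 =
        ρ * qc N α (γ 0) (u 0) k ^ (8 * N) := ⟨_, (div_mul_cancel₀ _ R0).symm⟩
    have T : ∀ (n : ℕ) (F : ℂ → ℂ), AnalyticAt ℂ F 0 →
        deriv (fun z => qc N α (γ z) (u z) k ^ (8 * N) * (gg N (r.val : ℂ) α (γ z) ^ n * F z)) 0 =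
          c * (qc N α (γ 0) (u 0) k ^ (8 * N) * (gg N (r.val : ℂ) α (γ 0) ^ n * F 0)) →
        deriv F 0 = (c - ρ - 0) * F 0 := fun n F hF a =>
      w6_div (aG.fun_pow n) hF (pow_ne_zero _ hr) (w6_pow aG dG n)
        (w6_div aR ((aG.fun_pow n).fun_mul hF) R0 hρ a)
    exact ⟨_, w6_u hu h0
      (T 4 _ ((aU 0).fun_mul (aU 0)) (E (k, α.2, r, α.1, k, α.2, 5) _
        (by rintro _ - z rfl a b; simp [sec2, uu, a, b]; left; ring)))
      (T 3 _ ((aU 0).fun_mul (aU 1)) (E (k, α.2, r, α.1, k, α.2, 6) _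
        (by rintro _ - z rfl a b; simp [sec2, uu, a, b]; left; ring)))
      (T 2 _ ((aU 1).fun_mul (aU 1)) (E (k, α.2, r, α.1, k, α.2, 7) _
        (by rintro _ - z rfl a b; simp [sec2, uu, a, b]; left; ring)))⟩

end Vale.Agent.P296
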