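import Vale.Agent.P296.W5
import Vale.Agent.P296.W6

namespace Vale.Agent.P296

open Matrix Filter Topology MeasureTheory Metric Laplacian ComplexOrder

theorem ampleV (N : ℕ) : AmpleV (XX N) OO (TT N) := by
  let e := (Fintype.equivFin Jx).symm
  refine ⟨16 * N + 2, _, fun k => sec2 N (e k), by omega, fun k => sect2 N _, ?_, ?_, ?_⟩
  · intro α x hx v hv
    obtain ⟨j, hj⟩ := sec2_ne hx hv
    exact ⟨e.symm j, by simpa using hj⟩
  · rintro α β x hx x' hx' v v' hv hv' ⟨c, hc⟩
    exact inj_gen hx hx' hv hv' (c := c) fun j => by simpa using hc (e.symm j)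
  · rintro α γ u hγ hu h h0 ⟨c, hc⟩
    exact imm hγ hu h h0 (c := c) fun j => by simpa using hc (e.symm j)

end Vale.Agent.P296
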