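import Vale.Agent.P296.Chg
import Vale.Agent.P296.C2
import Vale.Agent.P296.C3

namespace Vale.Agent.P296

open Matrix Filter Topology MeasureTheory Metric Laplacian ComplexOrder

theorem GA_det {l : V} (hl : gd l ≠ 0) : (Dm l).det ≠ 0 := fun h => hl (by simp [gd, h])

theorem GA_det' {l A B C : V} {κ : ℂ} (hl : gd l ≠ 0) (h : Dm l = κ • Gram A B C) :
    det (of ![A, B, C]) ≠ 0 := fun h0 =>
  GA_det hl (by rw [h, det_smul, det_gram, h0]; simp)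

theorem vec_eq {N : ℕ} (hN : 0 < N) {H : P6 → (Fin 2 → ℂ) → ℝ} (hH : HI N H) {l : V}
    (hl : gd l ≠ 0) {x : P6} (h : x ∈ fib N l) (v : Fin 2 → ℂ) :
    H x (vec N x (q0 N x v)) = H x v := by
  obtain ⟨hx, -, hD⟩ := fib_Z0 hN hl h
  have e : q0 N x (vec N x (q0 N x v)) = q0 N x v :=
    Classical.epsilon_spec (p := fun w => q0 N x w = q0 N x v) ⟨v, rfl⟩
  rcases qv_inj (GA_det' (κ := 1) hl (by rw [one_smul]; exact hD)) e with h1 | h1
  · rw [h1]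
  · rw [h1, ← neg_one_smul ℂ v, (hH.herm x hx).smul]
    simp

theorem GA_chg {N : ℕ} (hN : 0 < N) {l A B C : V} {κ : ℂ} (hl : gd l ≠ 0)
    (h : Dm l = κ • Gram A B C) {x : P6} (hx : x ∈ fib N l) :
    ∃ g : M2, ∀ v, qv A B C v = q0 N x (g *ᵥ v) := by
  obtain ⟨-, -, hD⟩ := fib_Z0 hN hl hx
  exact chg (κ := κ) (hD ▸ GA_det hl) (hD.symm.trans h)

theorem on_cone {N : ℕ} (hN : 0 < N) {y : ℂ × ℂ} {s t : ℂ} (ht : t ≠ 0) (hy : (Ry y).det ≠ 0)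
    (hl : gd (Lam y s) ≠ 0) {x : P6} (h : x ∈ fib N (t • Lam y s)) : ∃ v, q0 N x v = Yp y := by
  have hl' : gd (t • Lam y s) ≠ 0 := by
    rw [gd_smul]
    exact mul_ne_zero (pow_ne_zero _ ht) hl
  have hR : Ry y *ᵥ (t • Lam y s) = (t * (Ry y).det) • ![1, s, s ^ 2] := by
    rw [mulVec_smul, Ry_Lam, smul_smul]
  obtain ⟨g, hg⟩ := GA_chg hN hl' (gramY (mul_ne_zero ht hy) hR) h
  refine ⟨g *ᵥ ![1, 0], ?_⟩
  rw [← hg]
  funext k
  simp [qv]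

theorem gg_herm {N : ℕ} (hN : 0 < N) {H : P6 → (Fin 2 → ℂ) → ℝ} (hH : HI N H) (l A B C : V)
    (κ : ℂ) (hl : gd l ≠ 0) (h : Dm l = κ • Gram A B C) :
    Herm (fun v => GG N H l (qv A B C v)) ∧ ∀ v, v ≠ 0 → 0 < GG N H l (qv A B C v) := by
  obtain ⟨c, hc⟩ := fib_card hN
  obtain ⟨hf, -, hne⟩ := hc l hl
  have hg : ∀ x : P6, ∃ g : M2, x ∈ fib N l → ∀ v, qv A B C v = q0 N x (g *ᵥ v) := fun x => by
    by_cases hx : x ∈ fib N l
    · obtain ⟨g, hg⟩ := GA_chg hN hl h hx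
      exact ⟨g, fun _ => hg⟩
    · exact ⟨0, fun h => absurd h hx⟩
  choose g hg using hg
  have e : ∀ v, GG N H l (qv A B C v) = ∑ x ∈ hf.toFinset, H x (g x *ᵥ v) := fun v => by
    rw [GG, finsum_mem_eq_finite_toFinset_sum _ hf]
    refine Finset.sum_congr rfl fun x hx => ?_
    have hx' := hf.mem_toFinset.1 hx
    rw [hg x hx', vec_eq hN hH hl hx']
  simp only [e]
  refine ⟨Herm.sum _ fun x hx =>
    (hH.herm x (fib_Z0 hN hl (hf.mem_toFinset.1 hx)).1).mulVec (g x), fun v hv => ?_⟩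
  refine Finset.sum_pos (fun x hx => ?_) (hf.toFinset_nonempty.2 hne)
  have hx' := hf.mem_toFinset.1 hx
  refine hH.pos x (fib_Z0 hN hl hx').1 _ fun h0 => hv ?_
  have h1 : qv A B C v = qv A B C 0 := by
    rw [hg x hx' v, hg x hx' 0, h0, mulVec_zero]
  rcases qv_inj (GA_det' hl h) h1 with h2 | h2
  · exact h2
  · simpa using h2

end Vale.Agent.P296
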