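import Vale.Agent.P296.Defs

namespace Vale.Agent.P296

open Matrix Filter Topology MeasureTheory Metric Laplacian ComplexOrder

theorem K1_harm {p : ℂ → ℂ} (hp : Differentiable ℂ p) (s : Set ℂ) :
    InnerProductSpace.HarmonicOnNhd (fun w => (p w).re) s :=
  fun z _ => (hp.analyticAt z).harmonicAt_re

theorem re_mean {p : ℂ → ℂ} (hp : Differentiable ℂ p) :
    Real.circleAverage (fun w => (p w).re) 0 1 = (p 0).re :=
  InnerProductSpace.HarmonicOnNhd.circleAverage_eq (K1_harm hp _)

theorem harnack {p : ℂ → ℂ} (hp : Differentiable ℂ p) (h : ∀ w : ℂ, ‖w‖ = 1 → 0 ≤ (p w).re)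
    {w : ℂ} (hw : ‖w‖ ≤ 1 / 2) : (p 0).re ≤ 3 * (p w).re := by
  have hwb : w ∈ ball (0 : ℂ) 1 := by
    rw [mem_ball_zero_iff]; linarith
  have h1 := (K1_harm hp (closedBall 0 1)).circleAverage_poissonKernel_smul hwb
  have hc : Continuous fun z => (p z).re := Complex.continuous_re.comp hp.continuous
  have hk : ContinuousOn (poissonKernel 0 w) (sphere (0 : ℂ) 1) := by
    have : poissonKernel 0 w = fun z => (‖z - 0‖ ^ 2 - ‖w - 0‖ ^ 2) / ‖(z - 0) - (w - 0)‖ ^ 2 := rfl
    rw [this]
    refine ContinuousOn.div (by fun_prop) (by fun_prop) fun z hz => ?_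
    rw [mem_sphere_zero_iff_norm] at hz
    refine pow_ne_zero _ (norm_ne_zero_iff.2 ?_)
    intro h0
    have : z = w := by simpa [sub_eq_zero] using h0
    rw [this] at hz
    linarith
  have h2 : Real.circleAverage ((1 / 3 : ℝ) • fun z => (p z).re) 0 1 ≤
      Real.circleAverage (poissonKernel 0 w • fun z => (p z).re) 0 1 := by
    refine Real.circleAverage_mono
      (ContinuousOn.circleIntegrable zero_le_one (hc.continuousOn.const_smul (1 / 3 : ℝ)))
      (ContinuousOn.circleIntegrable zero_le_one (hk.smul hc.continuousOn)) fun z hz => ?_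
    rw [abs_one] at hz
    have h3 := le_re_herglotzRieszKernel hz hwb
    have h4 : 1 / 3 ≤ poissonKernel 0 w z := by
      rw [poissonKernel_eq_re_herglotzRieszKernel]
      refine le_trans ?_ h3
      rw [sub_zero, le_div_iff₀ (by positivity)]
      linarith
    rw [mem_sphere_zero_iff_norm] at hz
    exact mul_le_mul_of_nonneg_right h4 (h z hz)
  rw [h1, Real.circleAverage_smul, re_mean hp, smul_eq_mul] at h2
  linarith

end Vale.Agent.P296
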