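import Vale.Agent.P296.Defs

namespace Vale.Agent.P296

open Matrix Filter Topology MeasureTheory Metric Laplacian ComplexOrder

theorem K2_span {q : C(AddCircle (1 : ℝ), ℂ)}
    (hq : q ∈ Submodule.span ℂ (Set.range (@fourier (1 : ℝ)))) :
    ∃ p₁ p₂ : ℂ → ℂ, Differentiable ℂ p₁ ∧ Differentiable ℂ p₂ ∧
      ∀ x, q x = p₁ (AddCircle.toCircle x : Circle) +
        (starRingEnd ℂ) (p₂ (AddCircle.toCircle x : Circle)) := by
  induction hq using Submodule.span_induction with
  | mem q hq =>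
    obtain ⟨n, rfl⟩ := hq
    have key : ∀ (m : ℕ) (x : AddCircle (1 : ℝ)),
        fourier (m : ℤ) x = ((AddCircle.toCircle x : Circle) : ℂ) ^ m := by
      intro m x
      induction m with
      | zero => simp
      | succ m ih =>
        rw [Nat.cast_succ, fourier_add, ih, fourier_one, pow_succ]
    obtain ⟨m, rfl | rfl⟩ := Int.eq_nat_or_neg n
    · exact ⟨fun z => z ^ m, fun _ => 0, by fun_prop, by fun_prop, fun x => by
        rw [key]; simp⟩
    · exact ⟨fun _ => 0, fun z => z ^ m, by fun_prop, by fun_prop, fun x => by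
        rw [fourier_neg, key]; simp⟩
  | zero => exact ⟨fun _ => 0, fun _ => 0, by fun_prop, by fun_prop, fun x => by simp⟩
  | add a b _ _ ha hb =>
    obtain ⟨a₁, a₂, h₁, h₂, h⟩ := ha
    obtain ⟨b₁, b₂, k₁, k₂, k⟩ := hb
    refine ⟨fun z => a₁ z + b₁ z, fun z => a₂ z + b₂ z, h₁.add k₁, h₂.add k₂, fun x => ?_⟩
    rw [ContinuousMap.add_apply, h, k, map_add]; ring
  | smul c a _ ha =>
    obtain ⟨a₁, a₂, h₁, h₂, h⟩ := ha
    refine ⟨fun z => c * a₁ z, fun z => (starRingEnd ℂ) c * a₂ z, h₁.const_mul _,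
      h₂.const_mul _, fun x => ?_⟩
    rw [ContinuousMap.smul_apply, h, map_mul, Complex.conj_conj, smul_eq_mul]; ring

theorem approx {f : ℂ → ℝ} (hf : ContinuousOn f (sphere 0 1)) {η : ℝ} (hη : 0 < η) :
    ∃ p : ℂ → ℂ, Differentiable ℂ p ∧ ∀ w ∈ sphere (0 : ℂ) 1, |f w - (p w).re| ≤ η := by
  have : Fact ((0 : ℝ) < 1) := ⟨one_pos⟩
  have hc : Continuous fun x : AddCircle (1 : ℝ) => f ((AddCircle.toCircle x : Circle) : ℂ) := by
    refine hf.comp_continuous
      (continuous_induced_dom.comp AddCircle.continuous_toCircle) fun x => ?_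
    exact mem_sphere_zero_iff_norm.2 (Circle.norm_coe _)
  let F : C(AddCircle (1 : ℝ), ℂ) := ⟨fun x => (f ((AddCircle.toCircle x : Circle) : ℂ) : ℂ),
    Complex.continuous_ofReal.comp hc⟩
  have hF : F ∈ closure ((Submodule.span ℂ (Set.range (@fourier (1 : ℝ))) :
      Submodule ℂ C(AddCircle (1 : ℝ), ℂ)) : Set C(AddCircle (1 : ℝ), ℂ)) := by
    rw [← Submodule.topologicalClosure_coe, span_fourier_closure_eq_top]; trivial
  obtain ⟨q, hq, hd⟩ := Metric.mem_closure_iff.1 hF η hη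
  obtain ⟨p₁, p₂, h₁, h₂, h⟩ := K2_span hq
  refine ⟨fun z => p₁ z + p₂ z, h₁.add h₂, fun w hw => ?_⟩
  have hw1 : ‖w‖ = 1 := by simpa using hw
  obtain ⟨x, hx⟩ : ∃ x : AddCircle (1 : ℝ), ((AddCircle.toCircle x : Circle) : ℂ) = w := by
    refine ⟨((Complex.arg w / (2 * Real.pi) : ℝ) : AddCircle (1 : ℝ)), ?_⟩
    rw [AddCircle.toCircle_apply_mk, Circle.coe_exp]
    have : 2 * Real.pi / 1 * (Complex.arg w / (2 * Real.pi)) = Complex.arg w := by
      field_simp
    rw [this]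
    have := Complex.norm_mul_exp_arg_mul_I w
    rwa [hw1, Complex.ofReal_one, one_mul] at this
  have h1 : dist (F x) (q x) ≤ dist F q := ContinuousMap.dist_apply_le_dist x
  have h2 : (F x - q x).re = f w - (p₁ w + p₂ w).re := by
    rw [h x, hx]
    simp only [F, ContinuousMap.coe_mk, hx, Complex.sub_re, Complex.ofReal_re, Complex.add_re,
      Complex.conj_re]
  rw [← h2]
  refine (Complex.abs_re_le_norm _).trans ?_
  rw [← dist_eq_norm]
  exact h1.trans hd.le

end Vale.Agent.P296
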