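import Vale.Agent.P296.Defs

namespace Vale.Agent.P296

open Matrix Filter Topology MeasureTheory Metric Laplacian ComplexOrder

theorem K3_step {F : ℂ → ℝ} {S : Set ℂ} (h : DI F S) {p Q : ℂ → ℂ} (hp : Differentiable ℂ p)
    (hQ : Differentiable ℂ Q) (hQS : ∀ z, Q z = 0 ↔ z ∈ S)
    (hb : ∀ w ∈ sphere (0 : ℂ) 1, Real.log (F w) ≤ (p w).re) {B η : ℝ} (hη : 0 < η)
    (hB : ∀ z ∈ closedBall (0 : ℂ) 1, ‖Q z‖ ≤ B) :
    ∀ w ∈ closedBall (0 : ℂ) 1 \ S, F w * (Real.exp (-(p w).re) * ‖Q w‖ ^ η) ≤ B ^ η := by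
  set v : ℂ → ℝ := fun z => Real.exp (-(p z).re) * ‖Q z‖ ^ η with hv
  have vc : Continuous v :=
    (Real.continuous_exp.comp (Complex.continuous_re.comp hp.continuous).neg).mul
      (hQ.continuous.norm.rpow_const fun _ => Or.inr hη.le)
  have v0 : ∀ z ∈ S, v z = 0 := fun z hz => by
    simp only [hv, (hQS z).2 hz, norm_zero, Real.zero_rpow hη.ne', mul_zero]
  have v1 : ∀ z, 0 ≤ v z := fun z => by positivity
  have v2 : ∀ z ∉ S, 0 < v z := fun z hz => by
    have : 0 < ‖Q z‖ := norm_pos_iff.2 fun h0 => hz ((hQS z).1 h0)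
    positivity
  have hS : ∀ z ∉ S, Sᶜ ∈ 𝓝 z := fun z hz => h.fin.isClosed.isOpen_compl.mem_nhds hz
  obtain ⟨K, hK⟩ := h.bd
  have uc : ContinuousOn (fun z => F z * v z) (closedBall (0 : ℂ) 1) := by
    intro z hz
    by_cases hzS : z ∈ S
    · unfold ContinuousWithinAt
      beta_reduce
      rw [v0 z hzS, mul_zero]
      refine squeeze_zero_norm' (a := fun s => |K| * v s) ?_ ?_
      · filter_upwards [self_mem_nhdsWithin] with s hs
        by_cases hsS : s ∈ S
        · simp [v0 s hsS]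
        · rw [Real.norm_eq_abs, abs_of_nonneg (mul_nonneg (h.pos s ⟨hs, hsS⟩).le (v1 s))]
          exact mul_le_mul_of_nonneg_right ((hK s ⟨hs, hsS⟩).trans (le_abs_self K)) (v1 s)
      · have := (vc.tendsto z).const_mul |K|
        rw [v0 z hzS, mul_zero] at this
        exact this.mono_left nhdsWithin_le_nhds
    · refine ContinuousWithinAt.mul ?_ vc.continuousWithinAt
      exact (continuousWithinAt_inter (hS z hzS)).1 (h.cont z ⟨hz, hzS⟩)
  obtain ⟨z, hz, hm⟩ := (isCompact_closedBall (0 : ℂ) 1).exists_isMaxOn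
    ⟨0, mem_closedBall_self zero_le_one⟩ uc
  intro w hw
  have w1 : F w * v w ≤ F z * v z := hm hw.1
  have hzS : z ∉ S := fun hzS => by
    have := mul_pos (h.pos w hw) (v2 w hw.2)
    rw [v0 z hzS, mul_zero] at w1
    linarith
  refine w1.trans ?_
  have Fz := h.pos z ⟨hz, hzS⟩
  have Qz : Q z ≠ 0 := fun h0 => hzS ((hQS z).1 h0)
  rcases (mem_closedBall.1 hz).eq_or_lt with h1 | h1
  · have a1 : F z ≤ Real.exp (p z).re := (Real.log_le_iff_le_exp Fz).1 (hb z (mem_sphere.2 h1))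
    have a2 : F z * Real.exp (-(p z).re) ≤ 1 := by
      rw [Real.exp_neg, ← div_eq_mul_inv, div_le_one (Real.exp_pos _)]
      exact a1
    have a3 : ‖Q z‖ ^ η ≤ B ^ η := Real.rpow_le_rpow (norm_nonneg _) (hB z hz) hη.le
    simp only [hv]
    rw [← mul_assoc]
    exact (mul_le_of_le_one_left (by positivity) a2).trans a3
  · exfalso
    have hz' : z ∈ ball (0 : ℂ) 1 := mem_ball.2 h1
    have an : AnalyticAt ℂ (fun s => -p s + η * Complex.log (Q s / Q z)) z := by
      refine (hp.analyticAt z).neg.add (analyticAt_const.mul (AnalyticAt.clog ?_ ?_))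
      · exact (hQ.analyticAt z).div_const
      · rw [div_self Qz]
        exact Complex.one_mem_slitPlane
    refine h.nm z ⟨hz', hzS⟩ _ an ?_
    have key : ∀ s ∉ S, F s * Real.exp (-p s + η * Complex.log (Q s / Q z)).re =
        F s * v s / ‖Q z‖ ^ η := fun s hs => by
      have Qs : 0 < ‖Q s‖ := norm_pos_iff.2 fun h0 => hs ((hQS s).1 h0)
      have Qz' : 0 < ‖Q z‖ := norm_pos_iff.2 Qz
      rw [Complex.add_re, Complex.neg_re, Complex.re_ofReal_mul, Complex.log_re, Real.exp_add,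
        norm_div, mul_comm η, ← Real.rpow_def_of_pos (div_pos Qs Qz'),
        Real.div_rpow Qs.le Qz'.le]
      simp only [hv]
      ring
    filter_upwards [hS z hzS, mem_of_superset (isOpen_ball.mem_nhds hz') ball_subset_closedBall]
      with s hs hs'
    rw [key s hs, key z hzS]
    exact div_le_div_of_nonneg_right (hm hs') (by positivity)

theorem maxp {F : ℂ → ℝ} {S : Set ℂ} (h : DI F S) {p : ℂ → ℂ} (hp : Differentiable ℂ p)
    (hb : ∀ w ∈ sphere (0 : ℂ) 1, Real.log (F w) ≤ (p w).re) :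
    ∀ w ∈ closedBall (0 : ℂ) 1 \ S, Real.log (F w) ≤ (p w).re := by
  set Q : ℂ → ℂ := fun z => ∏ a ∈ h.fin.toFinset, (z - a) with hQd
  have hQ : Differentiable ℂ Q := by
    simp only [hQd]
    fun_prop
  have hQS : ∀ z, Q z = 0 ↔ z ∈ S := fun z => by
    simp only [hQd, Finset.prod_eq_zero_iff, sub_eq_zero, Set.Finite.mem_toFinset]
    exact ⟨fun ⟨a, h1, h2⟩ => h2 ▸ h1, fun h1 => ⟨z, h1, rfl⟩⟩
  obtain ⟨B, hB⟩ := (isCompact_closedBall (0 : ℂ) 1).exists_bound_of_continuousOn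
    hQ.continuous.continuousOn
  intro w hw
  have Qw : 0 < ‖Q w‖ := norm_pos_iff.2 fun h0 => hw.2 ((hQS w).1 h0)
  have B0 : 0 < B := Qw.trans_le (hB w hw.1)
  have Fw := h.pos w hw
  refine le_of_forall_pos_le_add fun ε hε => ?_
  set c := Real.log B - Real.log ‖Q w‖ with hc
  have hη : 0 < ε / (|c| + 1) := by positivity
  have k := Real.log_le_log (by positivity) (K3_step h hp hQ hQS hb hη hB w hw)
  rw [Real.log_mul Fw.ne' (by positivity), Real.log_mul (by positivity) (by positivity),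
    Real.log_exp, Real.log_rpow Qw, Real.log_rpow B0] at k
  have k2 : ε / (|c| + 1) * c ≤ ε := by
    rw [div_mul_eq_mul_div, div_le_iff₀ (by positivity)]
    have := le_abs_self c
    nlinarith
  have k3 : ε / (|c| + 1) * c =
      ε / (|c| + 1) * Real.log B - ε / (|c| + 1) * Real.log ‖Q w‖ := by rw [← mul_sub]
  linarith

end Vale.Agent.P296
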