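import Vale.Agent.P296.K1
import Vale.Agent.P296.K2
import Vale.Agent.P296.K3

namespace Vale.Agent.P296

open Matrix Filter Topology MeasureTheory Metric Laplacian ComplexOrder

theorem key_disc {F : ℂ → ℝ} {S : Set ℂ} (h : DI F S) {M : ℝ}
    (hM : ∀ w ∈ sphere (0 : ℂ) 1, F w ≤ M) {w : ℂ} (hw : ‖w‖ ≤ 1 / 2) (hS : w ∉ S) :
    Real.circleAverage (fun z => Real.log M - Real.log (F z)) 0 1 ≤
      3 * (Real.log M - Real.log (F w)) := by
  have sub : ∀ z ∈ sphere (0 : ℂ) 1, z ∈ closedBall (0 : ℂ) 1 \ S := fun z hz =>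
    ⟨sphere_subset_closedBall hz, fun h1 => Set.disjoint_left.1 h.dis h1 hz⟩
  have lc : ContinuousOn (fun z => Real.log (F z)) (sphere (0 : ℂ) 1) :=
    (h.cont.mono sub).log fun z hz => (h.pos z (sub z hz)).ne'
  refine le_of_forall_pos_le_add fun ε hε => ?_
  obtain ⟨p, hp, ha⟩ := approx lc (show 0 < ε / 6 by positivity)
  set f : ℂ → ℂ := fun z => ((Real.log M + ε / 6 : ℝ) : ℂ) - p z with hf
  have fd : Differentiable ℂ f := (differentiable_const _).sub hp
  have fre : ∀ z, (f z).re = Real.log M + ε / 6 - (p z).re := fun z => by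
    simp only [hf, Complex.sub_re, Complex.ofReal_re]
  have a1 : Real.circleAverage (fun z => Real.log M - Real.log (F z)) 0 1 ≤
      Real.circleAverage (fun z => (f z).re) 0 1 := by
    refine Real.circleAverage_mono ((continuousOn_const.sub lc).circleIntegrable zero_le_one)
      ((Complex.continuous_re.comp fd.continuous).continuousOn.circleIntegrable zero_le_one)
      fun z hz => ?_
    rw [abs_one] at hz
    have := abs_le.1 (ha z hz)
    rw [fre]
    linarith [this.1]
  have a2 : (f 0).re ≤ 3 * (f w).re := harnack fd (fun z hz => by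
    have hz' : z ∈ sphere (0 : ℂ) 1 := mem_sphere_zero_iff_norm.2 hz
    have := abs_le.1 (ha z hz')
    have a3 := Real.log_le_log (h.pos z (sub z hz')) (hM z hz')
    rw [fre]
    linarith [this.1]) hw
  have a4 := maxp h (p := fun z => p z + ((ε / 6 : ℝ) : ℂ)) (hp.add (differentiable_const _))
    (fun z hz => by
      have := abs_le.1 (ha z hz)
      rw [Complex.add_re, Complex.ofReal_re]
      linarith [this.2]) w ⟨mem_closedBall_zero_iff.2 (by linarith), hS⟩
  rw [Complex.add_re, Complex.ofReal_re] at a4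
  rw [re_mean fd] at a1
  rw [fre w] at a2
  linarith

theorem inner_max {G : ℂ → ℝ} {S : Set ℂ} {ε : ℝ} (h : SI G S ε) {c : ℂ} {R M : ℝ} (hR : 0 < R)
    (hS : Disjoint S (closedBall c R)) (hM : ∀ z ∈ sphere c R, G z ≤ M) :
    ∀ z ∈ closedBall c R, G z ≤ M := by
  have sub : ∀ z ∈ closedBall c R, z ∉ S := fun z hz h1 => Set.disjoint_left.1 hS h1 hz
  obtain ⟨z, hz, hm⟩ := (isCompact_closedBall c R).exists_isMaxOn
    ⟨c, mem_closedBall_self hR.le⟩ (h.cont.mono sub)
  intro w hw
  refine le_trans (hm hw) ?_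
  rcases (mem_closedBall.1 hz).eq_or_lt with h1 | h1
  · exact hM z (mem_sphere.2 h1)
  · exfalso
    refine h.nm z (sub z hz) (fun _ => 0) analyticAt_const ?_
    filter_upwards [mem_of_superset (isOpen_ball.mem_nhds (mem_ball.2 h1)) ball_subset_closedBall]
      with s hs
    simpa using hm hs

end Vale.Agent.P296
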