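import Vale.Agent.P296.K4

namespace Vale.Agent.P296

open Matrix Filter Topology MeasureTheory Metric Laplacian ComplexOrder

theorem K5_nm {G : ℂ → ℝ} {ε : ℝ} {c : ℂ} {r : ℝ} (hr : 0 < r) {w : ℂ} (hw : w ≠ 0)
    (h : NoMaxAt G (c + r / w)) : NoMaxAt (fun w => G (c + r / w) * ‖w‖ ^ ε) w := by
  intro p hp hmax
  have hr' : (r : ℂ) ≠ 0 := by exact_mod_cast hr.ne'
  have h0 : c + r / w - c ≠ 0 := by rw [add_sub_cancel_left]; exact div_ne_zero hr' hw
  have hφ : AnalyticAt ℂ (fun z : ℂ => (r : ℂ) / (z - c)) (c + r / w) :=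
    analyticAt_const.div (analyticAt_id.sub analyticAt_const) h0
  have e0 : (r : ℂ) / (c + r / w - c) = w := by rw [add_sub_cancel_left]; field_simp
  have hp' : AnalyticAt ℂ (fun z : ℂ => p ((r : ℂ) / (z - c))) (c + r / w) :=
    AnalyticAt.comp_of_eq hp hφ e0
  have hl : AnalyticAt ℂ (fun z : ℂ => Complex.log ((r : ℂ) / (z - c) / w)) (c + r / w) := by
    refine (hφ.div analyticAt_const hw).clog ?_
    show (r : ℂ) / (c + r / w - c) / w ∈ _
    rw [e0, div_self hw]
    exact Complex.one_mem_slitPlane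
  refine h (fun z => p ((r : ℂ) / (z - c)) + (ε : ℂ) * Complex.log ((r : ℂ) / (z - c) / w) +
    ((ε * Real.log ‖w‖ : ℝ) : ℂ)) ((hp'.add (analyticAt_const.mul hl)).add analyticAt_const) ?_
  have h1 : IsLocalMax ((fun s => G (c + r / s) * ‖s‖ ^ ε * Real.exp (p s).re) ∘
      fun z : ℂ => (r : ℂ) / (z - c)) (c + r / w) := by
    refine IsLocalMax.comp_continuous ?_ hφ.continuousAt
    rw [e0]; exact hmax
  refine h1.congr ?_
  have h2 : ∀ᶠ z in 𝓝 (c + r / w), z - c ≠ 0 :=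
    (continuous_id.sub continuous_const).continuousAt.eventually_ne h0
  filter_upwards [h2] with z hz
  have e1 : c + r / ((r : ℂ) / (z - c)) = z := by field_simp; ring
  have hn : 0 < ‖(r : ℂ) / (z - c)‖ := norm_pos_iff.2 (div_ne_zero hr' hz)
  have hw' : 0 < ‖w‖ := norm_pos_iff.2 hw
  simp only [Function.comp, e1, Complex.add_re, Complex.re_ofReal_mul, Complex.ofReal_re,
    Complex.log_re]
  rw [norm_div _ w, Real.log_div hn.ne' hw'.ne', Real.rpow_def_of_pos hn, mul_assoc,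
    ← Real.exp_add]
  congr 2
  ring

theorem K5_di {G : ℂ → ℝ} {S : Set ℂ} {ε : ℝ} (h : SI G S ε) (hε : 0 ≤ ε) {c : ℂ} {r : ℝ}
    (hr : 0 < r) (hS : Disjoint S (sphere c r)) :
    DI (fun w => G (c + r / w) * ‖w‖ ^ ε) ({0} ∪ {w | c + r / w ∈ S}) := by
  have hr' : (r : ℂ) ≠ 0 := by exact_mod_cast hr.ne'
  have hm : ∀ {w : ℂ}, w ∉ ({0} ∪ {w | c + r / w ∈ S} : Set ℂ) → w ≠ 0 ∧ c + r / w ∉ S :=
    fun hw => ⟨fun e => hw (Or.inl e), fun e => hw (Or.inr e)⟩
  refine ⟨(Set.finite_singleton 0).union ?_, ?_, ?_, fun z hz => ?_, ?_, fun z hz => ?_⟩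
  · refine Set.Finite.preimage (f := fun w : ℂ => c + r / w) (fun a _ b _ e => ?_) h.fin
    simp only [add_right_inj, div_eq_mul_inv] at e
    exact inv_injective (mul_left_cancel₀ hr' e)
  · refine Set.disjoint_left.2 fun w hw hw1 => ?_
    rw [mem_sphere_zero_iff_norm] at hw1
    rcases hw with hw | hw
    · rw [Set.mem_singleton_iff.1 hw] at hw1; simp at hw1
    · refine Set.disjoint_left.1 hS hw ?_
      rw [mem_sphere_iff_norm, add_sub_cancel_left, norm_div, hw1, div_one, Complex.norm_real,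
        Real.norm_of_nonneg hr.le]
  · refine ContinuousOn.mul (h.cont.comp ?_ fun w hw => (hm hw.2).2)
      (continuous_norm.rpow_const fun _ => Or.inr hε).continuousOn
    exact continuousOn_const.add (continuousOn_const.div continuousOn_id fun w hw => (hm hw.2).1)
  · exact mul_pos (h.pos _ (hm hz.2).2) (Real.rpow_pos_of_pos (norm_pos_iff.2 (hm hz.2).1) _)
  · obtain ⟨K, hK⟩ := h.bd
    refine ⟨|K| * (1 + ‖c‖ + r) ^ ε, fun z hz => ?_⟩
    have hz0 := norm_pos_iff.2 (hm hz.2).1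
    have hz1 : ‖z‖ ≤ 1 := mem_closedBall_zero_iff.1 hz.1
    have h1 := (hK _ (hm hz.2).2).trans
      (mul_le_mul_of_nonneg_right (le_abs_self K) (Real.rpow_nonneg (by positivity) ε))
    have h2 : (1 + ‖c + r / z‖) * ‖z‖ ≤ 1 + ‖c‖ + r := by
      have h3 : ‖c + r / z‖ ≤ ‖c‖ + r / ‖z‖ := by
        refine (norm_add_le _ _).trans (le_of_eq ?_)
        rw [norm_div, Complex.norm_real, Real.norm_of_nonneg hr.le]
      have h4 : r / ‖z‖ * ‖z‖ = r := div_mul_cancel₀ _ hz0.ne'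
      have h5 := mul_le_mul_of_nonneg_right h3 hz0.le
      nlinarith [norm_nonneg c]
    refine (mul_le_mul_of_nonneg_right h1 (Real.rpow_nonneg hz0.le ε)).trans ?_
    rw [mul_assoc, ← Real.mul_rpow (by positivity) hz0.le]
    exact mul_le_mul_of_nonneg_left (Real.rpow_le_rpow (by positivity) h2 hε) (abs_nonneg K)
  · exact K5_nm hr (hm hz.2).1 (h.nm _ (hm hz.2).2)

theorem key_ext {G : ℂ → ℝ} {S : Set ℂ} {ε : ℝ} (h : SI G S ε) (hε : 0 ≤ ε) {c P : ℂ} {r M : ℝ}
    (hr : 0 < r) (hS : Disjoint S (sphere c r)) (hM : ∀ z ∈ sphere c r, G z ≤ M) (hP : P ∉ S)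
    (hPr : 2 * r ≤ ‖P - c‖) :
    Real.circleAverage (fun z => Real.log M - Real.log (G z)) c r ≤
      3 * (Real.log M - Real.log (G P) + ε * Real.log (‖P - c‖ / r)) := by
  have hr' : (r : ℂ) ≠ 0 := by exact_mod_cast hr.ne'
  have hn : 0 < ‖P - c‖ := by linarith
  have h0 : P - c ≠ 0 := norm_pos_iff.1 hn
  have e1 : c + r / ((r : ℂ) / (P - c)) = P := by field_simp; ring
  have e2 : ‖(r : ℂ) / (P - c)‖ = r / ‖P - c‖ := by
    rw [norm_div, Complex.norm_real, Real.norm_of_nonneg hr.le]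
  have k := key_disc (K5_di h hε hr hS) (M := M) (w := (r : ℂ) / (P - c)) (fun w hw => by
    rw [mem_sphere_zero_iff_norm] at hw
    simp only [hw, Real.one_rpow, mul_one]
    refine hM _ ?_
    rw [mem_sphere_iff_norm, add_sub_cancel_left, norm_div, hw, div_one, Complex.norm_real,
      Real.norm_of_nonneg hr.le]) (by rw [e2, div_le_iff₀ hn]; linarith) (by
    rintro (e | e)
    · exact div_ne_zero hr' h0 e
    · exact hP (e1 ▸ e))
  have e3 : Real.circleAverage (fun z => Real.log M - Real.log (G z)) c r =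
      Real.circleAverage (fun z => Real.log M - Real.log (G (c + r / z) * ‖z‖ ^ ε)) 0 1 := by
    rw [Real.circleAverage_eq_circleAverage_zero_one, ← Real.circleAverage_zero_one_congr_inv]
    refine Real.circleAverage_congr_sphere fun z hz => ?_
    rw [abs_one, mem_sphere_zero_iff_norm] at hz
    simp only [hz, Real.one_rpow, mul_one, div_eq_mul_inv, add_comm c]
  rw [e3]
  refine k.trans (le_of_eq ?_)
  simp only [e1, e2]
  rw [Real.log_mul (h.pos P hP).ne' (Real.rpow_pos_of_pos (div_pos hr hn) _).ne',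
    Real.log_rpow (div_pos hr hn), Real.log_div hr.ne' hn.ne', Real.log_div hn.ne' hr.ne']
  ring

end Vale.Agent.P296
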