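import Vale.Agent.P296.Defs

namespace Vale.Agent.P296

open Matrix Filter Topology MeasureTheory Metric Laplacian ComplexOrder

theorem K6_circ {u : ℂ → ℝ} {c : ℂ} {ρ r : ℝ} (hr0 : 0 ≤ r) (hr : r ≤ ρ)
    (hu : ContinuousOn u (closedBall c ρ)) (h0 : ∀ z ∈ closedBall c ρ, 0 ≤ u z) :
    ∫⁻ θ in Set.Ioo (-Real.pi) Real.pi, ENNReal.ofReal (u (circleMap c r θ)) =
      ENNReal.ofReal (2 * Real.pi * Real.circleAverage u c r) := by
  have hmem : ∀ θ, circleMap c r θ ∈ closedBall c ρ := fun θ =>
    closedBall_subset_closedBall hr (circleMap_mem_closedBall c hr0 θ)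
  have hc : Continuous fun θ => u (circleMap c r θ) :=
    hu.comp_continuous (continuous_circleMap c r) hmem
  have hpi := Real.pi_pos
  have hint : IntegrableOn (fun θ => u (circleMap c r θ)) (Set.Ioo (-Real.pi) Real.pi) :=
    (hc.continuousOn.integrableOn_Icc).mono_set Set.Ioo_subset_Icc_self
  rw [← ofReal_integral_eq_lintegral_ofReal hint (ae_of_all _ fun θ => h0 _ (hmem θ))]
  congr 1
  rw [Real.circleAverage_eq_integral_add (-Real.pi),
    intervalIntegral.integral_comp_add_right (fun θ => u (circleMap c r θ)), smul_eq_mul,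
    ← mul_assoc, mul_inv_cancel₀ (by positivity), one_mul, zero_add,
    show 2 * Real.pi + -Real.pi = Real.pi by ring,
    intervalIntegral.integral_of_le (by linarith), integral_Ioc_eq_integral_Ioo]

theorem area {u : ℂ → ℝ} {c : ℂ} {ρ a τ : ℝ} (hρ : 0 < ρ) (hτ : 0 < τ)
    (hu : ContinuousOn u (closedBall c ρ)) (h0 : ∀ z ∈ closedBall c ρ, 0 ≤ u z)
    (ha : ∀ r, ρ / 2 ≤ r → r ≤ ρ → Real.circleAverage u c r ≤ a) :
    volume {z | z ∈ ball (c + (3 * ρ / 4 : ℝ)) (ρ / 4) ∧ τ < u z} ≤
      ENNReal.ofReal (7 * ρ ^ 2 * a / τ) := by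
  have hpi := Real.pi_pos
  set A : Set ℂ := closedBall c ρ \ ball c (ρ / 2) with hA
  have hAm : MeasurableSet A := measurableSet_closedBall.diff measurableSet_ball
  set v : ℂ → ENNReal := A.indicator fun z => ENNReal.ofReal (u z) with hv
  have hvm : AEMeasurable v volume := by
    rw [hv, aemeasurable_indicator_iff hAm]
    exact ((hu.mono Set.diff_subset).aemeasurable hAm).ennreal_ofReal
  have ha0 : 0 ≤ a := by
    refine le_trans ?_ (ha ρ (by linarith) le_rfl)
    rw [Real.circleAverage_def, smul_eq_mul]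
    refine mul_nonneg (by positivity) ?_
    exact intervalIntegral.integral_nonneg (by positivity) fun θ _ =>
      h0 _ (circleMap_mem_closedBall c hρ.le θ)
  have hsub : {z | z ∈ ball (c + (3 * ρ / 4 : ℝ)) (ρ / 4) ∧ τ < u z} ⊆
      {z | ENNReal.ofReal τ ≤ v z} := by
    rintro z ⟨hz, hτz⟩
    have hzA : z ∈ A := by
      rw [mem_ball, dist_eq_norm] at hz
      have hn : ‖((3 * ρ / 4 : ℝ) : ℂ)‖ = 3 * ρ / 4 := by
        rw [Complex.norm_real, Real.norm_of_nonneg (by positivity)]
      have e : z - c = (z - (c + (3 * ρ / 4 : ℝ))) + (3 * ρ / 4 : ℝ) := by ring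
      have e' : ((3 * ρ / 4 : ℝ) : ℂ) = (z - c) - (z - (c + (3 * ρ / 4 : ℝ))) := by ring
      have h1 := norm_add_le (z - (c + (3 * ρ / 4 : ℝ))) ((3 * ρ / 4 : ℝ) : ℂ)
      have h2 := norm_sub_le (z - c) (z - (c + (3 * ρ / 4 : ℝ)))
      rw [← e, hn] at h1
      rw [← e', hn] at h2
      refine ⟨?_, ?_⟩
      · rw [mem_closedBall, dist_eq_norm]; linarith
      · rw [mem_ball, dist_eq_norm]; linarith
    show ENNReal.ofReal τ ≤ v z
    rw [hv, Set.indicator_of_mem hzA]
    exact ENNReal.ofReal_le_ofReal hτz.le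
  have hint : ∫⁻ z, v z ≤ ENNReal.ofReal (7 * ρ ^ 2 * a) := by
    rw [← lintegral_add_left_eq_self v c, ← Complex.lintegral_comp_polarCoord_symm,
      show polarCoord.target = Set.Ioi (0 : ℝ) ×ˢ Set.Ioo (-Real.pi) Real.pi from rfl,
      Measure.volume_eq_prod, ← Measure.prod_restrict]
    refine (lintegral_prod_le _).trans ?_
    have key : ∀ r ∈ Set.Ioi (0 : ℝ), ∫⁻ θ in Set.Ioo (-Real.pi) Real.pi,
        ENNReal.ofReal r • v (c + Complex.polarCoord.symm (r, θ)) ≤
        (Set.Icc (ρ / 2) ρ).indicator (fun _ => ENNReal.ofReal (ρ * (2 * Real.pi * a))) r := by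
      intro r hr
      have hr0 : 0 < r := hr
      have hcm : ∀ θ, c + Complex.polarCoord.symm (r, θ) = circleMap c r θ := by
        intro θ
        rw [Complex.polarCoord_symm_apply, circleMap, Complex.exp_mul_I]
        simp
      have hd : ∀ θ, dist (circleMap c r θ) c = r := by
        intro θ
        have := circleMap_mem_sphere c hr0.le θ
        rwa [mem_sphere] at this
      simp_rw [hcm]
      by_cases hrI : r ∈ Set.Icc (ρ / 2) ρ
      · rw [Set.indicator_of_mem hrI]
        have hm : ∀ θ, v (circleMap c r θ) = ENNReal.ofReal (u (circleMap c r θ)) := by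
          intro θ
          rw [hv, Set.indicator_of_mem]
          refine ⟨?_, ?_⟩
          · rw [mem_closedBall, hd]; exact hrI.2
          · rw [mem_ball, hd]; exact not_lt.2 hrI.1
        simp_rw [hm, smul_eq_mul]
        rw [lintegral_const_mul' _ _ ENNReal.ofReal_ne_top, K6_circ hr0.le hrI.2 hu h0,
          ← ENNReal.ofReal_mul hr0.le]
        refine ENNReal.ofReal_le_ofReal ?_
        have h1 := ha r hrI.1 hrI.2
        calc r * (2 * Real.pi * Real.circleAverage u c r) ≤ r * (2 * Real.pi * a) := by gcongr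
          _ ≤ ρ * (2 * Real.pi * a) := by gcongr; exact hrI.2
      · rw [Set.indicator_of_notMem hrI]
        have hm : ∀ θ, v (circleMap c r θ) = 0 := by
          intro θ
          rw [hv, Set.indicator_of_notMem]
          rintro ⟨h1, h2⟩
          rw [mem_closedBall, hd] at h1
          rw [mem_ball, hd] at h2
          exact hrI ⟨not_lt.1 h2, h1⟩
        simp [hm]
    refine (setLIntegral_mono' measurableSet_Ioi key).trans ?_
    refine (setLIntegral_le_lintegral _ _).trans ?_
    rw [lintegral_indicator measurableSet_Icc, setLIntegral_const, Real.volume_Icc,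
      ← ENNReal.ofReal_mul (by positivity)]
    refine ENNReal.ofReal_le_ofReal ?_
    have := Real.pi_le_four
    have h3 : 0 ≤ ρ ^ 2 * a := by positivity
    nlinarith
  have hM := mul_meas_ge_le_lintegral₀ hvm (ENNReal.ofReal τ)
  refine (measure_mono hsub).trans ?_
  rw [ENNReal.ofReal_div_of_pos hτ,
    ENNReal.le_div_iff_mul_le (Or.inl (by simpa using hτ)) (Or.inl ENNReal.ofReal_ne_top), mul_comm]
  exact hM.trans hint

end Vale.Agent.P296
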