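import Vale.Agent.P296.Alg0
import Vale.Agent.P296.Def2

namespace Vale.Agent.P296

open Matrix Filter Topology MeasureTheory Metric Laplacian ComplexOrder

theorem N3_d0 {x y : ℂ} (h1 : (-3) * x ^ 0 * y ^ 3 + (-12) * x ^ 1 * y ^ 2 + (-2) * x ^ 2 * y ^ 1 + (10) * x ^ 3 * y ^ 0 = 0)
    (h2 : (4) * x ^ 0 * y ^ 3 + (2) * x ^ 1 * y ^ 2 + (-30) * x ^ 2 * y ^ 1 + (-4) * x ^ 3 * y ^ 0 = 0) : (x, y) = 0 := by
  have a1 : x ^ 5 = 0 := by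
    linear_combination ((-23 / 1197) * x ^ 0 * y ^ 2 + (17 / 2394) * x ^ 1 * y ^ 1 + (241 / 2394) * x ^ 2 * y ^ 0) * h1 +
      ((-23 / 1596) * x ^ 0 * y ^ 2 + (-6 / 133) * x ^ 1 * y ^ 1 + (2 / 1197) * x ^ 2 * y ^ 0) * h2
  have a2 : y ^ 5 = 0 := by
    linear_combination ((1385 / 1197) * x ^ 0 * y ^ 2 + (-3772 / 1197) * x ^ 1 * y ^ 1 + (-524 / 1197) * x ^ 2 * y ^ 0) * h1 +
      ((446 / 399) * x ^ 0 * y ^ 2 + (73 / 133) * x ^ 1 * y ^ 1 + (-1310 / 1197) * x ^ 2 * y ^ 0) * h2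
  rw [pow_eq_zero_iff (by norm_num)] at a1 a2
  rw [a1, a2]
  rfl

theorem N3_d1 {x y : ℂ} (h1 : (-3) * x ^ 0 * y ^ 3 + (-12) * x ^ 1 * y ^ 2 + (-18) * x ^ 2 * y ^ 1 + (7) * x ^ 3 * y ^ 0 = 0)
    (h2 : (4) * x ^ 0 * y ^ 3 + (18) * x ^ 1 * y ^ 2 + (-21) * x ^ 2 * y ^ 1 + (10) * x ^ 3 * y ^ 0 = 0) : (x, y) = 0 := by
  have a1 : x ^ 5 = 0 := by
    linear_combination ((85332 / 3176893) * x ^ 0 * y ^ 2 + (421218 / 3176893) * x ^ 1 * y ^ 1 + (-267821 / 3176893) * x ^ 2 * y ^ 0) * h1 +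
      ((63999 / 3176893) * x ^ 0 * y ^ 2 + (283914 / 3176893) * x ^ 1 * y ^ 1 + (505164 / 3176893) * x ^ 2 * y ^ 0) * h2
  have a2 : y ^ 5 = 0 := by
    linear_combination ((-1821823 / 3176893) * x ^ 0 * y ^ 2 + (1817040 / 3176893) * x ^ 1 * y ^ 1 + (-776100 / 3176893) * x ^ 2 * y ^ 0) * h1 +
      ((-572144 / 3176893) * x ^ 0 * y ^ 2 + (-1528041 / 3176893) * x ^ 1 * y ^ 1 + (543270 / 3176893) * x ^ 2 * y ^ 0) * h2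
  rw [pow_eq_zero_iff (by norm_num)] at a1 a2
  rw [a1, a2]
  rfl

theorem N3_d2 {x y : ℂ} (h1 : (-6) * x ^ 0 * y ^ 3 + (1) * x ^ 3 * y ^ 0 = 0)
    (h2 : (-3) * x ^ 2 * y ^ 1 + (6) * x ^ 3 * y ^ 0 = 0) : (x, y) = 0 := by
  have a1 : x ^ 5 = 0 := by
    linear_combination ((-1 / 47) * x ^ 2 * y ^ 0) * h1 +
      ((2 / 47) * x ^ 0 * y ^ 2 + (4 / 47) * x ^ 1 * y ^ 1 + (8 / 47) * x ^ 2 * y ^ 0) * h2
  have a2 : y ^ 5 = 0 := by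
    linear_combination ((-1 / 6) * x ^ 0 * y ^ 2 + (-2 / 141) * x ^ 2 * y ^ 0) * h1 +
      ((4 / 141) * x ^ 0 * y ^ 2 + (1 / 846) * x ^ 1 * y ^ 1 + (1 / 423) * x ^ 2 * y ^ 0) * h2
  rw [pow_eq_zero_iff (by norm_num)] at a1 a2
  rw [a1, a2]
  rfl

theorem N3_r01 {x y : ℂ} (h1 : (-3) * x ^ 0 * y ^ 4 + (-16) * x ^ 1 * y ^ 3 + (-4) * x ^ 2 * y ^ 2 + (40) * x ^ 3 * y ^ 1 + (4) * x ^ 4 * y ^ 0 = 0)
    (h2 : (-3) * x ^ 0 * y ^ 4 + (-16) * x ^ 1 * y ^ 3 + (-36) * x ^ 2 * y ^ 2 + (28) * x ^ 3 * y ^ 1 + (-10) * x ^ 4 * y ^ 0 = 0) : (x, y) = 0 := by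
  have a1 : x ^ 7 = 0 := by
    linear_combination ((-279084 / 56596409) * x ^ 0 * y ^ 3 + (-1471642 / 56596409) * x ^ 1 * y ^ 2 + (-3143579 / 56596409) * x ^ 2 * y ^ 1 + (6746527 / 113192818) * x ^ 3 * y ^ 0) * h1 +
      ((279084 / 56596409) * x ^ 0 * y ^ 3 + (1471642 / 56596409) * x ^ 1 * y ^ 2 + (166683 / 56596409) * x ^ 2 * y ^ 1 + (-8620671 / 113192818) * x ^ 3 * y ^ 0) * h2
  have a2 : y ^ 7 = 0 := by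
    linear_combination ((288730567 / 509367681) * x ^ 0 * y ^ 3 + (414209104 / 169789227) * x ^ 1 * y ^ 2 + (-902054356 / 509367681) * x ^ 2 * y ^ 1 + (302847520 / 509367681) * x ^ 3 * y ^ 0) * h1 +
      ((-458519794 / 509367681) * x ^ 0 * y ^ 3 + (-337084768 / 509367681) * x ^ 1 * y ^ 2 + (1189757560 / 509367681) * x ^ 2 * y ^ 1 + (121139008 / 509367681) * x ^ 3 * y ^ 0) * h2
  rw [pow_eq_zero_iff (by norm_num)] at a1 a2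
  rw [a1, a2]
  rfl

theorem N3_r02 {x y : ℂ} (h1 : (-3) * x ^ 0 * y ^ 4 + (-16) * x ^ 1 * y ^ 3 + (-4) * x ^ 2 * y ^ 2 + (40) * x ^ 3 * y ^ 1 + (4) * x ^ 4 * y ^ 0 = 0)
    (h2 : (-6) * x ^ 0 * y ^ 4 + (4) * x ^ 3 * y ^ 1 + (-6) * x ^ 4 * y ^ 0 = 0) : (x, y) = 0 := by
  have a1 : x ^ 7 = 0 := by
    linear_combination ((-53880 / 2766037) * x ^ 0 * y ^ 3 + (13824 / 2766037) * x ^ 1 * y ^ 2 + (24354 / 2766037) * x ^ 2 * y ^ 1 + (1261 / 89227) * x ^ 3 * y ^ 0) * h1 +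
      ((26940 / 2766037) * x ^ 0 * y ^ 3 + (136768 / 2766037) * x ^ 1 * y ^ 2 + (-13121 / 2766037) * x ^ 2 * y ^ 1 + (-28061 / 178454) * x ^ 3 * y ^ 0) * h2
  have a2 : y ^ 7 = 0 := by
    linear_combination ((38893 / 2766037) * x ^ 0 * y ^ 3 + (-61488 / 2766037) * x ^ 1 * y ^ 2 + (-51716 / 8298111) * x ^ 2 * y ^ 1 + (22240 / 2766037) * x ^ 3 * y ^ 0) * h1 +
      ((-1441358 / 8298111) * x ^ 0 * y ^ 3 + (-218912 / 8298111) * x ^ 1 * y ^ 2 + (439976 / 8298111) * x ^ 2 * y ^ 1 + (44480 / 8298111) * x ^ 3 * y ^ 0) * h2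
  rw [pow_eq_zero_iff (by norm_num)] at a1 a2
  rw [a1, a2]
  rfl

theorem N3_r12 {x y : ℂ} (h1 : (-3) * x ^ 0 * y ^ 4 + (-16) * x ^ 1 * y ^ 3 + (-36) * x ^ 2 * y ^ 2 + (28) * x ^ 3 * y ^ 1 + (-10) * x ^ 4 * y ^ 0 = 0)
    (h2 : (-6) * x ^ 0 * y ^ 4 + (4) * x ^ 3 * y ^ 1 + (-6) * x ^ 4 * y ^ 0 = 0) : (x, y) = 0 := by
  have a1 : x ^ 7 = 0 := by
    linear_combination ((923016 / 77532395) * x ^ 0 * y ^ 3 + (2182968 / 77532395) * x ^ 1 * y ^ 2 + (1280034 / 77532395) * x ^ 2 * y ^ 1 + (-351917 / 77532395) * x ^ 3 * y ^ 0) * h1 +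
      ((-461508 / 77532395) * x ^ 0 * y ^ 3 + (-710572 / 15506479) * x ^ 1 * y ^ 2 + (-11999361 / 77532395) * x ^ 2 * y ^ 1 + (-4934215 / 31012958) * x ^ 3 * y ^ 0) * h2
  have a2 : y ^ 7 = 0 := by
    linear_combination ((91437 / 77532395) * x ^ 0 * y ^ 3 + (-1418704 / 77532395) * x ^ 1 * y ^ 2 + (1780004 / 232597185) * x ^ 2 * y ^ 1 + (1104416 / 77532395) * x ^ 3 * y ^ 0) * h1 +
      ((-38903353 / 232597185) * x ^ 0 * y ^ 3 + (93104 / 15506479) * x ^ 1 * y ^ 2 + (8813764 / 232597185) * x ^ 2 * y ^ 1 + (-1104416 / 46519437) * x ^ 3 * y ^ 0) * h2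
  rw [pow_eq_zero_iff (by norm_num)] at a1 a2
  rw [a1, a2]
  rfl

theorem net_n2 {l : V} {e0 e1 : ℂ} (he : (e0, e1) ≠ 0) (hl : l ≠ 0)
    (hj : ∀ j, l j * bil (Dj j) (nv e0 e1) (nv e0 e1) = 0)
    (h1 : bil (Dm l) (l1 e0 e1) (nv e0 e1) = 0) (h2 : bil (Dm l) (l2 e0 e1) (nv e0 e1) = 0) :
    False := by
  have q0 : l 0 * ((-3) * e0 ^ 0 * e1 ^ 4 + (-16) * e0 ^ 1 * e1 ^ 3 + (-4) * e0 ^ 2 * e1 ^ 2 + (40) * e0 ^ 3 * e1 ^ 1 + (4) * e0 ^ 4 * e1 ^ 0) = 0 := by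
    rw [← hj 0]
    simp [bil, Dj, D0, D1, D2, nv, mulVec, dotProduct, Fin.sum_univ_three]
    left
    ring
  have q1 : l 1 * ((-3) * e0 ^ 0 * e1 ^ 4 + (-16) * e0 ^ 1 * e1 ^ 3 + (-36) * e0 ^ 2 * e1 ^ 2 + (28) * e0 ^ 3 * e1 ^ 1 + (-10) * e0 ^ 4 * e1 ^ 0) = 0 := by
    rw [← hj 1]
    simp [bil, Dj, D0, D1, D2, nv, mulVec, dotProduct, Fin.sum_univ_three]
    left
    ring
  have q2 : l 2 * ((-6) * e0 ^ 0 * e1 ^ 4 + (4) * e0 ^ 3 * e1 ^ 1 + (-6) * e0 ^ 4 * e1 ^ 0) = 0 := by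
    rw [← hj 2]
    simp [bil, Dj, D0, D1, D2, nv, mulVec, dotProduct, Fin.sum_univ_three]
    left
    ring
  have k1 : l 0 * ((-3) * e0 ^ 0 * e1 ^ 3 + (-12) * e0 ^ 1 * e1 ^ 2 + (-2) * e0 ^ 2 * e1 ^ 1 + (10) * e0 ^ 3 * e1 ^ 0) +
      l 1 * ((-3) * e0 ^ 0 * e1 ^ 3 + (-12) * e0 ^ 1 * e1 ^ 2 + (-18) * e0 ^ 2 * e1 ^ 1 + (7) * e0 ^ 3 * e1 ^ 0) +
      l 2 * ((-6) * e0 ^ 0 * e1 ^ 3 + (1) * e0 ^ 3 * e1 ^ 0) = 0 := by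
    rw [← h1]
    simp [bil, Dm, D0, D1, D2, nv, l1, mulVec, dotProduct, Fin.sum_univ_three]
    ring
  have k2 : l 0 * ((4) * e0 ^ 0 * e1 ^ 3 + (2) * e0 ^ 1 * e1 ^ 2 + (-30) * e0 ^ 2 * e1 ^ 1 + (-4) * e0 ^ 3 * e1 ^ 0) +
      l 1 * ((4) * e0 ^ 0 * e1 ^ 3 + (18) * e0 ^ 1 * e1 ^ 2 + (-21) * e0 ^ 2 * e1 ^ 1 + (10) * e0 ^ 3 * e1 ^ 0) +
      l 2 * ((-3) * e0 ^ 2 * e1 ^ 1 + (6) * e0 ^ 3 * e1 ^ 0) = 0 := by
    rw [← h2]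
    simp [bil, Dm, D0, D1, D2, nv, l2, mulVec, dotProduct, Fin.sum_univ_three]
    ring
  apply he
  by_cases z0 : l 0 = 0 <;> by_cases z1 : l 1 = 0 <;> by_cases z2 : l 2 = 0
  · exact absurd (funext fun i => by fin_cases i <;> assumption) hl
  · rw [z0, z1, zero_mul, zero_mul, zero_add, zero_add] at k1 k2
    exact N3_d2 ((mul_eq_zero.1 k1).resolve_left z2) ((mul_eq_zero.1 k2).resolve_left z2)
  · rw [z0, z2, zero_mul, zero_mul, zero_add, add_zero] at k1 k2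
    exact N3_d1 ((mul_eq_zero.1 k1).resolve_left z1) ((mul_eq_zero.1 k2).resolve_left z1)
  · exact N3_r12 ((mul_eq_zero.1 q1).resolve_left z1) ((mul_eq_zero.1 q2).resolve_left z2)
  · rw [z1, z2, zero_mul, zero_mul, add_zero, add_zero] at k1 k2
    exact N3_d0 ((mul_eq_zero.1 k1).resolve_left z0) ((mul_eq_zero.1 k2).resolve_left z0)
  · exact N3_r02 ((mul_eq_zero.1 q0).resolve_left z0) ((mul_eq_zero.1 q2).resolve_left z2)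
  · exact N3_r01 ((mul_eq_zero.1 q0).resolve_left z0) ((mul_eq_zero.1 q1).resolve_left z1)
  · exact N3_r01 ((mul_eq_zero.1 q0).resolve_left z0) ((mul_eq_zero.1 q1).resolve_left z1)

end Vale.Agent.P296
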