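import Vale.Agent.P296.Alg0
import Vale.Agent.P296.Def2

namespace Vale.Agent.P296

open Matrix Filter Topology MeasureTheory Metric Laplacian ComplexOrder

def n4R (x y : ℂ) : M3 :=
  !![(-3) * y ^ 2 + (-8) * x * y + (-5) * x ^ 2, (-3) * y ^ 2 + (-8) * x * y + (-10) * x ^ 2, (-6) * y ^ 2 + (3) * x ^ 2;
    (4) * y ^ 2 + (-3) * x * y + (-10) * x ^ 2, (4) * y ^ 2 + (8) * x * y + (-7) * x ^ 2, (3) * x * y + (-1) * x ^ 2;
    (-5) * y ^ 2 + (20) * x * y + (4) * x ^ 2, (-10) * y ^ 2 + (14) * x * y + (-10) * x ^ 2, (3) * y ^ 2 + (2) * x * y + (-6) * x ^ 2]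

def n4X (x y : ℂ) : M3 :=
  !![(-8) * y + (-10) * x, (-8) * y + (-20) * x, (6) * x;
    (-3) * y + (-20) * x, (8) * y + (-14) * x, (3) * y + (-2) * x;
    (20) * y + (8) * x, (14) * y + (-20) * x, (2) * y + (-12) * x]

def n4Y (x y : ℂ) : M3 :=
  !![(-6) * y + (-8) * x, (-6) * y + (-8) * x, (-12) * y;
    (8) * y + (-3) * x, (8) * y + (8) * x, (3) * x;
    (-10) * y + (20) * x, (-20) * y + (14) * x, (6) * y + (2) * x]

theorem n4_det {x y : ℂ} (h1 : (-420) * y ^ 5 + (1284) * x * y ^ 4 + (-900) * x ^ 2 * y ^ 3 + (-7616) * x ^ 3 * y ^ 2 + (2000) * x ^ 4 * y + (5184) * x ^ 5 = 0)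
    (h2 : (720) * y ^ 5 + (-2100) * x * y ^ 4 + (2568) * x ^ 2 * y ^ 3 + (-900) * x ^ 3 * y ^ 2 + (-3808) * x ^ 4 * y + (400) * x ^ 5 = 0) : (x, y) = 0 := by
  have a : (4142671575596377015296 : ℂ) * x ^ 9 = 0 := by
    linear_combination ((-629540166028156740) * y ^ 4 + (2193851331030488025) * x * y ^ 3 + (-3702477028979606436) * x ^ 2 * y ^ 2 + (3498970088603965005) * x ^ 3 * y + (456376203996303094) * x ^ 4) * h1 +
      ((-367231763516424765) * y ^ 4 + (1331333928928425303) * x * y ^ 3 + (-1666221098861181195) * x ^ 2 * y ^ 2 + (-5340280817195807666) * x ^ 3 * y + (4442043335198854440) * x ^ 4) * h2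
  have b : (242734662632600215740 : ℂ) * y ^ 9 = 0 := by
    linear_combination ((-255871631335136895) * y ^ 4 + (322816568900831071) * x * y ^ 3 + (-744248671363633605) * x ^ 2 * y ^ 2 + (-1000279435728339666) * x ^ 3 * y + (110835877207740800) * x ^ 4) * h1 +
      ((187873024266448222) * y ^ 4 + (1192577061850286235) * x * y ^ 3 + (1478595165175480062) * x ^ 2 * y ^ 2 + (-1265399760188715640) * x ^ 3 * y + (-1436432968612320768) * x ^ 4) * h2
  rw [pow_eq_zero_iff (by norm_num) |>.1 ((mul_eq_zero.1 a).resolve_left (by norm_num)),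
    pow_eq_zero_iff (by norm_num) |>.1 ((mul_eq_zero.1 b).resolve_left (by norm_num))]
  rfl

theorem n4_min0 {x y : ℂ} (h1 : (24) * y ^ 4 + (39) * x * y ^ 3 + (-75) * x ^ 2 * y ^ 2 + (-46) * x ^ 3 * y + (31) * x ^ 4 = 0)
    (h2 : (12) * y ^ 4 + (62) * x * y ^ 3 + (-81) * x ^ 2 * y ^ 2 + (-18) * x ^ 3 * y + (32) * x ^ 4 = 0) : (x, y) = 0 := by
  have a : (161608199165 : ℂ) * x ^ 7 = 0 := by
    linear_combination ((1792079736) * y ^ 3 + (9412487656) * x * y ^ 2 + (-11171045324) * x ^ 2 * y + (-3614876285) * x ^ 3) * h1 +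
      ((-3584159472) * y ^ 3 + (-6131077182) * x * y ^ 2 + (10436159787) * x ^ 2 * y + (8552167625) * x ^ 3) * h2
  have b : (1939298389980 : ℂ) * y ^ 7 = 0 := by
    linear_combination ((93919751530) * y ^ 3 + (-175341402573) * x * y ^ 2 + (-19733373498) * x ^ 2 * y + (72962422432) * x ^ 3) * h1 +
      ((-26231303895) * y ^ 3 + (180972016131) * x * y ^ 2 + (84241367786) * x ^ 2 * y + (-70682346731) * x ^ 3) * h2
  rw [pow_eq_zero_iff (by norm_num) |>.1 ((mul_eq_zero.1 a).resolve_left (by norm_num)),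
    pow_eq_zero_iff (by norm_num) |>.1 ((mul_eq_zero.1 b).resolve_left (by norm_num))]
  rfl

theorem n4_min1 {x y : ℂ} (h1 : (24) * y ^ 4 + (-27) * x * y ^ 3 + (-93) * x ^ 2 * y ^ 2 + (2) * x ^ 3 * y + (35) * x ^ 4 = 0)
    (h2 : (12) * y ^ 4 + (14) * x * y ^ 3 + (-125) * x ^ 2 * y ^ 2 + (6) * x ^ 3 * y + (64) * x ^ 4 = 0) : (x, y) = 0 := by
  have a : (6078883845 : ℂ) * x ^ 7 = 0 := by
    linear_combination ((85151784) * y ^ 3 + (-28349344) * x * y ^ 2 + (-1172961688) * x ^ 2 * y + (701084791) * x ^ 3) * h1 +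
      ((-170303568) * y ^ 3 + (446977698) * x * y ^ 2 + (646594197) * x ^ 2 * y + (-288423185) * x ^ 3) * h2
  have b : (24315535380 : ℂ) * y ^ 7 = 0 := by
    linear_combination ((-80722448182) * y ^ 3 + (-302601160273) * x * y ^ 2 + (83454358894) * x ^ 2 * y + (171493207872) * x ^ 3) * h1 +
      ((163471190979) * y ^ 3 + (232860422661) * x * y ^ 2 + (-42205888886) * x ^ 2 * y + (-93785348055) * x ^ 3) * h2
  rw [pow_eq_zero_iff (by norm_num) |>.1 ((mul_eq_zero.1 a).resolve_left (by norm_num)),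
    pow_eq_zero_iff (by norm_num) |>.1 ((mul_eq_zero.1 b).resolve_left (by norm_num))]
  rfl

theorem n4_min2 {x y : ℂ} (h1 : (-33) * x * y ^ 3 + (-77) * x ^ 2 * y ^ 2 + (-94) * x ^ 3 * y + (-65) * x ^ 4 = 0)
    (h2 : (-20) * y ^ 4 + (46) * x * y ^ 3 + (-193) * x ^ 2 * y ^ 2 + (-2) * x ^ 3 * y + (128) * x ^ 4 = 0) : (x, y) = 0 := by
  have a : (80448190403775 : ℂ) * x ^ 7 = 0 := by
    linear_combination ((143281652920) * y ^ 3 + (-481878737376) * x * y ^ 2 + (1808828389376) * x ^ 2 * y + (-1655177800831) * x ^ 3) * h1 +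
      ((-236414727318) * x * y ^ 2 + (-300288319903) * x ^ 2 * y + (-212018489455) * x ^ 3) * h2
  have b : (321792761615100 : ℂ) * y ^ 7 = 0 := by
    linear_combination ((-1732396673470) * y ^ 3 + (74702953824543) * x * y ^ 2 + (-9786110175218) * x ^ 2 * y + (-47009187988352) * x ^ 3) * h1 +
      ((-16089638080755) * y ^ 3 + (-34147713074511) * x * y ^ 2 + (-39864879209726) * x ^ 2 * y + (-23871853275335) * x ^ 3) * h2
  rw [pow_eq_zero_iff (by norm_num) |>.1 ((mul_eq_zero.1 a).resolve_left (by norm_num)),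
    pow_eq_zero_iff (by norm_num) |>.1 ((mul_eq_zero.1 b).resolve_left (by norm_num))]
  rfl

theorem n4_adj {R : M3} {l : V} (h : R *ᵥ l = 0) (i a j : Fin 3) :
    l i * R.adjugate a j = l a * R.adjugate i j := by
  have h0 := congrFun h 0
  have h1 := congrFun h 1
  have h2 := congrFun h 2
  simp only [mulVec, dotProduct, Fin.sum_univ_three, Pi.zero_apply] at h0 h1 h2
  fin_cases i <;> fin_cases a <;> fin_cases j <;> simp [adjugate_fin_three] <;> grind

theorem n4_tr {R R' : M3} {l S : V} (h : R *ᵥ l = 0) (h' : S ᵥ* R = 0)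
    (h2 : S ⬝ᵥ R' *ᵥ l = 0) (hl : l ≠ 0) (hS : S ≠ 0) : trace (R.adjugate * R') = 0 := by
  obtain ⟨a, ha⟩ := Function.ne_iff.1 hl
  obtain ⟨b, hb⟩ := Function.ne_iff.1 hS
  have k1 := n4_adj h
  have k2 : ∀ i a j, S i * R.adjugate j a = S a * R.adjugate j i := fun i a j => by
    have := n4_adj (R := Rᵀ) (l := S) (by rw [mulVec_transpose]; exact h') i a j
    rwa [← adjugate_transpose] at this
  have k3 : ∀ i j, l a * S b * R.adjugate i j = R.adjugate a b * (l i * S j) := fun i j => by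
    linear_combination l a * k2 b j i + S j * k1 a i b
  have k4 : l a * S b * trace (R.adjugate * R') = R.adjugate a b * (S ⬝ᵥ R' *ᵥ l) := by
    simp only [trace, diag, mul_apply, mulVec, dotProduct, Fin.sum_univ_three]
    linear_combination R' 0 0 * k3 0 0 + R' 1 0 * k3 0 1 + R' 2 0 * k3 0 2 + R' 0 1 * k3 1 0 +
      R' 1 1 * k3 1 1 + R' 2 1 * k3 1 2 + R' 0 2 * k3 2 0 + R' 1 2 * k3 2 1 + R' 2 2 * k3 2 2
  rw [h2, mul_zero] at k4
  exact (mul_eq_zero.1 k4).resolve_left (mul_ne_zero ha hb)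

theorem n4_Rc (l : V) (x y : ℂ) : Rc (Dm l) x y = n4R x y *ᵥ l := by
  ext i
  fin_cases i <;>
    simp [Rc, bil, l1, l2, Dm, D0, D1, D2, n4R, mulVec, dotProduct, Fin.sum_univ_three] <;> ring

theorem n4_Rx (l : V) (x y : ℂ) : Rp (Dm l) x y 1 0 = n4X x y *ᵥ l := by
  ext i
  fin_cases i <;>
    simp [Rp, bil, l1, l2, Dm, D0, D1, D2, n4X, mulVec, dotProduct, Fin.sum_univ_three] <;> ring

theorem n4_Ry (l : V) (x y : ℂ) : Rp (Dm l) x y 0 1 = n4Y x y *ᵥ l := by
  ext i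
  fin_cases i <;>
    simp [Rp, bil, l1, l2, Dm, D0, D1, D2, n4Y, mulVec, dotProduct, Fin.sum_univ_three] <;> ring

theorem n4_col (S : V) (x y : ℂ) (j : Fin 3) : S ⬝ᵥ Rc (Dj j) x y = (S ᵥ* n4R x y) j := by
  fin_cases j <;>
    simp [Rc, bil, l1, l2, Dj, D0, D1, D2, n4R, vecMul, mulVec, dotProduct, Fin.sum_univ_three] <;>
    ring

theorem n4_dep {a b p q p' q' : ℂ} (hab : a ≠ 0 ∨ b ≠ 0) (h1 : p * a + q * b = 0)
    (h2 : p' * a + q' * b = 0) : p * q' - q * p' = 0 := by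
  rcases hab with h | h
  · refine (mul_eq_zero.1 ?_).resolve_left h
    linear_combination q' * h1 - q * h2
  · refine (mul_eq_zero.1 ?_).resolve_left h
    linear_combination p * h2 - p' * h1

theorem net_n3 {l S : V} {e0 e1 : ℂ} (he : (e0, e1) ≠ 0) (hl : l ≠ 0) (hS : S ≠ 0)
    (h0 : Rc (Dm l) e0 e1 = 0) (hj : ∀ j, l j * (S ⬝ᵥ Rc (Dj j) e0 e1) = 0)
    (hd : ∀ f0 f1, S ⬝ᵥ Rp (Dm l) e0 e1 f0 f1 = 0) : False := by
  rw [n4_Rc] at h0
  have hz : ¬(l 0 = 0 ∧ l 1 = 0 ∧ l 2 = 0) := fun h => hl (by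
    ext i
    fin_cases i
    · exact h.1
    · exact h.2.1
    · exact h.2.2)
  have r0 := congrFun h0 0
  have r1 := congrFun h0 1
  have r2 := congrFun h0 2
  simp only [mulVec, dotProduct, Fin.sum_univ_three, Pi.zero_apply] at r0 r1 r2
  by_cases a0 : l 0 = 0
  · rw [a0, mul_zero, zero_add] at r0 r1 r2
    have k : l 1 ≠ 0 ∨ l 2 ≠ 0 := by tauto
    have k1 := n4_dep k r0 r1
    have k2 := n4_dep k r1 r2
    simp [n4R] at k1 k2
    exact he (n4_min0 (by linear_combination k1) (by linear_combination k2))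
  by_cases a1 : l 1 = 0
  · rw [a1, mul_zero, add_zero] at r0 r1 r2
    have k1 := n4_dep (Or.inl a0) r0 r1
    have k2 := n4_dep (Or.inl a0) r1 r2
    simp [n4R] at k1 k2
    exact he (n4_min1 (by linear_combination k1) (by linear_combination k2))
  by_cases a2 : l 2 = 0
  · rw [a2, mul_zero, add_zero] at r0 r1 r2
    have k1 := n4_dep (Or.inl a0) r0 r1
    have k2 := n4_dep (Or.inl a0) r1 r2
    simp [n4R] at k1 k2
    exact he (n4_min2 (by linear_combination k1) (by linear_combination k2))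
  have hv : S ᵥ* n4R e0 e1 = 0 := by
    ext j
    rw [← n4_col]
    refine (mul_eq_zero.1 (hj j)).resolve_left ?_
    fin_cases j
    · exact a0
    · exact a1
    · exact a2
  have k1 := n4_tr h0 hv (n4_Rx l e0 e1 ▸ hd 1 0) hl hS
  have k2 := n4_tr h0 hv (n4_Ry l e0 e1 ▸ hd 0 1) hl hS
  simp [trace_fin_three, mul_apply, Fin.sum_univ_three, adjugate_fin_three, n4R, n4X, n4Y] at k1 k2
  exact he (n4_det (by linear_combination k1) (by linear_combination k2))

end Vale.Agent.P296
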