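import Vale.Agent.P296.N2
import Vale.Agent.P296.N3
import Vale.Agent.P296.N4

namespace Vale.Agent.P296

open Matrix Filter Topology MeasureTheory Metric Laplacian ComplexOrder

theorem LK_left (M : M3) (a b : ℂ) (u v w : V) :
    bil M (a • u - b • v) w = a * bil M u w - b * bil M v w := by
  simp only [bil, sub_dotProduct, smul_dotProduct, smul_eq_mul]

theorem LK_right (M : M3) (a b : ℂ) (u v w : V) :
    bil M w (a • u - b • v) = a * bil M w u - b * bil M w v := by
  simp only [bil, mulVec_sub, mulVec_smul, dotProduct_sub, dotProduct_smul, smul_eq_mul]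

theorem LK_symm {M : M3} (h : ∀ i j, M i j = M j i) (u v : V) : bil M u v = bil M v u := by
  simp only [bil, mulVec, dotProduct, Fin.sum_univ_three, h 1 0, h 2 0, h 2 1]
  ring

theorem LK_Dj (k i j : Fin 3) : Dj k i j = Dj k j i := by
  fin_cases k <;> fin_cases i <;> fin_cases j <;> simp [Dj, D0, D1, D2]

theorem LK_par {x0 x1 y0 y1 : ℂ} (hx : (x0, x1) ≠ 0) (h : y0 * x1 = y1 * x0) :
    ∃ β : ℂ, y0 = β * x0 ∧ y1 = β * x1 := by
  by_cases h0 : x0 = 0
  · have h1 : x1 ≠ 0 := fun h1 => hx (by rw [h0, h1]; rfl)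
    refine ⟨y1 / x1, ?_, by field_simp⟩
    rw [h0, mul_zero] at h ⊢
    exact (mul_eq_zero.1 h).resolve_right h1
  · refine ⟨y0 / x0, by field_simp, ?_⟩
    field_simp
    linear_combination -h

theorem left_ker {l S : V} {e0 e1 b1 b2 : ℂ} (he : (e0, e1) ≠ 0) (hl : l ≠ 0)
    (h0 : Rc (Dm l) e0 e1 = bb b1 b2) (hb : ∀ d1 d2, S ⬝ᵥ dbb b1 b2 d1 d2 = 0)
    (hj : ∀ j, l j * (S ⬝ᵥ Rc (Dj j) e0 e1) = 0)
    (hd : ∀ f0 f1, S ⬝ᵥ Rp (Dm l) e0 e1 f0 f1 = 0) : S = 0 := by
  by_contra hS
  by_cases hb0 : (b1, b2) = 0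
  · obtain ⟨rfl, rfl⟩ := Prod.ext_iff.1 hb0
    refine net_n3 he hl hS (h0.trans ?_) hj hd
    ext i
    fin_cases i <;> simp [bb]
  have p1 : 2 * S 0 * b1 + S 1 * b2 = 0 := by
    have := hb 1 0
    simp [dbb, dotProduct, Fin.sum_univ_three] at this
    linear_combination this
  have p2 : S 1 * b1 + 2 * S 2 * b2 = 0 := by
    have := hb 0 1
    simp [dbb, dotProduct, Fin.sum_univ_three] at this
    linear_combination this
  obtain ⟨τ, t0, t1, t2⟩ : ∃ τ : ℂ, S 0 = τ * b2 ^ 2 ∧ S 1 = -2 * τ * b1 * b2 ∧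
      S 2 = τ * b1 ^ 2 := by
    by_cases z1 : b1 = 0
    · have z2 : b2 ≠ 0 := fun z2 => hb0 (by rw [z1, z2]; rfl)
      refine ⟨S 0 / b2 ^ 2, by field_simp, ?_, ?_⟩
      · field_simp
        linear_combination p1
      · rw [z1] at p2 ⊢
        refine mul_right_cancel₀ z2 ?_
        linear_combination p2 / 2
    · refine ⟨S 2 / b1 ^ 2, ?_, ?_, by field_simp⟩
      · field_simp
        linear_combination b1 * p1 / 2 - b2 * p2 / 2
      · field_simp
        linear_combination p2
  have hτ : τ ≠ 0 := by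
    rintro rfl
    refine hS (funext fun i => ?_)
    fin_cases i
    · simpa using t0
    · simpa using t1
    · simpa using t2
  set n : V := b2 • l1 e0 e1 - b1 • l2 e0 e1 with hn
  have r0 : bil (Dm l) (l1 e0 e1) (l1 e0 e1) = b1 ^ 2 := congrFun h0 0
  have r1 : bil (Dm l) (l1 e0 e1) (l2 e0 e1) = b1 * b2 := congrFun h0 1
  have r2 : bil (Dm l) (l2 e0 e1) (l2 e0 e1) = b2 ^ 2 := congrFun h0 2
  have k1 : bil (Dm l) (l1 e0 e1) n = 0 := by
    rw [hn, LK_right, r0, r1]
    ring
  have k2 : bil (Dm l) (l2 e0 e1) n = 0 := by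
    rw [hn, LK_right, r2, LK_symm (Dm_symm l), r1]
    ring
  have k3 : ∀ j, l j * bil (Dj j) n n = 0 := fun j => by
    refine mul_left_cancel₀ hτ ?_
    have := hj j
    simp only [Rc, dotProduct, Fin.sum_univ_three, cons_val_zero, cons_val_one, cons_val_two,
      head_cons, tail_cons, t0, t1, t2] at this
    rw [hn, LK_left, LK_right, LK_right, LK_symm (LK_Dj j) (l2 e0 e1) (l1 e0 e1)]
    linear_combination this
  have k4 : ∀ f0 f1, bil (Dm l) (b2 • l1 f0 f1 - b1 • l2 f0 f1) n = 0 := fun f0 f1 => by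
    refine mul_left_cancel₀ hτ ?_
    have := hd f0 f1
    simp only [Rp, dotProduct, Fin.sum_univ_three, cons_val_zero, cons_val_one, cons_val_two,
      head_cons, tail_cons, t0, t1, t2] at this
    rw [hn, LK_left, LK_right, LK_right, LK_symm (Dm_symm l) (l1 f0 f1) (l1 e0 e1),
      LK_symm (Dm_symm l) (l2 f0 f1) (l1 e0 e1), LK_symm (Dm_symm l) (l2 f0 f1) (l2 e0 e1)]
    linear_combination this / 2
  by_cases hw : Dm l *ᵥ n = 0
  · refine net_n1 hw (fun n0 => ?_) hl k3
    have a0 : b2 * e1 = 0 := by simpa [hn, l1, l2] using congrFun n0 0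
    have a1 : b2 * e0 + b1 * e1 = 0 := by
      have := congrFun n0 1
      simp [hn, l1, l2] at this
      linear_combination -this
    have a2 : b1 * e0 = 0 := by simpa [hn, l1, l2] using congrFun n0 2
    by_cases z1 : b1 = 0
    · have z2 : b2 ≠ 0 := fun z2 => hb0 (by rw [z1, z2]; rfl)
      rw [z1, zero_mul, add_zero] at a1
      exact he (by rw [(mul_eq_zero.1 a0).resolve_left z2, (mul_eq_zero.1 a1).resolve_left z2]; rfl)
    · have z3 := (mul_eq_zero.1 a2).resolve_left z1
      rw [z3, mul_zero, zero_add] at a1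
      exact he (by rw [z3, (mul_eq_zero.1 a1).resolve_left z1]; rfl)
  · have w1 := k1
    have w2 := k2
    have w3 := k4 1 0
    have w4 := k4 0 1
    unfold bil at w1 w2 w3 w4
    generalize Dm l *ᵥ n = w at hw w1 w2 w3 w4
    simp [l1, l2, dotProduct, Fin.sum_univ_three] at w1 w2 w3 w4
    have hδ : b1 * e1 = b2 * e0 := by
      by_contra hδ
      have hδ' : b1 * e1 - b2 * e0 ≠ 0 := sub_ne_zero.2 hδ
      refine hw (funext fun i => mul_left_cancel₀ hδ' ?_)
      fin_cases i
      · change _ * w 0 = _ * 0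
        linear_combination b1 * w1 - e0 * w4
      · change _ * w 1 = _ * 0
        linear_combination b1 * w2 + e0 * w3
      · change _ * w 2 = _ * 0
        linear_combination e1 * w3 + b2 * w2
    obtain ⟨β, c1, c2⟩ := LK_par he hδ
    have hβ : β ≠ 0 := by
      rintro rfl
      exact hb0 (by rw [c1, c2, zero_mul, zero_mul]; rfl)
    have e : n = β • nv e0 e1 - (0 : ℂ) • nv e0 e1 := by
      ext i
      fin_cases i <;> simp [hn, l1, l2, nv, c1, c2] <;> ring
    refine net_n2 he hl (fun j => ?_) ?_ ?_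
    · have := k3 j
      rw [e, LK_left, LK_right] at this
      refine mul_left_cancel₀ (pow_ne_zero 2 hβ) ?_
      linear_combination this
    · rw [e, LK_right] at k1
      refine mul_left_cancel₀ hβ ?_
      linear_combination k1
    · rw [e, LK_right] at k2
      refine mul_left_cancel₀ hβ ?_
      linear_combination k2

end Vale.Agent.P296
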