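import Vale.Agent.P296.Alg0
import Vale.Agent.P296.Def2

namespace Vale.Agent.P296

open Matrix Filter Topology MeasureTheory Metric Laplacian ComplexOrder

theorem VB_sqrt {P : Type} [NormedAddCommGroup P] [NormedSpace ℂ P] {f : P → ℂ} {p₀ : P}
    (hf : AnalyticAt ℂ f p₀) (h0 : f p₀ ≠ 0) :
    ∃ a : P → ℂ, AnalyticAt ℂ a p₀ ∧ ∀ᶠ p in 𝓝 p₀, a p ^ 2 = f p ∧ a p ≠ 0 := by
  obtain ⟨r, hr⟩ := IsAlgClosed.exists_pow_nat_eq (f p₀) two_pos
  have h1 : AnalyticAt ℂ (fun p => Complex.log (f p / f p₀)) p₀ :=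
    (hf.div_const (c := f p₀)).clog (by simp [div_self h0])
  refine ⟨fun p => r * Complex.exp (Complex.log (f p / f p₀) / 2),
    analyticAt_const.mul (h1.div_const (c := 2)).cexp', ?_⟩
  filter_upwards [hf.continuousAt.eventually_ne h0] with p hp
  have e : (r * Complex.exp (Complex.log (f p / f p₀) / 2)) ^ 2 = f p := by
    rw [mul_pow, hr, sq, ← Complex.exp_add, add_halves, Complex.exp_log (div_ne_zero hp h0)]
    field_simp
  refine ⟨e, fun h => hp ?_⟩
  rw [← e, h]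
  simp

/-- explicit determinant of three rows -/
def VBd (a b c : V) : ℂ := a 0 * b 1 * c 2 - a 0 * b 2 * c 1 - a 1 * b 0 * c 2 +
  a 1 * b 2 * c 0 + a 2 * b 0 * c 1 - a 2 * b 1 * c 0

theorem VBd_an {P : Type} [NormedAddCommGroup P] [NormedSpace ℂ P] {A B C : P → V} {p₀ : P}
    (hA : AnalyticAt ℂ A p₀) (hB : AnalyticAt ℂ B p₀) (hC : AnalyticAt ℂ C p₀) :
    AnalyticAt ℂ (fun p => VBd (A p) (B p) (C p)) p₀ := by
  have a := analyticAt_pi_iff.1 hA
  have b := analyticAt_pi_iff.1 hB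
  have c := analyticAt_pi_iff.1 hC
  unfold VBd
  exact ((((((a 0).mul (b 1)).mul (c 2)).sub (((a 0).mul (b 2)).mul (c 1))).sub
    (((a 1).mul (b 0)).mul (c 2))).add (((a 1).mul (b 2)).mul (c 0))).add
    (((a 2).mul (b 0)).mul (c 1)) |>.sub (((a 2).mul (b 1)).mul (c 0))

theorem VBd_cramer (A B C y : V) (k : Fin 3) :
    VBd A B C * y k = A k * VBd y B C + B k * VBd A y C + C k * VBd A B y := by
  fin_cases k <;> simp [VBd] <;> ring

theorem vbranch {P : Type} [NormedAddCommGroup P] [NormedSpace ℂ P] {A B C y : P → V} {p₀ : P}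
    (hA : AnalyticAt ℂ A p₀) (hB : AnalyticAt ℂ B p₀) (hC : AnalyticAt ℂ C p₀)
    (hy : AnalyticAt ℂ y p₀) (hd : det (of ![A p₀, B p₀, C p₀]) ≠ 0) (h0 : y p₀ ≠ 0)
    (h : ∀ᶠ p in 𝓝 p₀, ∃ v, qv (A p) (B p) (C p) v = y p) :
    ∃ v : P → Fin 2 → ℂ, AnalyticAt ℂ v p₀ ∧ ∀ᶠ p in 𝓝 p₀, qv (A p) (B p) (C p) (v p) = y p := by
  have hd' : VBd (A p₀) (B p₀) (C p₀) ≠ 0 := by
    simpa [det_fin_three, VBd] using hd
  have aD := VBd_an hA hB hC
  have eD := aD.continuousAt.eventually_ne hd'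
  obtain ⟨al, hal⟩ : ∃ al : P → ℂ, al = fun p => VBd (y p) (B p) (C p) / VBd (A p) (B p) (C p) :=
    ⟨_, rfl⟩
  obtain ⟨be, hbe⟩ : ∃ be : P → ℂ, be = fun p => VBd (A p) (y p) (C p) / VBd (A p) (B p) (C p) :=
    ⟨_, rfl⟩
  obtain ⟨ga, hga⟩ : ∃ ga : P → ℂ, ga = fun p => VBd (A p) (B p) (y p) / VBd (A p) (B p) (C p) :=
    ⟨_, rfl⟩
  have a1 : AnalyticAt ℂ al p₀ := hal ▸ (VBd_an hy hB hC).div aD hd'
  have a2 : AnalyticAt ℂ be p₀ := hbe ▸ (VBd_an hA hy hC).div aD hd'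
  have a3 : AnalyticAt ℂ ga p₀ := hga ▸ (VBd_an hA hB hy).div aD hd'
  have key : ∀ᶠ p in 𝓝 p₀, (∀ k, y p k = A p k * al p + B p k * be p + C p k * ga p) ∧
      be p ^ 2 = 4 * al p * ga p := by
    filter_upwards [eD, h] with p hp ⟨v, hv⟩
    refine ⟨fun k => ?_, ?_⟩
    · simp only [hal, hbe, hga]
      field_simp
      linear_combination VBd_cramer (A p) (B p) (C p) (y p) k
    · have e1 : al p = v 0 ^ 2 := by
        simp only [hal]
        rw [div_eq_iff hp, ← hv]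
        simp only [VBd, qv]
        ring
      have e2 : be p = 2 * (v 0 * v 1) := by
        simp only [hbe]
        rw [div_eq_iff hp, ← hv]
        simp only [VBd, qv]
        ring
      have e3 : ga p = v 1 ^ 2 := by
        simp only [hga]
        rw [div_eq_iff hp, ← hv]
        simp only [VBd, qv]
        ring
      rw [e1, e2, e3]
      ring
  by_cases c1 : al p₀ = 0
  · have c2 : ga p₀ ≠ 0 := fun c2 => by
      obtain ⟨k1, k2⟩ := key.self_of_nhds
      have c3 : be p₀ = 0 := by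
        rw [c1, mul_zero, zero_mul] at k2
        exact pow_eq_zero_iff two_ne_zero |>.1 k2
      apply h0
      ext k
      rw [k1, c1, c2, c3]
      simp
    obtain ⟨a, ha, ea⟩ := VB_sqrt a3 c2
    refine ⟨fun p => ![be p / (2 * a p), a p], analyticAt_pi_iff.2 fun i => ?_, ?_⟩
    · fin_cases i
      · exact a2.div (analyticAt_const.mul ha) (mul_ne_zero two_ne_zero ea.self_of_nhds.2)
      · exact ha
    · filter_upwards [key, ea] with p ⟨k1, k2⟩ ⟨e1, e2⟩
      ext k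
      rw [k1]
      simp only [qv, cons_val_zero, cons_val_one]
      rw [← e1] at k2 ⊢
      field_simp
      linear_combination A p k * k2
  · obtain ⟨a, ha, ea⟩ := VB_sqrt a1 c1
    refine ⟨fun p => ![a p, be p / (2 * a p)], analyticAt_pi_iff.2 fun i => ?_, ?_⟩
    · fin_cases i
      · exact ha
      · exact a2.div (analyticAt_const.mul ha) (mul_ne_zero two_ne_zero ea.self_of_nhds.2)
    · filter_upwards [key, ea] with p ⟨k1, k2⟩ ⟨e1, e2⟩
      ext k
      rw [k1]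
      simp only [qv, cons_val_zero, cons_val_one]
      field_simp
      rw [k2, ← e1]
      ring

end Vale.Agent.P296
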