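import Vale.Agent.P296.GA
import Vale.Agent.P296.Cov
import Vale.Agent.P296.C1
import Vale.Agent.P296.VB

namespace Vale.Agent.P296

open Matrix Filter Topology MeasureTheory Metric Laplacian ComplexOrder

theorem Loc_anA (x : P6) : AnalyticAt ℂ (fun x : P6 => A0 x.1) x := by
  refine ContDiffAt.analyticAt (ContDiff.contDiffAt (contDiff_pi.mpr fun i => ?_))
  fin_cases i <;> simp [A0] <;> fun_prop

theorem Loc_anB (x : P6) : AnalyticAt ℂ (fun x : P6 => B0 x.1 x.2.2.1 x.2.2.2) x := by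
  refine ContDiffAt.analyticAt (ContDiff.contDiffAt (contDiff_pi.mpr fun i => ?_))
  fin_cases i <;> simp [B0] <;> fun_prop

theorem Loc_anC (N : ℕ) (x : P6) : AnalyticAt ℂ (fun x : P6 => C0 x.1 (pw N x.2.1)) x := by
  refine ContDiffAt.analyticAt (ContDiff.contDiffAt (contDiff_pi.mpr fun i => ?_))
  fin_cases i <;> simp [C0, A0, Dm, pw, D0, D1, D2] <;> fun_prop

theorem Loc_anY (p : (ℂ × ℂ) × ℂ) : AnalyticAt ℂ (fun p : (ℂ × ℂ) × ℂ => Yp p.1) p := by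
  refine ContDiffAt.analyticAt (ContDiff.contDiffAt (contDiff_pi.mpr fun i => ?_))
  fin_cases i <;> simp [Yp] <;> fun_prop

theorem Loc_Y (y : ℂ × ℂ) : Yp y ≠ 0 := fun h => by simpa [Yp] using congrFun h 0

theorem Loc_det {l A B C : V} (hl : gd l ≠ 0) (h : Dm l = Gram A B C) :
    det (of ![A, B, C]) ≠ 0 := by
  intro e
  apply hl
  have : (Dm l).det = 0 := by rw [h, det_gram, e]; simp
  rw [gd, this]
  simp

theorem loc {N : ℕ} (hN : 0 < N) {H : P6 → (Fin 2 → ℂ) → ℝ} (hH : HI N H) {p₀ : (ℂ × ℂ) × ℂ}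
    (hy : (Ry p₀.1).det ≠ 0) (hl : gd (Lam p₀.1 p₀.2) ≠ 0) :
    ∃ (n : ℕ) (x : Fin n → (ℂ × ℂ) × ℂ → P6) (v : Fin n → (ℂ × ℂ) × ℂ → Fin 2 → ℂ), 0 < n ∧
      (∀ k, AnalyticAt ℂ (x k) p₀ ∧ AnalyticAt ℂ (v k) p₀ ∧ v k p₀ ≠ 0) ∧ ∀ᶠ p in 𝓝 p₀,
        (∀ k, x k p ∈ Z0 N ∧ pw N (x k p).2.1 = Lam p.1 p.2) ∧
        GG N H (Lam p.1 p.2) (Yp p.1) = ∑ k, H (x k p) (v k p) := by
  obtain ⟨R, hR⟩ := fib_bd hN hl
  obtain ⟨n, σ, hσ, hev⟩ := cov (Φ := Phi N) (an_Phi N)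
    (τ := fun p : (ℂ × ℂ) × ℂ => ((0 : V), Lam p.1 p.2)) (p₀ := p₀)
    (analyticAt_const.prod (an_Lam p₀)) (fun x hx => phi_bij hN hl hx)
    ⟨R, (cont_Lam.tendsto p₀).eventually hR⟩
  have e1 : ∀ᶠ p : (ℂ × ℂ) × ℂ in 𝓝 p₀, gd (Lam p.1 p.2) ≠ 0 :=
    (cont_gd.comp cont_Lam).continuousAt.eventually_ne hl
  have e2 : ∀ᶠ p : (ℂ × ℂ) × ℂ in 𝓝 p₀, (Ry p.1).det ≠ 0 :=
    (cont_detRy.comp continuous_fst).continuousAt.eventually_ne hy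
  have e3 : ∀ᶠ p : (ℂ × ℂ) × ℂ in 𝓝 p₀, ∀ k, σ k p ∈ fib N (Lam p.1 p.2) := by
    filter_upwards [hev] with p hp k
    have : σ k p ∈ Set.range fun k => σ k p := ⟨k, rfl⟩
    rw [← hp.2] at this
    exact this
  have key : ∀ k, ∃ v : (ℂ × ℂ) × ℂ → Fin 2 → ℂ, AnalyticAt ℂ v p₀ ∧
      ∀ᶠ p in 𝓝 p₀, q0 N (σ k p) (v p) = Yp p.1 := fun k => by
    refine vbranch (A := fun p => A0 (σ k p).1)
      (B := fun p => B0 (σ k p).1 (σ k p).2.2.1 (σ k p).2.2.2)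
      (C := fun p => C0 (σ k p).1 (pw N (σ k p).2.1)) (y := fun p => Yp p.1)
      ((Loc_anA _).comp (hσ k)) ((Loc_anB _).comp (hσ k)) ((Loc_anC N _).comp (hσ k))
      (Loc_anY p₀) (Loc_det hl (fib_Z0 hN hl (e3.self_of_nhds k)).2.2) (Loc_Y _) ?_
    filter_upwards [e1, e2, e3] with p a1 a2 a3
    exact on_cone hN one_ne_zero a2 a1 (by rw [one_smul]; exact a3 k)
  choose v hv hq using key
  obtain ⟨c, hc⟩ := fib_card hN
  obtain ⟨x0, hx0⟩ := (hc _ hl).2.2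
  have hx1 : x0 ∈ Set.range fun k => σ k p₀ := by
    rw [← hev.self_of_nhds.2]
    exact hx0
  obtain ⟨k0, -⟩ := hx1
  refine ⟨n, σ, v, k0.pos, fun k => ⟨hσ k, hv k, fun e => Loc_Y p₀.1 ?_⟩, ?_⟩
  · rw [← (hq k).self_of_nhds, e]
    funext i
    simp [q0, qv]
  · filter_upwards [e1, e3, hev, eventually_all.mpr hq] with p a1 a3 a4 a5
    refine ⟨fun k => ⟨(fib_Z0 hN a1 (a3 k)).1, (fib_Z0 hN a1 (a3 k)).2.1⟩, ?_⟩
    have e : fib N (Lam p.1 p.2) = Set.range fun k => σ k p := a4.2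
    rw [GG, e, finsum_mem_range a4.1, finsum_eq_sum_of_fintype]
    refine Finset.sum_congr rfl fun k _ => ?_
    rw [← a5 k]
    exact vec_eq hN hH a1 (a3 k) _

end Vale.Agent.P296
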