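import Vale.Agent.P296.Alg0
import Vale.Agent.P296.Def2

namespace Vale.Agent.P296

open Matrix Filter Topology MeasureTheory Metric Laplacian ComplexOrder

theorem dn_herm {h : M2} (hh : h.PosDef) : Herm (dn h) := by
  have hg : h⁻¹ 1 0 = (starRingEnd ℂ) (h⁻¹ 0 1) := (hh.inv.isHermitian.apply 1 0).symm
  refine ⟨(h⁻¹ 0 0).re, (h⁻¹ 1 1).re, h⁻¹ 0 1, fun v => ?_⟩
  simp only [dn, dotProduct, mulVec, Fin.sum_univ_two, hg, Pi.star_apply, Complex.star_def,
    Complex.sq_norm, Complex.normSq_apply, Complex.add_re, Complex.mul_re, Complex.mul_im,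
    Complex.add_im, Complex.conj_re, Complex.conj_im]
  ring

theorem dn_pos {h : M2} (hh : h.PosDef) {v : Fin 2 → ℂ} (hv : v ≠ 0) : 0 < dn h v := by
  have := hh.inv.dotProduct_mulVec_pos (x := star v) (by simpa using hv)
  rw [star_star] at this
  exact (Complex.lt_def.1 this).1

theorem dn_comp {h T : M2} (hh : h.PosDef) (hT : T.det ≠ 0) (v : Fin 2 → ℂ) :
    dn (Tᴴ * h * T) (Tᵀ *ᵥ v) = dn h v := by
  have hu : IsUnit T.det := isUnit_iff_ne_zero.2 hT
  have hu' : IsUnit Tᴴ.det := by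
    rw [det_conjTranspose]; exact hu.star
  have h1 : star (Tᵀ *ᵥ v) = Tᴴ *ᵥ star v := by
    ext i
    fin_cases i <;> simp [mulVec, dotProduct, Fin.sum_univ_two]
  unfold dn
  rw [h1, mulVec_transpose, ← dotProduct_mulVec, mulVec_mulVec, mulVec_mulVec,
    Matrix.mul_inv_rev, Matrix.mul_inv_rev, ← Matrix.mul_assoc, mul_nonsing_inv _ hu, Matrix.one_mul, Matrix.mul_assoc,
    nonsing_inv_mul _ hu', Matrix.mul_one]

theorem m1_mul {h : M2} (hh : h.PosDef) (w : Fin 2 → ℂ) : h *ᵥ (h⁻¹ *ᵥ w) = w := by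
  rw [mulVec_mulVec, mul_nonsing_inv _ ((isUnit_iff_isUnit_det h).1 hh.isUnit), one_mulVec]

theorem m1_re (a b : Fin 2 → ℂ) : (star a ⬝ᵥ star b).re = (b ⬝ᵥ a).re := by
  simp [dotProduct, Fin.sum_univ_two, mul_comm]

theorem dn_ge {h : M2} (hh : h.PosDef) (v e : Fin 2 → ℂ) :
    2 * (v ⬝ᵥ e).re - (star e ⬝ᵥ h *ᵥ e).re ≤ dn h v := by
  have h0 := (Complex.le_def.1
    (hh.posSemidef.dotProduct_mulVec_nonneg (e - h⁻¹ *ᵥ star v))).1
  have h1 : star (h⁻¹ *ᵥ star v) ⬝ᵥ h *ᵥ e = v ⬝ᵥ e := by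
    rw [dotProduct_mulVec, ← hh.isHermitian.eq, ← star_mulVec, hh.isHermitian.eq, m1_mul hh,
      star_star]
  rw [star_sub, mulVec_sub, m1_mul hh, sub_dotProduct, dotProduct_sub, dotProduct_sub, h1] at h0
  simp only [Complex.sub_re, m1_re, Complex.zero_re] at h0
  unfold dn
  linarith

theorem dn_eq {h : M2} (hh : h.PosDef) (v : Fin 2 → ℂ) :
    2 * (v ⬝ᵥ h⁻¹ *ᵥ star v).re - (star (h⁻¹ *ᵥ star v) ⬝ᵥ h *ᵥ (h⁻¹ *ᵥ star v)).re = dn h v := by
  rw [m1_mul hh, m1_re]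
  unfold dn
  ring

theorem dn_cont {E : Type} [TopologicalSpace E] {s : Set E} {h : E → M2} {v : E → Fin 2 → ℂ}
    (hc : ∀ i j, ContinuousOn (fun x => h x i j) s) (hp : ∀ x ∈ s, (h x).PosDef)
    (hv : ContinuousOn v s) : ContinuousOn (fun x => dn (h x) (v x)) s := by
  have h1 : ContinuousOn h s := continuousOn_pi.2 fun i => continuousOn_pi.2 fun j => hc i j
  have h2 : ContinuousOn (fun x => (h x)⁻¹) s := fun x hx => by
    refine ContinuousAt.comp_continuousWithinAt (g := Inv.inv) ?_ (h1 x hx)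
    refine continuousAt_matrix_inv _ ?_
    rw [Ring.inverse_eq_inv']
    exact continuousAt_inv₀ (hp x hx).det_pos.ne'
  rw [continuousOn_iff_continuous_restrict] at h2 hv ⊢
  exact Complex.continuous_re.comp (hv.dotProduct (h2.matrix_mulVec hv.star))

end Vale.Agent.P296
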