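import Vale.Agent.P296.M1
import Vale.Agent.P296.B1
import Vale.Agent.P296.B3

namespace Vale.Agent.P296

open Matrix Filter Topology MeasureTheory Metric Laplacian ComplexOrder

/-- normalised points of a chart -/
def m3K (N : ℕ) (α : Fin 2 × Fin 3) : Set (V × Zc) :=
  {x | x ∈ XX N ∧ x.1 α.2 = 1 ∧ x.2 (ix α.1 α.2) = 1 ∧ (∀ l, ‖x.1 l‖ ≤ 1) ∧
    ∀ k, ‖x.2 (ix k α.2)‖ ≤ 1}

theorem m3_cont (M : M3) : Continuous fun e : ℂ × ℂ => Rc M e.1 e.2 := by
  refine continuous_pi fun k => ?_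
  fin_cases k <;> simp [Rc, bil, l1, l2, Matrix.mulVec, dotProduct, Fin.sum_univ_three] <;>
    fun_prop

theorem m3_closed (N : ℕ) (α : Fin 2 × Fin 3) : IsClosed (m3K N α) := by
  have hc : IsClosed {x : V × Zc | x.1 α.2 = 1 ∧ x.2 (ix α.1 α.2) = 1 ∧ (∀ l, ‖x.1 l‖ ≤ 1) ∧
      ∀ k, ‖x.2 (ix k α.2)‖ ≤ 1} := by
    simp only [Set.setOf_and, Set.setOf_forall]
    refine (isClosed_eq (by fun_prop) continuous_const).inter
      ((isClosed_eq (by fun_prop) continuous_const).inter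
        ((isClosed_iInter fun l => isClosed_le (by fun_prop) continuous_const).inter
          (isClosed_iInter fun l => isClosed_le (by fun_prop) continuous_const)))
  refine isClosed_of_closure_subset fun x hx => ?_
  have a : x ∈ closure (XX N) := closure_mono (fun y hy => hy.1) hx
  have b := hc.closure_subset (closure_mono (fun y (hy : y ∈ m3K N α) => hy.2) hx)
  refine ⟨xx_closed a (fun c => ?_) (fun c => ?_), b⟩
  · have := b.1
    rw [c] at this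
    simp at this
  · have := b.2.1
    rw [c] at this
    simp at this

theorem m3_cpt (N : ℕ) (α : Fin 2 × Fin 3) : IsCompact (m3K N α) := by
  have hg : Continuous fun w : Fin 2 → Fin 3 → ℂ => ∑ j, Rc (Dj j) (w 0 j) (w 1 j) :=
    continuous_finsetSum _ fun j _ => (m3_cont (Dj j)).comp
      (f := fun w : Fin 2 → Fin 3 → ℂ => (w 0 j, w 1 j)) (by fun_prop)
  obtain ⟨C, hC⟩ := (isCompact_closedBall (0 : Fin 2 → Fin 3 → ℂ) 1).exists_bound_of_continuousOn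
    hg.continuousOn
  refine isCompact_of_isClosed_isBounded (m3_closed N α)
    (isBounded_iff_forall_norm_le.2 ⟨|C| + 1, fun x hx => ?_⟩)
  obtain ⟨⟨-, -, h1, h2⟩, a1, -, a3, a4⟩ := hx
  have C1 : (1 : ℝ) ≤ |C| + 1 := by linarith [abs_nonneg C]
  have b : ∀ i j, ‖x.2 (ix i j)‖ ≤ 1 := fun i j => by
    have e := h1 i j α.2
    rw [a1, one_pow, mul_one] at e
    rw [e, norm_mul, norm_pow]
    exact mul_le_one₀ (a4 i) (by positivity) (pow_le_one₀ (norm_nonneg _) (a3 j))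
  have c := hC (fun i j => x.2 (ix i j)) (mem_closedBall_zero_iff.2
    ((pi_norm_le_iff_of_nonneg zero_le_one).2 fun i =>
      (pi_norm_le_iff_of_nonneg zero_le_one).2 fun j => b i j))
  rw [h2] at c
  have c0 := (norm_le_pi_norm _ 0).trans c
  have c2 := (norm_le_pi_norm _ 2).trans c
  simp only [bb, cons_val_zero, cons_val, norm_pow] at c0 c2
  have d : ∀ r : ℝ, r ^ 2 ≤ C → r ≤ |C| + 1 := fun r hr => by
    nlinarith [le_abs_self C, sq_nonneg (r - 1), abs_nonneg C]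
  refine norm_prod_le_iff.2 ⟨(pi_norm_le_iff_of_nonneg (by positivity)).2 fun l => (a3 l).trans C1,
    (pi_norm_le_iff_of_nonneg (by positivity)).2 fun k => ?_⟩
  fin_cases k
  · exact (b 0 0).trans C1
  · exact (b 0 1).trans C1
  · exact (b 0 2).trans C1
  · exact (b 1 0).trans C1
  · exact (b 1 1).trans C1
  · exact (b 1 2).trans C1
  · exact d _ c0
  · exact d _ c2

theorem m3_sub {N : ℕ} {α : Fin 2 × Fin 3} {x : V × Zc} (h : x ∈ m3K N α) : x ∈ XX N ∩ OO α :=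
  ⟨h.1, by rw [h.2.1]; exact one_ne_zero, by rw [h.2.2.1]; exact one_ne_zero⟩

theorem m3_one {N : ℕ} {h : Fin 2 × Fin 3 → V × Zc → M2} (hh : HMetric (XX N) OO (TT N) h)
    (α : Fin 2 × Fin 3) : ∃ K : ℝ, ∀ x ∈ m3K N α, ∀ v ∈ sphere (0 : Fin 2 → ℂ) 1,
      dn (h α x) v ≤ |K| * ‖qc N α x v‖ := by
  have hv : ∀ v ∈ sphere (0 : Fin 2 → ℂ) 1, v ≠ 0 := fun v hv c => by
    rw [c] at hv
    simp at hv
  have c1 : ContinuousOn (fun p : (V × Zc) × (Fin 2 → ℂ) => dn (h α p.1) p.2)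
      (m3K N α ×ˢ sphere 0 1) :=
    dn_cont (fun i j => (hh.sm α i j).continuousOn.comp continuousOn_fst fun p hp => m3_sub hp.1)
      (fun p hp => hh.pos α _ (m3_sub hp.1)) continuousOn_snd
  have c2 : ContinuousOn (fun p : (V × Zc) × (Fin 2 → ℂ) => ‖qc N α p.1 p.2‖)
      (m3K N α ×ˢ sphere 0 1) :=
    (continuousOn_pi.2 fun k p hp =>
      (an_qc N α k (m3_sub hp.1).2).continuousAt.continuousWithinAt).norm
  obtain ⟨K, hK⟩ := ((m3_cpt N α).prod (isCompact_sphere (0 : Fin 2 → ℂ) 1)).exists_bound_of_continuousOn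
    (c1.div c2 fun p hp => norm_ne_zero_iff.2 (qc_ne (m3_sub hp.1) (hv _ hp.2)))
  refine ⟨K, fun x hx v hv' => ?_⟩
  have a := (le_abs_self _).trans ((hK (x, v) ⟨hx, hv'⟩).trans (le_abs_self K))
  exact (div_le_iff₀ (norm_pos_iff.2 (qc_ne (m3_sub hx) (hv v hv')))).1 a

theorem dn_bd {N : ℕ} {h : Fin 2 × Fin 3 → V × Zc → M2} (hh : HMetric (XX N) OO (TT N) h) :
    ∃ K, ∀ α, ∀ x ∈ XX N ∩ OO α, (∀ l, ‖mu α x l‖ ≤ 1) → (∀ k, ‖et α x k‖ ≤ 1) →
      ∀ v, dn (h α x) v ≤ K * ‖qc N α x v‖ := by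
  choose K hK using m3_one hh
  refine ⟨∑ α, |K α|, fun α x hx h1 h2 v => ?_⟩
  have k1 : |K α| ≤ ∑ α, |K α| :=
    Finset.single_le_sum (f := fun α => |K α|) (fun _ _ => abs_nonneg _) (Finset.mem_univ α)
  refine le_trans ?_ (mul_le_mul_of_nonneg_right k1 (norm_nonneg _))
  have s0 := inv_ne_zero hx.2.1
  have t0 := inv_ne_zero hx.2.2
  have hm : sc (x.1 α.2)⁻¹ (x.2 (ix α.1 α.2))⁻¹ x ∈ m3K N α := by
    refine ⟨xx_inv hx.1 s0 t0, inv_mul_cancel₀ hx.2.1, inv_mul_cancel₀ hx.2.2, fun l => ?_,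
      fun k => ?_⟩
    · have := h1 l
      rwa [mu, div_eq_inv_mul] at this
    · have := h2 k
      rwa [et, div_eq_inv_mul] at this
  have hq : ∀ u, qc N α (sc (x.1 α.2)⁻¹ (x.2 (ix α.1 α.2))⁻¹ x) u = qc N α x u := fun u => by
    obtain ⟨e1, e2, e3⟩ := rep_sc (x := x) α s0 t0
    unfold qc
    rw [e1, e2, e3]
  have key := hK α _ hm
  simp only [hq, hh.inv α x hx _ _ s0 t0] at key
  rcases eq_or_ne v 0 with rfl | hv
  · have : dn (h α x) 0 = 0 := by simp [dn]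
    rw [this]
    positivity
  have n0 : 0 < ‖v‖ := norm_pos_iff.2 hv
  have e : v = (‖v‖ : ℂ) • ((‖v‖ : ℂ)⁻¹ • v) := by
    rw [smul_smul, mul_inv_cancel₀ (by exact_mod_cast n0.ne'), one_smul]
  have a := key ((‖v‖ : ℂ)⁻¹ • v) (by
    rw [mem_sphere_zero_iff_norm, norm_smul, norm_inv, Complex.norm_real, norm_norm,
      inv_mul_cancel₀ n0.ne'])
  rw [e, (dn_herm (hh.pos α x hx)).smul, qc_smul, norm_smul, norm_pow, mul_left_comm]
  exact mul_le_mul_of_nonneg_left a (by positivity)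

end Vale.Agent.P296
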