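import Vale.Agent.P296.M3

namespace Vale.Agent.P296

open Matrix Filter Topology MeasureTheory Metric Laplacian ComplexOrder

theorem m4_q {N : ℕ} {x : P6} (h0 : x.2.1 0 ≠ 0) (v : Fin 2 → ℂ) :
    qc N (0, 0) (pt N ((1, x.1), x.2)) ![x.2.1 0 * v 0, x.2.1 0 ^ (N + 1) * v 1] =
      x.2.1 0 ^ 2 • q0 N x v := by
  have hO : pt N ((1, x.1), x.2) ∈ OO (0, 0) := ⟨h0, by simp [pt, ix, h0]⟩
  obtain ⟨-, -, h1, h2, h3⟩ := rep_pt hO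
  have hp : pw N (mu (0, 0) (pt N ((1, x.1), x.2))) = (x.2.1 0 ^ (2 * N))⁻¹ • pw N x.2.1 := by
    ext l
    simp only [pw, h2, Pi.smul_apply, smul_eq_mul, div_pow]
    field_simp
  have hN : x.2.1 0 ^ N ≠ 0 := pow_ne_zero _ h0
  ext k
  simp only [qc, if_true, h1, h3, hp, q0, qv, C0, Dm_smul, Pi.smul_apply, smul_eq_mul,
    Matrix.smul_apply,
    cons_val_zero, cons_val_one, div_one, one_mul, pow_succ _ N, pow_mul' _ 2 N]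
  fin_cases k <;> simp [B0] <;> field_simp

theorem hf_bd {N : ℕ} {h : Fin 2 × Fin 3 → V × Zc → M2} (hh : HMetric (XX N) OO (TT N) h) :
    ∃ K, ∀ x ∈ Z0 N, ∀ v, Hf N h x v ≤ K * ‖x.2.1‖ ^ 2 * ‖q0 N x v‖ := by
  obtain ⟨K, hK⟩ := dn_bd hh
  refine ⟨|K|, fun x hx v => ?_⟩
  have h0 : x.2.1 0 ≠ 0 := hx.2
  have hX : pt N ((1, x.1), x.2) ∈ XX N :=
    pt_mem (fun e => one_ne_zero (congrArg Prod.fst e)) (fun e => h0 (congrFun e 0)) hx.1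
  have hO : pt N ((1, x.1), x.2) ∈ OO (0, 0) := ⟨h0, by simp [pt, ix, h0]⟩
  obtain ⟨α, hα, hm, he⟩ := xx_cover hX
  have hT : (TT N (0, 0) α (pt N ((1, x.1), x.2))).det ≠ 0 := by
    have e := (bundle N).coc (0, 0) α (0, 0) _ ⟨⟨⟨hX, hO⟩, hα⟩, hO⟩
    rw [(bundle N).one _ _ ⟨hX, hO⟩] at e
    exact (isUnit_det_of_right_inverse e).ne_zero
  have e1 := dn_comp (hh.pos _ _ ⟨hX, hO⟩) hT ![x.2.1 0 * v 0, x.2.1 0 ^ (N + 1) * v 1]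
  rw [← hh.comp _ _ _ ⟨⟨hX, hO⟩, hα⟩] at e1
  have e2 := hK α _ ⟨hX, hα⟩ hm he ((TT N (0, 0) α (pt N ((1, x.1), x.2)))ᵀ *ᵥ
    ![x.2.1 0 * v 0, x.2.1 0 ^ (N + 1) * v 1])
  rw [e1, qc_comp ⟨⟨hX, hO⟩, hα⟩, m4_q h0, (rep_pt hO).2.2.2.1, smul_smul, ← mul_pow,
    div_mul_cancel₀ _ h0, norm_smul, norm_pow] at e2
  refine e2.trans ?_
  rw [mul_assoc]
  gcongr
  · exact le_abs_self K
  · exact norm_le_pi_norm _ _

end Vale.Agent.P296
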