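import Vale.Agent.P296.Alg0
import Vale.Agent.P296.Def2

namespace Vale.Agent.P296

open Matrix Filter Topology MeasureTheory Metric Laplacian ComplexOrder

theorem N2_all {x y z : ℂ}
    (q0 : x * ((-3) * x + (4) * y + (8) * z) + y * ((4) * x + (-5) * y + (-10) * z) + z * ((8) * x + (-10) * y + (4) * z) = 0)
    (q1 : x * ((-3) * x + (4) * y + (2) * z) + y * ((4) * x + (-10) * y + (-7) * z) + z * ((2) * x + (-7) * y + (-10) * z) = 0)
    (q2 : x * ((-6) * x + (0) * y + (-6) * z) + y * ((0) * x + (3) * y + (-1) * z) + z * ((-6) * x + (-1) * y + (-6) * z) = 0)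
    : x = 0 ∧ y = 0 ∧ z = 0 := by
  refine ⟨?_, ?_, ?_⟩
  · refine pow_eq_zero_iff (n := 4) (by norm_num) |>.1 ?_
    linear_combination ((13984155389/21720889776) * x ^ 2 + (-707605135/905037074) * x * y + (-601856815/2715111222) * x * z + (-4789842797/21720889776) * y ^ 2 + (-221866110/452518537) * y * z) * q0 +
      ((-29991329843/21720889776) * x ^ 2 + (960910829/2715111222) * x * y + (-1515783595/2715111222) * x * z + (10045604425/21720889776) * y ^ 2 + (-88746444/452518537) * y * z) * q1 +
      ((4383438931/21720889776) * x ^ 2 + (-3642077/4738414) * x * y + (2125068115/2715111222) * x * z + (25502276755/21720889776) * y ^ 2) * q2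
  · refine pow_eq_zero_iff (n := 4) (by norm_num) |>.1 ?_
    linear_combination ((731048451/7240296592) * x ^ 2 + (80652381/905037074) * x * y + (103742175/905037074) * x * z + (358858445/7240296592) * y ^ 2 + (12603610/452518537) * y * z) * q0 +
      ((-568395261/7240296592) * x ^ 2 + (-70486509/905037074) * x * y + (-81956277/905037074) * x * z + (-726539417/7240296592) * y ^ 2 + (5041444/452518537) * y * z) * q1 +
      ((-81326595/7240296592) * x ^ 2 + (115319/4738414) * x * y + (205755245/905037074) * x * z + (589731549/7240296592) * y ^ 2) * q2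
  · refine pow_eq_zero_iff (n := 4) (by norm_num) |>.1 ?_
    linear_combination ((2012709975/57922372736) * x ^ 2 + (-1039487407/7240296592) * x * y + (-734115653/7240296592) * x * z + (11176782145/57922372736) * y ^ 2 + (139701590/452518537) * y * z + (1/4) * z ^ 2) * q0 +
      ((-923255625/57922372736) * x ^ 2 + (1050910447/7240296592) * x * y + (2777356271/7240296592) * x * z + (-6392707325/57922372736) * y ^ 2 + (-340757265/905037074) * y * z) * q1 +
      ((-544727175/57922372736) * x ^ 2 + (920755/37907312) * x * y + (-291473159/7240296592) * x * z + (-2681054175/57922372736) * y ^ 2) * q2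

theorem N2_one0 {x y z : ℂ}
    (h0 : ((-3) * x + (4) * y + (8) * z) = 0)
    (h1 : ((4) * x + (-5) * y + (-10) * z) = 0)
    (h2 : ((8) * x + (-10) * y + (4) * z) = 0)
    : x = 0 ∧ y = 0 ∧ z = 0 := by
  refine ⟨?_, ?_, ?_⟩
  · linear_combination ((5)) * h0 +
      ((4)) * h1
  · linear_combination ((4)) * h0 +
      ((19/6)) * h1 +
      ((-1/12)) * h2
  · linear_combination ((-1/12)) * h1 +
      ((1/24)) * h2

theorem N2_one1 {x y z : ℂ}
    (h0 : ((-3) * x + (4) * y + (2) * z) = 0)
    (h1 : ((4) * x + (-10) * y + (-7) * z) = 0)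
    (h2 : ((2) * x + (-7) * y + (-10) * z) = 0)
    : x = 0 ∧ y = 0 ∧ z = 0 := by
  refine ⟨?_, ?_, ?_⟩
  · linear_combination ((-51/65)) * h0 +
      ((-2/5)) * h1 +
      ((8/65)) * h2
  · linear_combination ((-2/5)) * h0 +
      ((-2/5)) * h1 +
      ((1/5)) * h2
  · linear_combination ((8/65)) * h0 +
      ((1/5)) * h1 +
      ((-14/65)) * h2

theorem N2_one2 {x y z : ℂ}
    (h0 : ((-6) * x + (0) * y + (-6) * z) = 0)
    (h1 : ((0) * x + (3) * y + (-1) * z) = 0)
    (h2 : ((-6) * x + (-1) * y + (-6) * z) = 0)
    : x = 0 ∧ y = 0 ∧ z = 0 := by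
  refine ⟨?_, ?_, ?_⟩
  · linear_combination ((-19/6)) * h0 +
      ((1)) * h1 +
      ((3)) * h2
  · linear_combination ((1)) * h0 +
      ((-1)) * h2
  · linear_combination ((3)) * h0 +
      ((-1)) * h1 +
      ((-3)) * h2

theorem N2_two01 {x y z s t : ℂ} (hs : s ≠ 0)
    (h0 : s * ((-3) * x + (4) * y + (8) * z) + t * ((-3) * x + (4) * y + (2) * z) = 0)
    (h1 : s * ((4) * x + (-5) * y + (-10) * z) + t * ((4) * x + (-10) * y + (-7) * z) = 0)
    (h2 : s * ((8) * x + (-10) * y + (4) * z) + t * ((2) * x + (-7) * y + (-10) * z) = 0)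
    (qa : x * ((-3) * x + (4) * y + (8) * z) + y * ((4) * x + (-5) * y + (-10) * z) + z * ((8) * x + (-10) * y + (4) * z) = 0)
    (qb : x * ((-3) * x + (4) * y + (2) * z) + y * ((4) * x + (-10) * y + (-7) * z) + z * ((2) * x + (-7) * y + (-10) * z) = 0)
    : x = 0 ∧ y = 0 ∧ z = 0 := by
  have c0 : ((4) * x + (-5) * y + (-10) * z) * ((2) * x + (-7) * y + (-10) * z) -
      ((8) * x + (-10) * y + (4) * z) * ((4) * x + (-10) * y + (-7) * z) = 0 := by
    apply mul_left_cancel₀ hs
    linear_combination ((2) * x + (-7) * y + (-10) * z) * h1 - ((4) * x + (-10) * y + (-7) * z) * h2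
  have c1 : ((8) * x + (-10) * y + (4) * z) * ((-3) * x + (4) * y + (2) * z) -
      ((-3) * x + (4) * y + (8) * z) * ((2) * x + (-7) * y + (-10) * z) = 0 := by
    apply mul_left_cancel₀ hs
    linear_combination ((-3) * x + (4) * y + (2) * z) * h2 - ((2) * x + (-7) * y + (-10) * z) * h0
  have c2 : ((-3) * x + (4) * y + (8) * z) * ((4) * x + (-10) * y + (-7) * z) -
      ((4) * x + (-5) * y + (-10) * z) * ((-3) * x + (4) * y + (2) * z) = 0 := by
    apply mul_left_cancel₀ hs
    linear_combination ((4) * x + (-10) * y + (-7) * z) * h0 - ((-3) * x + (4) * y + (2) * z) * h1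
  refine ⟨?_, ?_, ?_⟩
  · refine pow_eq_zero_iff (n := 3) (by norm_num) |>.1 ?_
    linear_combination ((9014383205/24489175752) * x + (-54631123583/48978351504) * y + (-42966724717/48978351504) * z) * qa +
      ((-10509599659/12244587876) * x + (9824053705/16326117168) * y + (2253823487/2721019528) * z) * qb +
      ((1280585843/65304468672) * x + (37381981/24489175752) * y + (2256074713/24489175752) * z) * c0 +
      ((-8808550255/195913406016) * y) * c1
  · refine pow_eq_zero_iff (n := 3) (by norm_num) |>.1 ?_
    linear_combination ((104446797/1360509764) * x + (70022465/2721019528) * y + (536779971/2721019528) * z) * qa +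
      ((85116837/680254882) * x + (-1001780517/2721019528) * y + (499468135/1360509764) * z) * qb +
      ((-274680471/10884078112) * x + (60277537/1360509764) * y + (30633761/1360509764) * z) * c0 +
      ((-296468831/10884078112) * y) * c1
  · refine pow_eq_zero_iff (n := 3) (by norm_num) |>.1 ?_
    linear_combination ((-38482089/5442039056) * x + (265230387/10884078112) * y + (884609849/10884078112) * z) * qa +
      ((123099831/2721019528) * x + (-633938815/10884078112) * y + (-231218307/5442039056) * z) * qb +
      ((-207717573/43536312448) * x + (49989511/5442039056) * y + (10629971/5442039056) * z) * c0 +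
      ((-495133405/43536312448) * y) * c1

theorem N2_two02 {x y z s t : ℂ} (hs : s ≠ 0)
    (h0 : s * ((-3) * x + (4) * y + (8) * z) + t * ((-6) * x + (0) * y + (-6) * z) = 0)
    (h1 : s * ((4) * x + (-5) * y + (-10) * z) + t * ((0) * x + (3) * y + (-1) * z) = 0)
    (h2 : s * ((8) * x + (-10) * y + (4) * z) + t * ((-6) * x + (-1) * y + (-6) * z) = 0)
    (qa : x * ((-3) * x + (4) * y + (8) * z) + y * ((4) * x + (-5) * y + (-10) * z) + z * ((8) * x + (-10) * y + (4) * z) = 0)
    (qb : x * ((-6) * x + (0) * y + (-6) * z) + y * ((0) * x + (3) * y + (-1) * z) + z * ((-6) * x + (-1) * y + (-6) * z) = 0)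
    : x = 0 ∧ y = 0 ∧ z = 0 := by
  have c0 : ((4) * x + (-5) * y + (-10) * z) * ((-6) * x + (-1) * y + (-6) * z) -
      ((8) * x + (-10) * y + (4) * z) * ((0) * x + (3) * y + (-1) * z) = 0 := by
    apply mul_left_cancel₀ hs
    linear_combination ((-6) * x + (-1) * y + (-6) * z) * h1 - ((0) * x + (3) * y + (-1) * z) * h2
  have c1 : ((8) * x + (-10) * y + (4) * z) * ((-6) * x + (0) * y + (-6) * z) -
      ((-3) * x + (4) * y + (8) * z) * ((-6) * x + (-1) * y + (-6) * z) = 0 := by
    apply mul_left_cancel₀ hs
    linear_combination ((-6) * x + (0) * y + (-6) * z) * h2 - ((-6) * x + (-1) * y + (-6) * z) * h0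
  have c2 : ((-3) * x + (4) * y + (8) * z) * ((0) * x + (3) * y + (-1) * z) -
      ((4) * x + (-5) * y + (-10) * z) * ((-6) * x + (0) * y + (-6) * z) = 0 := by
    apply mul_left_cancel₀ hs
    linear_combination ((0) * x + (3) * y + (-1) * z) * h0 - ((-6) * x + (0) * y + (-6) * z) * h1
  refine ⟨?_, ?_, ?_⟩
  · refine pow_eq_zero_iff (n := 3) (by norm_num) |>.1 ?_
    linear_combination ((7605293389/17411794892) * x + (2959481965/26117692338) * y + (16734538687/34823589784) * z) * qa +
      ((7885685683/26117692338) * x + (-21789126511/34823589784) * y + (-10367369035/17411794892) * z) * qb +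
      ((-23923472597/139294359136) * x + (3185596177/52235384676) * y + (-1494895181/17411794892) * z) * c0 +
      ((32300045509/417883077408) * y) * c1
  · refine pow_eq_zero_iff (n := 3) (by norm_num) |>.1 ?_
    linear_combination ((4032893601/8705897446) * x + (651579075/4352948723) * y + (7716590703/17411794892) * z) * qa +
      ((1040861313/4352948723) * x + (-7000903111/17411794892) * y + (-1372324923/8705897446) * z) * qb +
      ((-8196338853/69647179568) * x + (681342201/8705897446) * y + (-369798921/8705897446) * z) * c0 +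
      ((3752131655/69647179568) * y) * c1
  · refine pow_eq_zero_iff (n := 3) (by norm_num) |>.1 ?_
    linear_combination ((-61817559/34823589784) * x + (1309299523/17411794892) * y + (-5113464185/69647179568) * z) * qa +
      ((-2905591947/17411794892) * x + (14327588025/69647179568) * y + (15004169353/34823589784) * z) * qb +
      ((11684185347/278588718272) * x + (-162893093/34823589784) * y + (2110555223/34823589784) * z) * c0 +
      ((-5394257105/278588718272) * y) * c1

theorem N2_two12 {x y z s t : ℂ} (hs : s ≠ 0)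
    (h0 : s * ((-3) * x + (4) * y + (2) * z) + t * ((-6) * x + (0) * y + (-6) * z) = 0)
    (h1 : s * ((4) * x + (-10) * y + (-7) * z) + t * ((0) * x + (3) * y + (-1) * z) = 0)
    (h2 : s * ((2) * x + (-7) * y + (-10) * z) + t * ((-6) * x + (-1) * y + (-6) * z) = 0)
    (qa : x * ((-3) * x + (4) * y + (2) * z) + y * ((4) * x + (-10) * y + (-7) * z) + z * ((2) * x + (-7) * y + (-10) * z) = 0)
    (qb : x * ((-6) * x + (0) * y + (-6) * z) + y * ((0) * x + (3) * y + (-1) * z) + z * ((-6) * x + (-1) * y + (-6) * z) = 0)
    : x = 0 ∧ y = 0 ∧ z = 0 := by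
  have c0 : ((4) * x + (-10) * y + (-7) * z) * ((-6) * x + (-1) * y + (-6) * z) -
      ((2) * x + (-7) * y + (-10) * z) * ((0) * x + (3) * y + (-1) * z) = 0 := by
    apply mul_left_cancel₀ hs
    linear_combination ((-6) * x + (-1) * y + (-6) * z) * h1 - ((0) * x + (3) * y + (-1) * z) * h2
  have c1 : ((2) * x + (-7) * y + (-10) * z) * ((-6) * x + (0) * y + (-6) * z) -
      ((-3) * x + (4) * y + (2) * z) * ((-6) * x + (-1) * y + (-6) * z) = 0 := by
    apply mul_left_cancel₀ hs
    linear_combination ((-6) * x + (0) * y + (-6) * z) * h2 - ((-6) * x + (-1) * y + (-6) * z) * h0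
  have c2 : ((-3) * x + (4) * y + (2) * z) * ((0) * x + (3) * y + (-1) * z) -
      ((4) * x + (-10) * y + (-7) * z) * ((-6) * x + (0) * y + (-6) * z) = 0 := by
    apply mul_left_cancel₀ hs
    linear_combination ((0) * x + (3) * y + (-1) * z) * h0 - ((-6) * x + (0) * y + (-6) * z) * h1
  refine ⟨?_, ?_, ?_⟩
  · refine pow_eq_zero_iff (n := 3) (by norm_num) |>.1 ?_
    linear_combination ((-88256135/143184146) * x + (-910281413/2147762190) * y + (-665324533/1431841460) * z) * qa +
      ((270456493/2147762190) * x + (-1349802691/4295524380) * y + (26736967/286368292) * z) * qb +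
      ((22336103/5727365840) * x + (-238341217/2147762190) * y + (-18284801/143184146) * z) * c0 +
      ((620935267/17182097520) * y) * c1
  · refine pow_eq_zero_iff (n := 3) (by norm_num) |>.1 ?_
    linear_combination ((-16038585/71592073) * x + (-62414463/357960365) * y + (-132805809/715920730) * z) * qa +
      ((-17483967/357960365) * x + (200218159/715920730) * y + (33301659/143184146) * z) * qb +
      ((115160859/2863682920) * x + (-18770442/357960365) * y + (-1028151/71592073) * z) * c0 +
      ((30744397/2863682920) * y) * c1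
  · refine pow_eq_zero_iff (n := 3) (by norm_num) |>.1 ?_
    linear_combination ((12472017/286368292) * x + (168889319/1431841460) * y + (-92591783/2863682920) * z) * qa +
      ((-100094349/1431841460) * x + (434631733/2863682920) * y + (45995041/572736584) * z) * qb +
      ((137828613/11454731680) * x + (39459691/1431841460) * y + (10367551/286368292) * z) * c0 +
      ((-372609661/11454731680) * y) * c1

theorem net_n1 {l n : V} (h : Dm l *ᵥ n = 0) (hn : n ≠ 0) (hl : l ≠ 0)
    (hj : ∀ j, l j * bil (Dj j) n n = 0) : False := by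
  have h0 := congrFun h 0
  have h1 := congrFun h 1
  have h2 := congrFun h 2
  have q0 := hj 0
  have q1 := hj 1
  have q2 := hj 2
  simp only [Dm, D0, D1, D2, Dj, bil, mulVec, dotProduct, Fin.sum_univ_three, Matrix.add_apply,
    Matrix.smul_apply, of_apply, cons_val', cons_val_zero, cons_val_one, cons_val_two,
    cons_val_fin_one, smul_eq_mul, Pi.zero_apply, Nat.succ_eq_add_one, Nat.reduceAdd, tail_cons,
    head_cons, head_fin_const, empty_val', cons_val] at h0 h1 h2 q0 q1 q2
  apply hn
  suffices hs : n 0 = 0 ∧ n 1 = 0 ∧ n 2 = 0 by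
    obtain ⟨e0, e1, e2⟩ := hs
    ext i
    fin_cases i <;> assumption
  have c : ∀ {s p q : ℂ}, s ≠ 0 → s * p = 0 → q = p → q = 0 := fun hs hp hq =>
    hq ▸ (mul_eq_zero.1 hp).resolve_left hs
  by_cases a0 : l 0 = 0 <;> by_cases a1 : l 1 = 0 <;> by_cases a2 : l 2 = 0
  · exact absurd (by ext i; fin_cases i <;> assumption) hl
  · rw [a0, a1] at h0 h1 h2
    refine N2_one2 ?_ ?_ ?_ <;> apply mul_left_cancel₀ a2
    · linear_combination h0
    · linear_combination h1
    · linear_combination h2
  · rw [a0, a2] at h0 h1 h2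
    refine N2_one1 ?_ ?_ ?_ <;> apply mul_left_cancel₀ a1
    · linear_combination h0
    · linear_combination h1
    · linear_combination h2
  · rw [a0] at h0 h1 h2
    exact N2_two12 (t := l 2) a1 (by linear_combination h0) (by linear_combination h1)
      (by linear_combination h2) (c a1 q1 (by ring)) (c a2 q2 (by ring))
  · rw [a1, a2] at h0 h1 h2
    refine N2_one0 ?_ ?_ ?_ <;> apply mul_left_cancel₀ a0
    · linear_combination h0
    · linear_combination h1
    · linear_combination h2
  · rw [a1] at h0 h1 h2
    exact N2_two02 (t := l 2) a0 (by linear_combination h0) (by linear_combination h1)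
      (by linear_combination h2) (c a0 q0 (by ring)) (c a2 q2 (by ring))
  · rw [a2] at h0 h1 h2
    exact N2_two01 (t := l 1) a0 (by linear_combination h0) (by linear_combination h1)
      (by linear_combination h2) (c a0 q0 (by ring)) (c a1 q1 (by ring))
  · exact N2_all (c a0 q0 (by ring)) (c a1 q1 (by ring)) (c a2 q2 (by ring))

end Vale.Agent.P296
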