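import Vale.Agent.P296.Alg0

namespace Vale.Agent.P296

open Matrix Filter Topology MeasureTheory Metric Laplacian ComplexOrder

/-- polynomial functions -/
def sigP (f : ℂ → ℂ) : Prop := ∃ p : Polynomial ℂ, ∀ s, f s = p.eval s

theorem sigP_const (c : ℂ) : sigP fun _ => c := ⟨Polynomial.C c, by simp⟩

theorem sigP_id : sigP fun s => s := ⟨Polynomial.X, by simp⟩

theorem sigP_add {f g : ℂ → ℂ} (hf : sigP f) (hg : sigP g) : sigP fun s => f s + g s := by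
  obtain ⟨p, hp⟩ := hf
  obtain ⟨q, hq⟩ := hg
  exact ⟨p + q, by simp [hp, hq]⟩

theorem sigP_mul {f g : ℂ → ℂ} (hf : sigP f) (hg : sigP g) : sigP fun s => f s * g s := by
  obtain ⟨p, hp⟩ := hf
  obtain ⟨q, hq⟩ := hg
  exact ⟨p * q, by simp [hp, hq]⟩

theorem sigP_sub {f g : ℂ → ℂ} (hf : sigP f) (hg : sigP g) : sigP fun s => f s - g s := by
  obtain ⟨p, hp⟩ := hf
  obtain ⟨q, hq⟩ := hg
  exact ⟨p - q, by simp [hp, hq]⟩

theorem sigP_neg {f : ℂ → ℂ} (hf : sigP f) : sigP fun s => -f s := by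
  obtain ⟨p, hp⟩ := hf
  exact ⟨-p, by simp [hp]⟩

theorem sigP_pow {f : ℂ → ℂ} (hf : sigP f) (n : ℕ) : sigP fun s => f s ^ n := by
  obtain ⟨p, hp⟩ := hf
  exact ⟨p ^ n, by simp [hp]⟩

theorem sigP_div {f : ℂ → ℂ} (hf : sigP f) (c : ℂ) : sigP fun s => f s / c := by
  simp only [div_eq_mul_inv]
  exact sigP_mul hf (sigP_const _)

theorem sigP_disc4 {a b c d e : ℂ → ℂ} (ha : sigP a) (hb : sigP b) (hc : sigP c) (hd : sigP d)
    (he : sigP e) : sigP fun s => disc4 (a s) (b s) (c s) (d s) (e s) :=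
  sigP_sub (sigP_pow (sigP_add (sigP_sub (sigP_mul ha he) (sigP_mul (sigP_mul (sigP_const _) hb) hd))
      (sigP_mul (sigP_const _) (sigP_pow hc 2))) 3)
    (sigP_mul (sigP_const _) (sigP_pow (sigP_sub (sigP_sub (sigP_sub (sigP_add
      (sigP_mul (sigP_mul ha hc) he) (sigP_mul (sigP_mul (sigP_mul (sigP_const _) hb) hc) hd))
      (sigP_mul ha (sigP_pow hd 2))) (sigP_mul (sigP_pow hb 2) he)) (sigP_pow hc 3)) 2))

theorem sigP_gd {l : ℂ → V} (hl : ∀ j, sigP fun s => l s j) : sigP fun s => gd (l s) := by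
  have hD : ∀ i j, sigP fun s => Dm (l s) i j := fun i j =>
    sigP_add (sigP_add (sigP_mul (hl 0) (sigP_const (D0 i j))) (sigP_mul (hl 1) (sigP_const (D1 i j))))
      (sigP_mul (hl 2) (sigP_const (D2 i j)))
  have hdet : sigP fun s => (Dm (l s)).det := by
    simp only [det_fin_three]
    exact sigP_sub (sigP_add (sigP_add (sigP_sub (sigP_sub
      (sigP_mul (sigP_mul (hD _ _) (hD _ _)) (hD _ _))
      (sigP_mul (sigP_mul (hD _ _) (hD _ _)) (hD _ _)))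
      (sigP_mul (sigP_mul (hD _ _) (hD _ _)) (hD _ _)))
      (sigP_mul (sigP_mul (hD _ _) (hD _ _)) (hD _ _)))
      (sigP_mul (sigP_mul (hD _ _) (hD _ _)) (hD _ _)))
      (sigP_mul (sigP_mul (hD _ _) (hD _ _)) (hD _ _))
  exact sigP_mul (sigP_mul (sigP_mul (sigP_mul (sigP_mul (hl 0) (hl 1)) (hl 2)) hdet)
    (sigP_sub (sigP_mul (hD _ _) (hD _ _)) (sigP_pow (hD _ _) 2)))
    (sigP_disc4 (hD _ _) (sigP_neg (hD _ _))
      (sigP_div (sigP_add (hD _ _) (sigP_mul (sigP_const _) (hD _ _))) 3) (sigP_neg (hD _ _))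
      (hD _ _))

theorem sigP_Lam (y : ℂ × ℂ) (j : Fin 3) : sigP fun s => Lam y s j := by
  have h : ∀ s, Lam y s j = (Ry y).adjugate j 0 + (Ry y).adjugate j 1 * s +
      (Ry y).adjugate j 2 * s ^ 2 := fun s => by
    simp [Lam, mulVec, dotProduct, Fin.sum_univ_three]
  simp only [h]
  exact sigP_add (sigP_add (sigP_const _) (sigP_mul (sigP_const _) sigP_id))
    (sigP_mul (sigP_const _) (sigP_pow sigP_id 2))

theorem sig_norm (y : ℂ × ℂ) : ∃ C, 0 ≤ C ∧ ∀ s, ‖Lam y s‖ ≤ C * (1 + ‖s‖) ^ 2 := by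
  let L := LinearMap.toContinuousLinearMap (Matrix.mulVecLin (Ry y).adjugate)
  refine ⟨‖L‖, norm_nonneg _, fun s => ?_⟩
  have h1 : ‖(![1, s, s ^ 2] : V)‖ ≤ (1 + ‖s‖) ^ 2 := by
    have := norm_nonneg s
    refine (pi_norm_le_iff_of_nonneg (by positivity)).2 fun i => ?_
    fin_cases i
    · change ‖(1 : ℂ)‖ ≤ _
      rw [norm_one]
      nlinarith
    · change ‖s‖ ≤ _
      nlinarith
    · change ‖s ^ 2‖ ≤ _
      rw [norm_pow]
      nlinarith
  exact (L.le_opNorm _).trans (mul_le_mul_of_nonneg_left h1 (norm_nonneg _))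
theorem si_of_gi {N : ℕ} {G : V → V → ℝ} (h : GI N G) {y : ℂ × ℂ} (hy : (Ry y).det ≠ 0) {s₁ : ℂ}
    (hs : gd (Lam y s₁) ≠ 0) :
    SI (fun s => G (Lam y s) (Yp y)) {s | gd (Lam y s) = 0} (2 / (N : ℝ)) := by
  refine ⟨?_, ?_, fun z hz => ?_, ?_, fun z hz => h.nm y z hy hz⟩
  · obtain ⟨p, hp⟩ := sigP_gd (sigP_Lam y)
    have hp0 : p ≠ 0 := by
      rintro rfl
      exact hs (by simpa using hp s₁)
    refine (Polynomial.finite_setOfPred_isRoot hp0).subset fun s hs => ?_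
    exact (hp s).symm.trans hs
  · exact h.cont.comp (f := fun s => (y, s)) (by fun_prop) fun s hs => ⟨hy, hs⟩
  · have h1 := (h.herm _ _ _ _ _ hz (gramY hy (Ry_Lam y z))).2 ![1, 0] (by simp)
    have h2 : ∀ A B C : V, qv A B C ![1, 0] = A := fun A B C => by
      funext k
      simp [qv]
    rwa [h2] at h1
  · obtain ⟨K, hK⟩ := h.bd
    obtain ⟨C, hC, hC'⟩ := sig_norm y
    refine ⟨|K| * C ^ (1 / (N : ℝ)) * ‖Yp y‖, fun z hz => (hK y z hy hz).trans ?_⟩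
    have h0 : (0 : ℝ) ≤ 1 + ‖z‖ := by positivity
    have h1 : ‖Lam y z‖ ^ (1 / (N : ℝ)) ≤ C ^ (1 / (N : ℝ)) * (1 + ‖z‖) ^ (2 / (N : ℝ)) := by
      refine (Real.rpow_le_rpow (norm_nonneg _) (hC' z) (by positivity)).trans_eq ?_
      rw [Real.mul_rpow hC (by positivity), ← Real.rpow_natCast, ← Real.rpow_mul h0]
      congr 2
      push_cast
      ring
    calc K * ‖Lam y z‖ ^ (1 / (N : ℝ)) * ‖Yp y‖
        ≤ |K| * (C ^ (1 / (N : ℝ)) * (1 + ‖z‖) ^ (2 / (N : ℝ))) * ‖Yp y‖ := by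
          gcongr
          exact le_abs_self K
      _ = _ := by ring

end Vale.Agent.P296
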