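import Vale.Agent.P296.PL
import Vale.Agent.P296.SIG

namespace Vale.Agent.P296

open Matrix Filter Topology MeasureTheory Metric Laplacian ComplexOrder

theorem pb_rad {w₀ : Pm} (h : Nd w₀) {W : Set Pm} (hW : W ∈ 𝓝 w₀) :
    ∃ r m M : ℝ, 0 < r ∧ r ≤ 1 ∧ 0 < m ∧ m ≤ M ∧ ∀ w ∈ ball w₀ r, w ∈ W ∧ (Ry w.1.1).det ≠ 0 ∧
      gd (Lam w.1.1 w.2.1) ≠ 0 ∧ gd (Lam w.1.1 w.2.2) ≠ 0 ∧ m ≤ ‖w.1.2.1‖ ∧ ‖w.1.2.1‖ ≤ M ∧
      m ≤ ‖w.1.2.2‖ ∧ ‖w.1.2.2‖ ≤ M := by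
  obtain ⟨h1, -, h3, h4, h5, h6⟩ := h
  have c1 : Continuous fun w : Pm => (Ry w.1.1).det := cont_detRy.comp (by fun_prop)
  have c2 : Continuous fun w : Pm => gd (Lam w.1.1 w.2.1) :=
    cont_gd.comp (cont_Lam.comp (f := fun w : Pm => (w.1.1, w.2.1)) (by fun_prop))
  have c3 : Continuous fun w : Pm => gd (Lam w.1.1 w.2.2) :=
    cont_gd.comp (cont_Lam.comp (f := fun w : Pm => (w.1.1, w.2.2)) (by fun_prop))
  have c4 : Continuous fun w : Pm => ‖w.1.2.1‖ := by fun_prop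
  have c5 : Continuous fun w : Pm => ‖w.1.2.2‖ := by fun_prop
  have n3 := norm_pos_iff.2 h3
  have n4 := norm_pos_iff.2 h4
  obtain ⟨m, hm⟩ : ∃ m, m = min ‖w₀.1.2.1‖ ‖w₀.1.2.2‖ / 2 := ⟨_, rfl⟩
  have m0 : 0 < min ‖w₀.1.2.1‖ ‖w₀.1.2.2‖ := lt_min n3 n4
  have m1 := min_le_left ‖w₀.1.2.1‖ ‖w₀.1.2.2‖
  have m2 := min_le_right ‖w₀.1.2.1‖ ‖w₀.1.2.2‖
  obtain ⟨M, hM⟩ : ∃ M, M = ‖w₀.1.2.1‖ + ‖w₀.1.2.2‖ := ⟨_, rfl⟩
  have e : ∀ᶠ w in 𝓝 w₀, w ∈ W ∧ (Ry w.1.1).det ≠ 0 ∧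
      gd (Lam w.1.1 w.2.1) ≠ 0 ∧ gd (Lam w.1.1 w.2.2) ≠ 0 ∧ m ≤ ‖w.1.2.1‖ ∧ ‖w.1.2.1‖ ≤ M ∧
      m ≤ ‖w.1.2.2‖ ∧ ‖w.1.2.2‖ ≤ M := by
    filter_upwards [hW, c1.continuousAt.eventually_ne h1, c2.continuousAt.eventually_ne h5,
      c3.continuousAt.eventually_ne h6,
      c4.continuousAt.eventually (le_mem_nhds (show m < ‖w₀.1.2.1‖ by linarith)),
      c4.continuousAt.eventually (ge_mem_nhds (show ‖w₀.1.2.1‖ < M by linarith)),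
      c5.continuousAt.eventually (le_mem_nhds (show m < ‖w₀.1.2.2‖ by linarith)),
      c5.continuousAt.eventually (ge_mem_nhds (show ‖w₀.1.2.2‖ < M by linarith))]
      with w a1 a2 a3 a4 a5 a6 a7 a8
    exact ⟨a1, a2, a3, a4, a5, a6, a7, a8⟩
  obtain ⟨r, r0, hr⟩ := Metric.eventually_nhds_iff_ball.1 e
  exact ⟨min r 1, m, M, lt_min r0 one_pos, min_le_right _ _, by linarith, by linarith,
    fun w hw => hr w (ball_subset_ball (min_le_left _ _) hw)⟩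

theorem pb_open {U : Set Pm} (hU : IsOpen U) {f g : Pm → ℝ} (hf : ContinuousOn f U)
    (hg : ContinuousOn g U) (c : ℝ) : IsOpen {w | w ∈ U ∧ ¬(f w ≤ c * g w ∧ g w ≤ c * f w)} := by
  have h1 := ((hf.sub ((continuousOn_const (c := c)).mul hg)).isOpen_inter_preimage hU
    (isOpen_Ioi (a := (0 : ℝ)))).union
    ((hg.sub ((continuousOn_const (c := c)).mul hf)).isOpen_inter_preimage hU
      (isOpen_Ioi (a := (0 : ℝ))))
  convert h1 using 1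
  ext w
  simp only [Set.mem_setOf_eq, Set.mem_union, Set.mem_inter_iff, Set.mem_preimage, Set.mem_Ioi,
    sub_pos, not_and_or, not_le, and_or_left, Pi.sub_apply, Pi.mul_apply]

theorem pb_vol {B : Set Pm} (hB : MeasurableSet B) {x₀ : (ℂ × ℂ) × (ℂ × ℂ)} {r a : ℝ} (ha : 0 ≤ a)
    (h1 : ∀ w ∈ B, w.1 ∈ ball x₀ r)
    (h2 : ∀ x ∈ ball x₀ r, volume (Prod.mk x ⁻¹' B) ≤ ENNReal.ofReal a) :
    volume B ≤ ENNReal.ofReal (a * (volume (ball x₀ r)).toReal) := by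
  rw [Measure.volume_eq_prod, Measure.prod_apply hB, ENNReal.ofReal_mul ha,
    ENNReal.ofReal_toReal measure_ball_lt_top.ne, ← lintegral_indicator_const measurableSet_ball]
  refine lintegral_mono fun x => ?_
  by_cases hx : x ∈ ball x₀ r
  · rw [Set.indicator_of_mem hx]
    exact h2 x hx
  · have e : Prod.mk x ⁻¹' B = ∅ := Set.eq_empty_of_forall_notMem fun s hs => hx (h1 _ hs)
    rw [e, measure_empty]
    exact zero_le

theorem pb_cmp {a b g1 g2 c m M e : ℝ} (he : 0 ≤ e) (hm : 0 < m) (hc : 0 ≤ c) (ha : 0 ≤ a)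
    (h1 : a ≤ M) (h2 : m ≤ b) (h3 : M ^ e ≤ c * m ^ e) (h4 : 0 ≤ g2) (h5 : g1 ≤ c * g2) :
    a ^ e * g1 ≤ c ^ 2 * (b ^ e * g2) := by
  have k1 : a ^ e ≤ c * b ^ e := (Real.rpow_le_rpow ha h1 he).trans
    (h3.trans (mul_le_mul_of_nonneg_left (Real.rpow_le_rpow hm.le h2 he) hc))
  calc a ^ e * g1 ≤ a ^ e * (c * g2) := mul_le_mul_of_nonneg_left h5 (Real.rpow_nonneg ha e)
    _ ≤ (c * b ^ e) * (c * g2) := mul_le_mul_of_nonneg_right k1 (mul_nonneg hc h4)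
    _ = _ := by ring

theorem pb {w₀ : Pm} (h : Nd w₀) {δ : ℝ} (hδ : 0 < δ) {W : Set Pm} (hW : W ∈ 𝓝 w₀) :
    ∃ W' ∈ 𝓝 w₀, W' ⊆ W ∧ ∀ θ : ℝ, 0 < θ → ∀ᶠ N : ℕ in atTop, ∀ G, GI N G →
      ∃ B : Set Pm, MeasurableSet B ∧ B ⊆ closedBall w₀ 1 ∧ volume B ≤ ENNReal.ofReal θ ∧
        ∀ w ∈ W', w ∉ B → Cmp G δ w := by
  obtain ⟨r, m, M, r0, r1, m0, mM, hr⟩ := pb_rad h hW
  have R0 : 0 < ‖w₀.2.1 - w₀.2.2‖ := norm_pos_iff.2 (sub_ne_zero.2 h.2.1)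
  obtain ⟨ρ, hρ⟩ : ∃ ρ, ρ = min (r / 3) (‖w₀.2.1 - w₀.2.2‖ / 4) := ⟨_, rfl⟩
  have ρ0 : 0 < ρ := by rw [hρ]; positivity
  have ρ1 : ρ ≤ r / 3 := hρ ▸ min_le_left _ _
  have ρ2 : ρ ≤ ‖w₀.2.1 - w₀.2.2‖ / 4 := hρ ▸ min_le_right _ _
  obtain ⟨d, hd⟩ : ∃ d, d = √(1 + δ) - 1 := ⟨_, rfl⟩
  have d0 : 0 < d := by
    rw [hd, sub_pos]
    exact Real.lt_sqrt_of_sq_lt (by linarith)
  have d1 : (1 + d) ^ 2 = 1 + δ := by
    rw [hd, add_sub_cancel, Real.sq_sqrt (by linarith)]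
  obtain ⟨C, hC⟩ := pairL (R := ‖w₀.2.1 - w₀.2.2‖) ρ0 d0
  have hsub : ball w₀ (ρ / 4) ⊆ ball w₀ r := ball_subset_ball (by linarith)
  refine ⟨ball w₀ (ρ / 4), ball_mem_nhds _ (by linarith), fun w hw => (hr w (hsub hw)).1,
    fun θ hθ => ?_⟩
  have t1 : Tendsto (fun N : ℕ => |C| * (2 / (N : ℝ)) * (volume (ball w₀.1 (ρ / 4))).toReal)
      atTop (𝓝 (|C| * 0 * (volume (ball w₀.1 (ρ / 4))).toReal)) :=
    ((tendsto_const_div_atTop_nhds_zero_nat 2).const_mul _).mul_const _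
  have t2 : Tendsto (fun N : ℕ => (M / m) ^ (1 / (N : ℝ))) atTop (𝓝 ((M / m) ^ (0 : ℝ))) :=
    tendsto_const_nhds.rpow (tendsto_const_div_atTop_nhds_zero_nat 1)
      (Or.inl (div_pos (by linarith) m0).ne')
  rw [mul_zero, zero_mul] at t1
  rw [Real.rpow_zero] at t2
  filter_upwards [t1.eventually (ge_mem_nhds hθ),
    t2.eventually (ge_mem_nhds (show (1 : ℝ) < 1 + d by linarith))] with N e1 e2 G hG
  have e3 : M ^ (1 / (N : ℝ)) ≤ (1 + d) * m ^ (1 / (N : ℝ)) := by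
    rwa [Real.div_rpow (by linarith) m0.le, div_le_iff₀ (Real.rpow_pos_of_pos m0 _)] at e2
  have g1 : ContinuousOn (fun w : Pm => G (Lam w.1.1 w.2.1) (Yp w.1.1)) (ball w₀ (ρ / 4)) :=
    hG.cont.comp (f := fun w : Pm => (w.1.1, w.2.1)) (by fun_prop) fun w hw =>
      ⟨(hr w (hsub hw)).2.1, (hr w (hsub hw)).2.2.1⟩
  have g2 : ContinuousOn (fun w : Pm => G (Lam w.1.1 w.2.2) (Yp w.1.1)) (ball w₀ (ρ / 4)) :=
    hG.cont.comp (f := fun w : Pm => (w.1.1, w.2.2)) (by fun_prop) fun w hw =>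
      ⟨(hr w (hsub hw)).2.1, (hr w (hsub hw)).2.2.2.1⟩
  have hB := (pb_open isOpen_ball g1 g2 (1 + d)).measurableSet
  refine ⟨_, hB, fun w hw => ball_subset_closedBall (ball_subset_ball (by linarith) hw.1),
    le_trans (pb_vol hB (x₀ := w₀.1) (r := ρ / 4) (a := |C| * (2 / (N : ℝ))) (by positivity)
      (fun w hw => ?_) fun x hx => ?_) (ENNReal.ofReal_le_ofReal e1), fun w hw hw' => ?_⟩
  · have := hw.1
    rw [← ball_prod_same] at this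
    exact this.1
  · have hx' : x ∈ ball w₀.1 r := ball_subset_ball (by linarith) hx
    have k : ∀ s ∈ ball w₀.2.1 r, ∀ s' ∈ ball w₀.2.2 r, (x, (s, s')) ∈ ball w₀ r := by
      intro s hs s' hs'
      rw [← ball_prod_same, ← ball_prod_same w₀.2.1 w₀.2.2]
      exact ⟨hx', hs, hs'⟩
    have k0 := hr _ (k _ (mem_ball_self r0) _ (mem_ball_self r0))
    have kb : ∀ c : ℂ, closedBall (c - (3 * ρ / 4 : ℝ)) (2 * ρ) ⊆ ball c r := by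
      intro c
      refine closedBall_subset_ball' ?_
      rw [dist_eq_norm, sub_sub_cancel_left, norm_neg, Complex.norm_real,
        Real.norm_of_nonneg (by linarith)]
      linarith
    have k1 := hC _ _ _ (w₀.2.1 - (3 * ρ / 4 : ℝ)) (w₀.2.2 - (3 * ρ / 4 : ℝ))
      (si_of_gi hG k0.2.1 k0.2.2.1) (by positivity)
      (Set.disjoint_left.2 fun s hs hs' =>
        (hr _ (k _ (kb _ hs') _ (mem_ball_self r0))).2.2.1 hs)
      (Set.disjoint_left.2 fun s hs hs' =>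
        (hr _ (k _ (mem_ball_self r0) _ (kb _ hs'))).2.2.2.1 hs)
      (by rw [sub_sub_sub_cancel_right]; linarith) (by rw [sub_sub_sub_cancel_right])
    rw [sub_add_cancel, sub_add_cancel] at k1
    refine le_trans (measure_mono fun s hs => ?_) (k1.trans (ENNReal.ofReal_le_ofReal
      (mul_le_mul_of_nonneg_right (le_abs_self C) (by positivity))))
    have k2 := hs.1
    rw [← ball_prod_same, ← ball_prod_same w₀.2.1 w₀.2.2] at k2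
    exact ⟨k2.2.1, k2.2.2, hs.2⟩
  · obtain ⟨-, a2, a3, a4, a5, a6, a7, a8⟩ := hr w (hsub hw)
    have k : G (Lam w.1.1 w.2.1) (Yp w.1.1) ≤ (1 + d) * G (Lam w.1.1 w.2.2) (Yp w.1.1) ∧
        G (Lam w.1.1 w.2.2) (Yp w.1.1) ≤ (1 + d) * G (Lam w.1.1 w.2.1) (Yp w.1.1) := by
      by_contra hn
      exact hw' ⟨hw, hn⟩
    have p1 := ((si_of_gi hG a2 a3).pos w.2.1 a3).le
    have p2 := ((si_of_gi hG a2 a3).pos w.2.2 a4).le
    have n1 : w.1.2.1 ≠ 0 := norm_pos_iff.1 (by linarith)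
    have n2 : w.1.2.2 ≠ 0 := norm_pos_iff.1 (by linarith)
    unfold Cmp Xi
    dsimp only
    rw [hG.hom _ _ _ n1 a2 a3, hG.hom _ _ _ n2 a2 a4, ← d1]
    exact ⟨pb_cmp (by positivity) m0 (by linarith) (norm_nonneg _) a6 a7 e3 p2 k.1,
      pb_cmp (by positivity) m0 (by linarith) (norm_nonneg _) a8 a5 e3 p1 k.2⟩

end Vale.Agent.P296
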