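import Vale.Agent.P296.K5
import Vale.Agent.P296.K6

namespace Vale.Agent.P296

open Matrix Filter Topology MeasureTheory Metric Laplacian ComplexOrder

theorem pl_one {G : ℂ → ℝ} {S : Set ℂ} {ε ρ τ T : ℝ} {c P : ℂ} (h : SI G S ε) (hε : 0 ≤ ε)
    (hρ : 0 < ρ) (hτ : 0 < τ) (hS : Disjoint S (closedBall c (2 * ρ)))
    (hM : ∀ z ∈ closedBall c (2 * ρ), G z ≤ G P) (hP : P ∉ S) (h1 : 2 * ρ ≤ ‖P - c‖)
    (h2 : ‖P - c‖ ≤ T) :
    volume {z | z ∈ ball (c + (3 * ρ / 4 : ℝ)) (ρ / 4) ∧ τ < Real.log (G P) - Real.log (G z)} ≤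
      ENNReal.ofReal (7 * ρ ^ 2 * (3 * (ε * Real.log (T / (ρ / 2)))) / τ) := by
  have hsub : closedBall c ρ ⊆ closedBall c (2 * ρ) := closedBall_subset_closedBall (by linarith)
  have hn : ∀ z ∈ closedBall c (2 * ρ), z ∉ S := fun z hz hz' => Set.disjoint_left.1 hS hz' hz
  refine area (u := fun z => Real.log (G P) - Real.log (G z)) hρ hτ ?_ ?_ ?_
  · exact continuousOn_const.sub ((h.cont.mono fun z hz => hn z (hsub hz)).log
      fun z hz => (h.pos z (hn z (hsub hz))).ne')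
  · intro z hz
    exact sub_nonneg.2 (Real.log_le_log (h.pos z (hn z (hsub hz))) (hM z (hsub hz)))
  · intro r hr1 hr2
    have hr : 0 < r := by linarith
    have hs : sphere c r ⊆ closedBall c (2 * ρ) :=
      sphere_subset_closedBall.trans (closedBall_subset_closedBall (by linarith))
    refine (key_ext h hε hr (hS.mono_right hs) (fun z hz => hM z (hs hz)) hP
      (by linarith)).trans ?_
    rw [sub_self, zero_add]
    refine mul_le_mul_of_nonneg_left (mul_le_mul_of_nonneg_left (Real.log_le_log ?_ ?_) hε)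
      (by norm_num)
    · exact div_pos (by linarith) hr
    · exact div_le_div₀ (by linarith) h2 (by linarith) hr1

theorem pl_cmp {M x y δ : ℝ} (hδ : 0 < δ) (hy : 0 < y) (hM : 0 < M) (hx : x ≤ M)
    (h : ¬Real.log (1 + δ) < Real.log M - Real.log y) : x ≤ (1 + δ) * y := by
  refine hx.trans ((Real.log_le_log_iff hM (by positivity)).1 ?_)
  rw [Real.log_mul (by positivity) hy.ne']
  linarith [not_lt.1 h]

theorem pairL {ρ R δ : ℝ} (hρ : 0 < ρ) (hδ : 0 < δ) : ∃ C : ℝ, ∀ (G : ℂ → ℝ) (S : Set ℂ) (ε : ℝ)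
    (c₁ c₂ : ℂ), SI G S ε → 0 ≤ ε → Disjoint S (closedBall c₁ (2 * ρ)) →
    Disjoint S (closedBall c₂ (2 * ρ)) → 4 * ρ ≤ ‖c₁ - c₂‖ → ‖c₁ - c₂‖ ≤ R →
    volume {s : ℂ × ℂ | s.1 ∈ ball (c₁ + (3 * ρ / 4 : ℝ)) (ρ / 4) ∧
      s.2 ∈ ball (c₂ + (3 * ρ / 4 : ℝ)) (ρ / 4) ∧
      ¬(G s.1 ≤ (1 + δ) * G s.2 ∧ G s.2 ≤ (1 + δ) * G s.1)} ≤ ENNReal.ofReal (C * ε) := by
  refine ⟨2 * ((ρ / 4) ^ 2 * Real.pi) * (7 * ρ ^ 2 * (3 * Real.log ((R + 2 * ρ) / (ρ / 2))) /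
    Real.log (1 + δ)), fun G S ε c₁ c₂ h hε hS1 hS2 h4 hR => ?_⟩
  have hτ : 0 < Real.log (1 + δ) := Real.log_pos (by linarith)
  have hn1 : ∀ z ∈ closedBall c₁ (2 * ρ), z ∉ S := fun z hz hz' => Set.disjoint_left.1 hS1 hz' hz
  have hn2 : ∀ z ∈ closedBall c₂ (2 * ρ), z ∉ S := fun z hz hz' => Set.disjoint_left.1 hS2 hz' hz
  have hK : ∀ z ∈ sphere c₁ (2 * ρ) ∪ sphere c₂ (2 * ρ), z ∉ S := by
    rintro z (hz | hz)
    · exact hn1 z (sphere_subset_closedBall hz)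
    · exact hn2 z (sphere_subset_closedBall hz)
  obtain ⟨P, hP, hmax⟩ := ((isCompact_sphere c₁ (2 * ρ)).union
    (isCompact_sphere c₂ (2 * ρ))).exists_isMaxOn
    ((NormedSpace.sphere_nonempty.2 (by linarith)).inl) (h.cont.mono hK)
  have hM1 := inner_max h (by linarith) hS1 fun z hz => hmax (Or.inl hz)
  have hM2 := inner_max h (by linarith) hS2 fun z hz => hmax (Or.inr hz)
  have t1 : ‖c₁ - c₂‖ ≤ ‖P - c₁‖ + ‖P - c₂‖ := by
    have := norm_sub_le (P - c₂) (P - c₁)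
    rw [show P - c₂ - (P - c₁) = c₁ - c₂ by ring] at this
    linarith
  have t2 : ‖P - c₁‖ ≤ ‖P - c₂‖ + ‖c₁ - c₂‖ := by
    have := norm_sub_le (P - c₂) (c₁ - c₂)
    rwa [show P - c₂ - (c₁ - c₂) = P - c₁ by ring] at this
  have t3 : ‖P - c₂‖ ≤ ‖P - c₁‖ + ‖c₁ - c₂‖ := by
    have := norm_add_le (P - c₁) (c₁ - c₂)
    rwa [show P - c₁ + (c₁ - c₂) = P - c₂ by ring] at this
  have hd : (2 * ρ ≤ ‖P - c₁‖ ∧ ‖P - c₁‖ ≤ R + 2 * ρ) ∧ 2 * ρ ≤ ‖P - c₂‖ ∧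
      ‖P - c₂‖ ≤ R + 2 * ρ := by
    rcases hP with hP | hP <;> rw [mem_sphere_iff_norm] at hP <;>
      exact ⟨⟨by linarith, by linarith⟩, by linarith, by linarith⟩
  have a1 := pl_one h hε hρ hτ hS1 hM1 (hK P hP) hd.1.1 hd.1.2
  have a2 := pl_one h hε hρ hτ hS2 hM2 (hK P hP) hd.2.1 hd.2.2
  have hb : ∀ c z : ℂ, z ∈ ball (c + (3 * ρ / 4 : ℝ)) (ρ / 4) → z ∈ closedBall c (2 * ρ) := by
    intro c z hz
    rw [mem_ball_iff_norm] at hz
    rw [mem_closedBall_iff_norm]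
    have := norm_add_le (z - (c + (3 * ρ / 4 : ℝ))) ((3 * ρ / 4 : ℝ) : ℂ)
    rw [Complex.norm_real, Real.norm_of_nonneg (by linarith),
      show z - (c + (3 * ρ / 4 : ℝ)) + (3 * ρ / 4 : ℝ) = z - c by ring] at this
    linarith
  have hv : ∀ c : ℂ, volume (ball c (ρ / 4)) = ENNReal.ofReal ((ρ / 4) ^ 2 * Real.pi) := by
    intro c
    rw [Complex.volume_ball, ENNReal.ofReal_mul (by positivity),
      ENNReal.ofReal_pow (by positivity), ← NNReal.coe_real_pi, ENNReal.ofReal_coe_nnreal]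
  have hL : 0 ≤ Real.log ((R + 2 * ρ) / (ρ / 2)) :=
    Real.log_nonneg ((one_le_div (by linarith)).2 (by linarith))
  refine (measure_mono (t := ({z | z ∈ ball (c₁ + (3 * ρ / 4 : ℝ)) (ρ / 4) ∧
      Real.log (1 + δ) < Real.log (G P) - Real.log (G z)} ×ˢ ball (c₂ + (3 * ρ / 4 : ℝ)) (ρ / 4)) ∪
      (ball (c₁ + (3 * ρ / 4 : ℝ)) (ρ / 4) ×ˢ {z | z ∈ ball (c₂ + (3 * ρ / 4 : ℝ)) (ρ / 4) ∧
      Real.log (1 + δ) < Real.log (G P) - Real.log (G z)})) ?_).trans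
    ((measure_union_le _ _).trans ?_)
  · rintro s ⟨s1, s2, hs⟩
    by_contra hno
    simp only [Set.mem_union, Set.mem_prod, Set.mem_setOf_eq, s1, s2, true_and, and_true,
      not_or] at hno
    have hP0 := h.pos P (hK P hP)
    exact hs ⟨pl_cmp hδ (h.pos _ (hn2 _ (hb _ _ s2))) hP0 (hM1 _ (hb _ _ s1)) hno.2,
      pl_cmp hδ (h.pos _ (hn1 _ (hb _ _ s1))) hP0 (hM2 _ (hb _ _ s2)) hno.1⟩
  · rw [Measure.volume_eq_prod, Measure.prod_prod, Measure.prod_prod, hv, hv]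
    refine (add_le_add (mul_le_mul_left a1 _) (mul_le_mul_right a2 _)).trans (le_of_eq ?_)
    rw [← ENNReal.ofReal_mul (by positivity), ← ENNReal.ofReal_mul (by positivity),
      ← ENNReal.ofReal_add (by positivity) (by positivity)]
    congr 1
    ring

end Vale.Agent.P296
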