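import Vale.Agent.P296.Alg0

namespace Vale.Agent.P296

open Matrix Filter Topology MeasureTheory Metric Laplacian ComplexOrder

noncomputable def scM (q : V × V × V) : M3 := of ![q.1, q.2.1, q.2.2]

noncomputable def scCo (q : V × V × V) (y : V) : V := ((scM q).det)⁻¹ • (y ᵥ* (scM q).adjugate)

theorem scM_cont : Continuous scM := by
  refine continuous_pi fun i => continuous_pi fun j => ?_
  fin_cases i <;> simp [scM] <;> fun_prop

theorem scCo_eq (q : V × V × V) (hq : (scM q).det ≠ 0) (x : V) : scCo q (x ᵥ* scM q) = x := by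
  rw [scCo, vecMul_vecMul, mul_adjugate, vecMul_smul, vecMul_one, smul_smul,
    inv_mul_cancel₀ hq, one_smul]

theorem scCo_cont {X : Type} [TopologicalSpace X] {q : X → V × V × V} {y : X → V}
    (hq : Continuous q) (hy : Continuous y) {x : X} (hx : (scM (q x)).det ≠ 0) (j : Fin 3) :
    ContinuousAt (fun x => scCo (q x) (y x) j) x := by
  have h1 : Continuous fun x => (scM (q x)).det := (scM_cont.comp hq).matrix_det
  have h2 : Continuous fun x => y x ᵥ* (scM (q x)).adjugate :=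
    hy.matrix_vecMul (scM_cont.comp hq).matrix_adjugate
  have h3 : Continuous fun x => (y x ᵥ* (scM (q x)).adjugate) j := (continuous_apply j).comp h2
  exact (h1.continuousAt.inv₀ hx).mul h3.continuousAt

theorem sc_herm {f : (Fin 2 → ℂ) → ℝ} {h1 h2 : ℝ} {h3 : ℂ}
    (hf : ∀ v, f v = h1 * ‖v 0‖ ^ 2 + h2 * ‖v 1‖ ^ 2 +
      2 * (h3 * v 0 * (starRingEnd ℂ) (v 1)).re) (hp : ∀ v, v ≠ 0 → 0 < f v) {P1 P2 : ℝ} {P3 : ℂ}
    (a1 : 0 < P1) (a2 : ‖P3‖ ^ 2 < P1 * P2) : 0 < h1 * P1 + h2 * P2 + 2 * (h3 * P3).re := by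
  have b2 : 0 < h2 := by
    have := hp ![0, 1] (fun h => by simpa using congrFun h 1)
    rw [hf] at this
    simpa using this
  have hs : 0 < Real.sqrt P1 := Real.sqrt_pos.2 a1
  have hs' : ((Real.sqrt P1 : ℝ) : ℂ) ≠ 0 := by exact_mod_cast hs.ne'
  have b3 := hp ![(Real.sqrt P1 : ℝ), (starRingEnd ℂ) P3 / (Real.sqrt P1 : ℝ)]
    (fun h => hs' (by simpa using congrFun h 0))
  rw [hf] at b3
  have e1 : h3 * ((Real.sqrt P1 : ℝ) : ℂ) *
      (starRingEnd ℂ) ((starRingEnd ℂ) P3 / (Real.sqrt P1 : ℝ)) = h3 * P3 := by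
    rw [map_div₀, Complex.conj_conj, Complex.conj_ofReal]
    field_simp
  have e2 : ‖((Real.sqrt P1 : ℝ) : ℂ)‖ ^ 2 = P1 := by
    rw [Complex.norm_real, Real.norm_eq_abs, sq_abs, Real.sq_sqrt a1.le]
  have e3 : ‖(starRingEnd ℂ) P3 / ((Real.sqrt P1 : ℝ) : ℂ)‖ ^ 2 = ‖P3‖ ^ 2 / P1 := by
    rw [norm_div, div_pow, e2, Complex.norm_conj]
  simp only [cons_val_zero, cons_val_one] at b3
  rw [e1, e2, e3] at b3
  have b4 : ‖P3‖ ^ 2 / P1 < P2 := by rw [div_lt_iff₀ a1]; linarith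
  nlinarith

theorem sc_pos {ι : Type} [Fintype ι] (A B C : V) (y : ι → V) (w : ι → ℝ) (n : ι → ℝ × ℝ × ℝ)
    (hd : det (of ![A, B, C]) ≠ 0)
    (hy : ∀ k, y k = ((n k).1 : ℂ) • A + (2 * (n k).2.1 : ℂ) • B + ((n k).2.2 : ℂ) • C)
    (hn : ∀ k, 0 < (n k).1 ∧ 0 ≤ (n k).2.2) (h1 : 0 < ∑ k, w k * (n k).1)
    (h2 : (∑ k, w k * (n k).2.1) ^ 2 < (∑ k, w k * (n k).1) * ∑ k, w k * (n k).2.2) :
    ∀ᶠ p : (V × V × V) × (ι → V) × (ι → ℝ) in 𝓝 ((A, B, C), y, w),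
      ∀ f : (Fin 2 → ℂ) → ℝ, Herm f → (∀ v, v ≠ 0 → 0 < f v) → ∀ v : ι → Fin 2 → ℂ,
        (∀ k, qv p.1.1 p.1.2.1 p.1.2.2 (v k) = p.2.1 k) → 0 < ∑ k, p.2.2 k * f (v k) := by
  set p0 : (V × V × V) × (ι → V) × (ι → ℝ) := ((A, B, C), y, w) with hp0
  let x : ((V × V × V) × (ι → V) × (ι → ℝ)) → ι → V := fun p k => scCo p.1 (p.2.1 k)
  have hd' : (scM p0.1).det ≠ 0 := hd
  have xc : ∀ k j, ContinuousAt (fun p => x p k j) p0 := fun k j =>
    scCo_cont (q := fun p : (V × V × V) × (ι → V) × (ι → ℝ) => p.1)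
      (y := fun p => p.2.1 k) continuous_fst (by fun_prop) hd' j
  have x0 : ∀ k, x p0 k = ![((n k).1 : ℂ), 2 * (n k).2.1, (n k).2.2] := fun k => by
    rw [← scCo_eq p0.1 hd' ![((n k).1 : ℂ), 2 * (n k).2.1, (n k).2.2]]
    change scCo _ (y k) = _
    congr 1
    rw [hy k]
    ext j
    simp [scM, hp0, vecMul, dotProduct, Fin.sum_univ_three]
  have n0 : ∀ k, ‖x p0 k 0‖ = (n k).1 := fun k => by
    rw [x0]; simpa using abs_of_pos (hn k).1
  have wc : ∀ k, ContinuousAt (fun p : (V × V × V) × (ι → V) × (ι → ℝ) => p.2.2 k) p0 :=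
    fun k => by fun_prop
  let P1 : ((V × V × V) × (ι → V) × (ι → ℝ)) → ℝ := fun p => ∑ k, p.2.2 k * ‖x p k 0‖
  let P2 : ((V × V × V) × (ι → V) × (ι → ℝ)) → ℝ := fun p => ∑ k, p.2.2 k * ‖x p k 2‖
  let P3 : ((V × V × V) × (ι → V) × (ι → ℝ)) → ℂ := fun p =>
    ∑ k, (p.2.2 k : ℂ) * (x p k 0 * (starRingEnd ℂ) (x p k 1) / (2 * (‖x p k 0‖ : ℝ)))
  have c1 : ContinuousAt P1 p0 :=
    tendsto_finset_sum _ fun k _ => (wc k).mul (xc k 0).norm
  have c2 : ContinuousAt P2 p0 :=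
    tendsto_finset_sum _ fun k _ => (wc k).mul (xc k 2).norm
  have c3 : ContinuousAt P3 p0 := by
    refine tendsto_finset_sum _ fun k _ => ?_
    refine ContinuousAt.mul (Complex.continuous_ofReal.continuousAt.comp (wc k)) ?_
    refine ContinuousAt.div ((xc k 0).mul (Complex.continuous_conj.continuousAt.comp (xc k 1)))
      (continuousAt_const.mul (Complex.continuous_ofReal.continuousAt.comp (xc k 0).norm)) ?_
    rw [n0]
    exact mul_ne_zero two_ne_zero (by exact_mod_cast (hn k).1.ne')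
  have e1 : P1 p0 = ∑ k, w k * (n k).1 := Finset.sum_congr rfl fun k _ => by rw [n0]
  have e2 : P2 p0 = ∑ k, w k * (n k).2.2 := Finset.sum_congr rfl fun k _ => by
    rw [x0]
    simp [hp0, (hn k).2]
  have e3 : P3 p0 = ((∑ k, w k * (n k).2.1 : ℝ) : ℂ) := by
    rw [Complex.ofReal_sum]
    refine Finset.sum_congr rfl fun k _ => ?_
    rw [n0, x0]
    have : ((n k).1 : ℂ) ≠ 0 := by exact_mod_cast (hn k).1.ne'
    simp only [cons_val_zero, cons_val_one, map_mul, Complex.conj_ofReal, hp0, map_ofNat]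
    push_cast
    field_simp
  have E0 : ∀ᶠ p in 𝓝 p0, (scM p.1).det ≠ 0 :=
    ((scM_cont.comp continuous_fst).matrix_det.continuousAt).eventually_ne hd'
  have E1 : ∀ᶠ p in 𝓝 p0, 0 < P1 p := c1.eventually (lt_mem_nhds (by rw [e1]; exact h1))
  have E2 : ∀ᶠ p in 𝓝 p0, ‖P3 p‖ ^ 2 < P1 p * P2 p :=
    ContinuousAt.eventually_lt (c3.norm.pow 2) (c1.mul c2) (by
      rw [e1, e2, e3, Complex.norm_real, Real.norm_eq_abs, sq_abs]; exact h2)
  have E3 : ∀ᶠ p in 𝓝 p0, ∀ k, x p k 0 ≠ 0 := eventually_all.2 fun k =>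
    (xc k 0).eventually_ne (by
      rw [← norm_ne_zero_iff, n0]; exact (hn k).1.ne')
  filter_upwards [E0, E1, E2, E3] with p f0 f1 f2 f3 f hf hp v hv
  obtain ⟨a1, a2, a3, hf⟩ := hf
  have xv : ∀ k, x p k = ![v k 0 ^ 2, 2 * (v k 0 * v k 1), v k 1 ^ 2] := fun k => by
    rw [← scCo_eq p.1 f0 ![v k 0 ^ 2, 2 * (v k 0 * v k 1), v k 1 ^ 2]]
    change scCo _ (p.2.1 k) = _
    congr 1
    rw [← hv k]
    ext j
    simp [scM, qv, vecMul, dotProduct, Fin.sum_univ_three]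
    ring
  have key := sc_herm hf hp f1 f2
  have : ∑ k, p.2.2 k * f (v k) = a1 * P1 p + a2 * P2 p + 2 * (a3 * P3 p).re := by
    simp only [P1, P2, P3, Finset.mul_sum, Complex.re_sum, ← Finset.sum_add_distrib]
    refine Finset.sum_congr rfl fun k _ => ?_
    have g0 := f3 k
    rw [xv] at g0
    have g1 : v k 0 ≠ 0 := fun h => g0 (by simp [h])
    have g2 : x p k 0 * (starRingEnd ℂ) (x p k 1) / (2 * (‖x p k 0‖ : ℝ)) =
        v k 0 * (starRingEnd ℂ) (v k 1) := by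
      rw [xv]
      simp only [cons_val_zero, cons_val_one, norm_pow, map_mul, map_ofNat]
      have g3 : (((‖v k 0‖ ^ 2 : ℝ)) : ℂ) = v k 0 * (starRingEnd ℂ) (v k 0) := by
        rw [Complex.mul_conj, Complex.normSq_eq_norm_sq]
      have g4 : (starRingEnd ℂ) (v k 0) ≠ 0 := by simpa using g1
      rw [g3]
      field_simp
    rw [g2, hf, xv]
    have g5 : (a3 * ((p.2.2 k : ℂ) * (v k 0 * (starRingEnd ℂ) (v k 1)))).re =
        p.2.2 k * (a3 * v k 0 * (starRingEnd ℂ) (v k 1)).re := by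
      rw [← Complex.re_ofReal_mul]
      congr 1
      ring
    rw [g5]
    simp only [cons_val_zero, cons_val_two, norm_pow, tail_cons, head_cons]
    ring
  rw [this]
  exact key

end Vale.Agent.P296
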