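import Vale.Agent.P296.SC
import Vale.Agent.P296.Chg

namespace Vale.Agent.P296

open Matrix Filter Topology MeasureTheory Metric Laplacian ComplexOrder

theorem sc2_det {l A B C : V} {κ : ℂ} (hl : gd l ≠ 0) (h : Dm l = κ • Gram A B C) :
    (Gram A B C).det ≠ 0 := fun h0 => hl (by
  have : (Dm l).det = 0 := by rw [h, det_smul, h0, mul_zero]
  simp [gd, this])

theorem sc2_Dm (i j : Fin 3) : Continuous fun l : V => Dm l i j := by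
  simp only [Dm, Matrix.add_apply, Matrix.smul_apply, smul_eq_mul]
  fun_prop

/-- `sc_pos` for the conic `l` seen from the point `Yp y` with slope `s` -/
theorem sc2 {ι : Type} [Fintype ι] {l : V} {y : ℂ × ℂ} {s κ : ℂ} (hκ : κ ≠ 0) (hl : gd l ≠ 0)
    (h0 : Ry y *ᵥ l = κ • ![1, s, s ^ 2]) (z : ι → ℂ × ℂ) (w : ι → ℝ) (n : ι → ℝ × ℝ × ℝ)
    (hy : ∀ k, Yp (z k) = ((n k).1 : ℂ) • Yp y + (2 * (n k).2.1 : ℂ) • ![0, 1, s] +
      ((n k).2.2 : ℂ) • Cy y l κ)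
    (hn : ∀ k, 0 < (n k).1 ∧ 0 ≤ (n k).2.2) (h1 : 0 < ∑ k, w k * (n k).1)
    (h2 : (∑ k, w k * (n k).2.1) ^ 2 < (∑ k, w k * (n k).1) * ∑ k, w k * (n k).2.2) :
    ∀ᶠ p : (V × (ℂ × ℂ) × ℂ × ℂ) × (ι → ℂ × ℂ) × (ι → ℝ) in 𝓝 ((l, y, s, κ), z, w),
      Ry p.1.2.1 *ᵥ p.1.1 = p.1.2.2.2 • ![1, p.1.2.2.1, p.1.2.2.1 ^ 2] →
      (∀ k, ∃ s' κ' : ℂ, κ' ≠ 0 ∧ Ry (p.2.1 k) *ᵥ p.1.1 = κ' • ![1, s', s' ^ 2]) →
      ∀ N G, GI N G → 0 < ∑ k, p.2.2 k * G p.1.1 (Yp (p.2.1 k)) := by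
  have hd : det (of ![Yp y, ![0, 1, s], Cy y l κ]) ≠ 0 := fun h => by
    have := sc2_det hl (gramY hκ h0)
    rw [det_gram, h] at this
    simp at this
  have E := sc_pos (Yp y) ![0, 1, s] (Cy y l κ) (fun k => Yp (z k)) w n hd hy hn h1 h2
  have cY : Continuous Yp := continuous_pi fun j => by fin_cases j <;> simp [Yp] <;> fun_prop
  let φ : (V × (ℂ × ℂ) × ℂ × ℂ) × (ι → ℂ × ℂ) × (ι → ℝ) → (V × V × V) × (ι → V) × (ι → ℝ) :=
    fun p => ((Yp p.1.2.1, ![0, 1, p.1.2.2.1], Cy p.1.2.1 p.1.1 p.1.2.2.2),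
      fun k => Yp (p.2.1 k), p.2.2)
  have cφ : ContinuousAt φ ((l, y, s, κ), z, w) := by
    refine ContinuousAt.prodMk (ContinuousAt.prodMk (by fun_prop) (ContinuousAt.prodMk ?_ ?_))
      (ContinuousAt.prodMk (by fun_prop) (by fun_prop))
    · exact continuousAt_pi.2 fun j => by fin_cases j <;> simp <;> fun_prop
    · refine continuousAt_pi.2 fun j => ?_
      have a1 := sc2_Dm 0 j
      have a2 := sc2_Dm 0 0
      have a3 : Continuous fun u : ℂ × ℂ => Yp u j := (continuous_apply j).comp cY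
      unfold Cy
      refine ContinuousAt.div ?_ (by fun_prop) hκ
      exact ((continuous_const.mul (a1.comp (by fun_prop))).add
        ((a3.comp (by fun_prop)).mul (a2.comp (by fun_prop)))).continuousAt
  have E1 : ∀ᶠ p : (V × (ℂ × ℂ) × ℂ × ℂ) × (ι → ℂ × ℂ) × (ι → ℝ) in 𝓝 ((l, y, s, κ), z, w),
      p.1.2.2.2 ≠ 0 := ContinuousAt.eventually_ne (by fun_prop) hκ
  have E2 : ∀ᶠ p : (V × (ℂ × ℂ) × ℂ × ℂ) × (ι → ℂ × ℂ) × (ι → ℝ) in 𝓝 ((l, y, s, κ), z, w),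
      gd p.1.1 ≠ 0 := ContinuousAt.eventually_ne (cont_gd.comp (by fun_prop)).continuousAt hl
  filter_upwards [cφ.eventually E, E1, E2] with p f0 f1 f2 g0 g1 N G hG
  have d0 := gramY f1 g0
  obtain ⟨b1, b2⟩ := hG.herm _ _ _ _ _ f2 d0
  have : ∀ k, ∃ v, qv (Yp p.1.2.1) ![0, 1, p.1.2.2.1] (Cy p.1.2.1 p.1.1 p.1.2.2.2) v =
      Yp (p.2.1 k) := fun k => by
    obtain ⟨s', κ', k0, k1⟩ := g1 k
    have d1 := gramY k0 k1
    obtain ⟨g, hg⟩ := chg (κ := p.1.2.2.2⁻¹ * κ') (sc2_det f2 d0) (by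
      rw [mul_smul, ← d1, d0, smul_smul, inv_mul_cancel₀ f1, one_smul])
    refine ⟨g *ᵥ ![1, 0], ?_⟩
    rw [← hg]
    ext j
    simp [qv]
  choose v hv using this
  have := f0 _ b1 b2 v hv
  simpa only [hv] using this

end Vale.Agent.P296
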