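import Mathlib

/-! Statement vocabulary: vector bundles on closed submanifolds of `ℙ(U) × ℙ(W)`, described on
the cone in `U × W`. -/

namespace Vale.Agent.P296

open Matrix Filter Topology ComplexOrder

variable {U W : Type} [NormedAddCommGroup U] [NormedSpace ℂ U] [NormedAddCommGroup W]
  [NormedSpace ℂ W] {I : Type} {r : ℕ}

/-- rescaling of the two homogeneous coordinate vectors -/
def sc (s t : ℂ) (x : U × W) : U × W := (s • x.1, t • x.2)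

/-- `X` is the cone over a closed complex submanifold of `ℙ(U) × ℙ(W)` -/
structure ProjMfd (X : Set (U × W)) : Prop where
  ne : ∀ x ∈ X, x.1 ≠ 0 ∧ x.2 ≠ 0
  inv : ∀ x ∈ X, ∀ s t, s ≠ 0 → t ≠ 0 → sc s t x ∈ X
  closed : ∀ x ∈ closure X, x.1 ≠ 0 → x.2 ≠ 0 → x ∈ X
  smooth : ∀ x ∈ X, ∃ (c : ℕ) (F : U × W → Fin c → ℂ), AnalyticAt ℂ F x ∧
    Function.Surjective (fderiv ℂ F x) ∧ ∀ᶠ x' in 𝓝 x, x' ∈ X ↔ F x' = 0

/-- holomorphic vector bundle of rank `r`: charts `O α`, fibre coordinates `e α = T α β * e β` -/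
structure Bundle (X : Set (U × W)) (O : I → Set (U × W))
    (T : I → I → U × W → Matrix (Fin r) (Fin r) ℂ) : Prop where
  op : ∀ α, IsOpen (O α)
  inv : ∀ α, ∀ x ∈ O α, ∀ s t, s ≠ 0 → t ≠ 0 → sc s t x ∈ O α
  cover : ∀ x ∈ X, ∃ α, x ∈ O α
  hol : ∀ α β i j, AnalyticOnNhd ℂ (fun x => T α β x i j) (X ∩ O α ∩ O β)
  invT : ∀ α β, ∀ x ∈ X ∩ O α ∩ O β, ∀ s t, s ≠ 0 → t ≠ 0 → T α β (sc s t x) = T α β x
  one : ∀ α, ∀ x ∈ X ∩ O α, T α α x = 1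
  coc : ∀ α β γ, ∀ x ∈ X ∩ O α ∩ O β ∩ O γ, T α β x * T β γ x = T α γ x

/-- holomorphic section of `O(m)` on `ℙ(E)`: a function on the dual bundle, of degree `m` -/
structure Sect (X : Set (U × W)) (O : I → Set (U × W))
    (T : I → I → U × W → Matrix (Fin r) (Fin r) ℂ) (m : ℕ)
    (σ : I → U × W → (Fin r → ℂ) → ℂ) : Prop where
  hol : ∀ α, AnalyticOnNhd ℂ (fun p : (U × W) × (Fin r → ℂ) => σ α p.1 p.2)
    ((X ∩ O α) ×ˢ Set.univ)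
  hom : ∀ α, ∀ x ∈ X ∩ O α, ∀ v, ∀ c : ℂ, σ α x (c • v) = c ^ m * σ α x v
  inv : ∀ α, ∀ x ∈ X ∩ O α, ∀ v s t, s ≠ 0 → t ≠ 0 → σ α (sc s t x) v = σ α x v
  comp : ∀ α β, ∀ x ∈ X ∩ O α ∩ O β, ∀ v, σ β x ((T α β x)ᵀ *ᵥ v) = σ α x v

/-- some `O(m)` is generated by sections whose morphism `ℙ(E) → ℙ^(n-1)` has finite fibres -/
def Ample (X : Set (U × W)) (O : I → Set (U × W))
    (T : I → I → U × W → Matrix (Fin r) (Fin r) ℂ) : Prop :=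
  ∃ (m n : ℕ) (σ : Fin n → I → U × W → (Fin r → ℂ) → ℂ), 0 < m ∧ (∀ k, Sect X O T m (σ k)) ∧
    (∀ α, ∀ x ∈ X ∩ O α, ∀ v, v ≠ 0 → ∃ k, σ k α x v ≠ 0) ∧
    ∀ (α : I) (w : Fin n → ℂ), ∃ P : Set ((U × W) × (Fin r → ℂ)), P.Finite ∧
      ∀ x ∈ X ∩ O α, ∀ v, v ≠ 0 → (∃ c : ℂ, (fun k => σ k α x v) = c • w) →
        ∃ p ∈ P, ∃ s t c : ℂ, s ≠ 0 ∧ t ≠ 0 ∧ x = sc s t p.1 ∧ v = c • p.2

/-- smooth Hermitian metric -/
structure HMetric (X : Set (U × W)) (O : I → Set (U × W))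
    (T : I → I → U × W → Matrix (Fin r) (Fin r) ℂ)
    (h : I → U × W → Matrix (Fin r) (Fin r) ℂ) : Prop where
  sm : ∀ α i j, ContDiffOn ℝ (⊤ : ℕ∞) (fun x => h α x i j) (X ∩ O α)
  pos : ∀ α, ∀ x ∈ X ∩ O α, (h α x).PosDef
  inv : ∀ α, ∀ x ∈ X ∩ O α, ∀ s t, s ≠ 0 → t ≠ 0 → h α (sc s t x) = h α x
  comp : ∀ α β, ∀ x ∈ X ∩ O α ∩ O β, h β x = (T α β x)ᴴ * h α x * T α β x

/-- `∂ / ∂ z` -/
noncomputable def dz (f : ℂ → ℂ) (z : ℂ) : ℂ :=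
  (fderiv ℝ f z 1 - Complex.I * fderiv ℝ f z Complex.I) / 2

/-- `∂ / ∂ z̄` -/
noncomputable def dzb (f : ℂ → ℂ) (z : ℂ) : ℂ :=
  (fderiv ℝ f z 1 + Complex.I * fderiv ℝ f z Complex.I) / 2

/-- Chern curvature form at `0` of the metric `H` in a holomorphic frame over a disc -/
noncomputable def curv (H : ℂ → Matrix (Fin r) (Fin r) ℂ) : Matrix (Fin r) (Fin r) ℂ :=
  (of fun i j => dzb (fun z => H z i j) 0) * (H 0)⁻¹ * (of fun i j => dz (fun z => H z i j) 0) -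
    of fun i j => dzb (dz fun z => H z i j) 0

/-- strict Griffiths positivity, tested on holomorphic discs with nonzero tangent vector -/
def Griffiths (X : Set (U × W)) (O : I → Set (U × W))
    (h : I → U × W → Matrix (Fin r) (Fin r) ℂ) : Prop :=
  ∀ (α : I) (γ : ℂ → U × W), AnalyticAt ℂ γ 0 → (∀ᶠ z in 𝓝 0, γ z ∈ X ∩ O α) →
    (∀ s t, deriv γ 0 ≠ sc s t (γ 0)) →
    ∀ e, e ≠ 0 → 0 < (star e ⬝ᵥ curv (fun z => h α (γ z)) *ᵥ e).re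

end Vale.Agent.P296
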