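import Vale.Agent.P296.B3
import Vale.Agent.P296.Def3

namespace Vale.Agent.P296

open Matrix Filter Topology MeasureTheory Metric Laplacian ComplexOrder

theorem WS.mul {N d w d' w' : ℕ} {f g : Fn} (hf : WS N d w f) (hg : WS N d' w' g) :
    WS N (d + d') (w + w') fun α x v => f α x v * g α x v := by
  refine ⟨fun α p hp => (hf.hol α p hp).mul (hg.hol α p hp), fun α x v c => ?_,
    fun α x v s t hs ht => ?_, fun α β x hx v => ?_⟩
  · rw [hf.hom, hg.hom]; ring
  · rw [hf.inv α x v s t hs ht, hg.inv α x v s t hs ht]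
  · have h1 := hf.comp α β x hx v
    have h2 := hg.comp α β x hx v
    calc _ = (f β x ((TT N α β x)ᵀ *ᵥ v) * mu α x β.2 ^ w) *
          (g β x ((TT N α β x)ᵀ *ᵥ v) * mu α x β.2 ^ w') := by ring
      _ = _ := by rw [h1, h2]; ring

theorem WS.pow {N d w : ℕ} {f : Fn} (hf : WS N d w f) (n : ℕ) :
    WS N (n * d) (n * w) fun α x v => f α x v ^ n := by
  refine ⟨fun α p hp => (hf.hol α p hp).pow n, fun α x v c => ?_,
    fun α x v s t hs ht => ?_, fun α β x hx v => ?_⟩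
  · rw [hf.hom]; ring
  · rw [hf.inv α x v s t hs ht]
  · have h1 := hf.comp α β x hx v
    calc _ = (f β x ((TT N α β x)ᵀ *ᵥ v) * mu α x β.2 ^ w) ^ n := by ring
      _ = _ := by rw [h1]; ring

theorem WS.sect {N d w m : ℕ} {f : Fn} (hf : WS N d w f) (h1 : d = m) (h2 : w = m) :
    Sect (XX N) OO (TT N) m f := by
  subst h1 h2
  refine ⟨fun α p hp => hf.hol α p hp.1.2, fun α x _ v c => hf.hom α x v c,
    fun α x _ v s t hs ht => hf.inv α x v s t hs ht, fun α β x hx v => ?_⟩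
  have h := hf.comp α β x hx v
  rw [mul_comm] at h
  exact mul_left_cancel₀ (pow_ne_zero _ (rep_chg hx).2.1) h

theorem W0_an_mu {α : Fin 2 × Fin 3} {p : (V × Zc) × (Fin 2 → ℂ)} (h : p.1 ∈ OO α) (l : Fin 3) :
    AnalyticAt ℂ (fun p : (V × Zc) × (Fin 2 → ℂ) => mu α p.1 l) p := by
  have a : ∀ j, AnalyticAt ℂ (fun p : (V × Zc) × (Fin 2 → ℂ) => p.1.1 j) p := fun j =>
    (((ContinuousLinearMap.proj j : V →L[ℂ] ℂ).comp (ContinuousLinearMap.fst ℂ V Zc)).comp
      (ContinuousLinearMap.fst ℂ (V × Zc) (Fin 2 → ℂ))).analyticAt p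
  exact (a l).div (a α.2) h.1

theorem ws_mu (N : ℕ) (l : Fin 3) : WS N 0 1 fun α x _ => mu α x l := by
  refine ⟨fun α p hp => W0_an_mu hp l, fun α x v c => by simp,
    fun α x v s t hs ht => ?_, fun α β x hx v => ?_⟩
  · rw [(rep_sc α hs ht).2.1]
  · obtain ⟨-, h2, -, h4, -⟩ := rep_chg hx
    rw [h4]; field_simp

theorem ws_qc (N : ℕ) (k : Fin 3) : WS N 2 0 fun α x v => qc N α x v k := by
  refine ⟨fun α p hp => an_qc N α k hp, fun α x v c => ?_,
    fun α x v s t hs ht => ?_, fun α β x hx v => ?_⟩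
  · rw [qc_smul]; rfl
  · obtain ⟨h1, h2, h3⟩ := rep_sc (x := x) α hs ht
    simp only [qc, h1, h2, h3]
  · rw [qc_comp hx]; simp

end Vale.Agent.P296
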