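import Vale.Agent.P296.X1
import Vale.Agent.P296.N5
import Vale.Agent.P296.Def3

namespace Vale.Agent.P296

open Matrix Filter Topology MeasureTheory Metric Laplacian ComplexOrder

theorem W1_P (l : V) (e0 e1 : ℂ) :
    Rc (Dm l) e0 e1 0 * Rc (Dm l) e0 e1 2 - Rc (Dm l) e0 e1 1 ^ 2 = pc l 0 * e0 ^ 4 +
      pc l 1 * e0 ^ 3 * e1 + pc l 2 * e0 ^ 2 * e1 ^ 2 + pc l 3 * e0 * e1 ^ 3 + pc l 4 * e1 ^ 4 := by
  have s1 := Dm_symm l 1 0
  have s2 := Dm_symm l 2 0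
  have s3 := Dm_symm l 2 1
  simp [pc, adjugate_fin_three, Rc, bil, l1, l2, mulVec, dotProduct, Fin.sum_univ_three, s1, s2, s3]
  ring

theorem W1_zero {N : ℕ} {α : Ix} {x : V × Zc} (h : x ∈ XX N ∩ OO α) :
    pc (pw N (mu α x)) 0 * et α x 0 ^ 4 + pc (pw N (mu α x)) 1 * et α x 0 ^ 3 * et α x 1 +
      pc (pw N (mu α x)) 2 * et α x 0 ^ 2 * et α x 1 ^ 2 +
      pc (pw N (mu α x)) 3 * et α x 0 * et α x 1 ^ 3 + pc (pw N (mu α x)) 4 * et α x 1 ^ 4 = 0 := by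
  have e : Rc (Dm (pw N (mu α x))) (et α x 0) (et α x 1) = bb (bc α x).1 (bc α x).2 :=
    sub_eq_zero.1 (rep_eq h).1
  rw [← W1_P, e]
  simp [bb]
  ring

theorem W1_smul (t : ℂ) (l : V) (d : Fin 5) : pc (t • l) d = t ^ 2 * pc l d := by
  fin_cases d <;> simp [pc, Dm_smul, adjugate_smul] <;> ring

theorem W1_sw {l : V} {e : ℂ} (r : ℂ) (he : e ≠ 0)
    (hP : pc l 0 + pc l 1 * e + pc l 2 * e ^ 2 + pc l 3 * e ^ 3 + pc l 4 * e ^ 4 = 0) :
    g1 l r e⁻¹ = g0 l r e * e := by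
  simp only [g0, g1]
  field_simp
  linear_combination (-(r ^ 3 + r ^ 2 * e + r * e ^ 2 + e ^ 3)) * hP

theorem rho_ne {l : V} (hl : l ≠ 0) : ∃ r : Fin 5, rho l (r.val : ℂ) ≠ 0 := by
  by_contra hc
  push Not at hc
  have h0 := hc 0
  have h1 := hc 1
  have h2 := hc 2
  have h3 := hc 3
  have h4 := hc 4
  simp only [rho] at h0 h1 h2 h3 h4
  norm_num at h0 h1 h2 h3 h4
  have p4 : pc l 4 = 0 := by linear_combination (h0 - 4 * h1 + 6 * h2 - 4 * h3 + h4) / 24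
  have p3 : pc l 3 = 0 := by linear_combination (-h0 + 3 * h1 - 3 * h2 + h3) / 6 - 6 * p4
  have p2 : pc l 2 = 0 := by linear_combination (h0 - 2 * h1 + h2) / 2 - 3 * p3 - 7 * p4
  have p1 : pc l 1 = 0 := by linear_combination h1 - h0 - p2 - p3 - p4
  refine Set.infinite_univ (α := ℂ) ((quartic_fin hl).1.subset fun e _ => ?_)
  have := W1_P l 1 e
  rw [h0, p1, p2, p3, p4] at this
  exact sub_eq_zero.1 (by rw [this]; ring)

theorem gg_eq {N : ℕ} {α : Ix} {x : V × Zc} (h : x ∈ XX N ∩ OO α) (r : ℂ) :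
    (r * et α x 0 - et α x 1) * gg N r α x = rho (pw N (mu α x)) r := by
  have h0 := W1_zero h
  have h1 := (rep_eq h).2.1
  by_cases e : α.1 = 0
  · rw [e] at h1
    rw [h1] at h0 ⊢
    rw [gg, if_pos e, g0, rho]
    linear_combination -h0
  · have e' : α.1 = 1 := by omega
    rw [e'] at h1
    rw [h1] at h0 ⊢
    rw [gg, if_neg e, g1, rho]
    linear_combination (-r ^ 4) * h0

theorem gg_ne {N : ℕ} {α : Ix} {x : V × Zc} (h : x ∈ XX N ∩ OO α) :
    ∃ r : Fin 5, gg N (r.val : ℂ) α x ≠ 0 := by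
  obtain ⟨r, hr⟩ := rho_ne (l := pw N (mu α x)) fun h0 => by
    have := congrFun h0 α.2
    simp [pw, (rep_eq h).2.2.1] at this
  exact ⟨r, right_ne_zero_of_mul (by rwa [gg_eq h])⟩

theorem gg_comp {N : ℕ} {α β : Ix} {x : V × Zc} (h : x ∈ XX N ∩ OO α ∩ OO β) (r : ℂ) :
    gg N r β x * mu α x β.2 ^ (4 * N) = gg N r α x * et α x β.1 := by
  obtain ⟨c1, c2, c3, c4, -⟩ := rep_chg h
  have ha := W1_zero h.1
  have hb := W1_zero (α := β) ⟨h.1.1, h.2⟩
  have h1 := (rep_eq h.1).2.1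
  have h2 := (rep_eq (α := β) ⟨h.1.1, h.2⟩).2.1
  have hs : pw N (mu α x) = (mu α x β.2 ^ (2 * N)) • pw N (mu β x) := by
    ext l
    simp only [pw, Pi.smul_apply, smul_eq_mul, c4, div_pow]
    rw [mul_div_cancel₀ _ (pow_ne_zero _ c2)]
  have hp : mu α x β.2 ^ (4 * N) = (mu α x β.2 ^ (2 * N)) ^ 2 := by ring
  have s0 : ∀ e, g0 (pw N (mu β x)) r e * mu α x β.2 ^ (4 * N) = g0 (pw N (mu α x)) r e := by
    intro e
    rw [hs, hp]
    simp only [g0, W1_smul]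
    ring
  have s1 : ∀ e, g1 (pw N (mu β x)) r e * mu α x β.2 ^ (4 * N) = g1 (pw N (mu α x)) r e := by
    intro e
    rw [hs, hp]
    simp only [g1, W1_smul]
    ring
  by_cases e : α.1 = 0 <;> by_cases f : β.1 = 0
  · rw [gg, gg, if_pos e, if_pos f, s0, c3, f, ← e, h1, div_one, mul_one]
  · have f' : β.1 = 1 := by omega
    rw [e] at h1
    rw [f'] at c1
    rw [h1] at ha
    rw [gg, gg, if_pos e, if_neg f, s1, c3, f', h1, one_div]
    exact W1_sw r c1 (by linear_combination ha)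
  · have e' : α.1 = 1 := by omega
    rw [e'] at h1
    rw [f] at c1
    rw [h1] at ha
    rw [gg, gg, if_neg e, if_pos f, s0, c3, f, h1, one_div]
    have := W1_sw (l := pw N (mu α x)) r (inv_ne_zero c1) (by
      field_simp
      linear_combination ha)
    rw [inv_inv] at this
    rw [this, mul_assoc, inv_mul_cancel₀ c1, mul_one]
  · have e' : α.1 = 1 := by omega
    have f' : β.1 = 1 := by omega
    rw [e'] at h1
    rw [gg, gg, if_neg e, if_neg f, s1, c3, f', h1, div_one, mul_one]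

theorem rep_an {α : Ix} {x : V × Zc} (h : x ∈ OO α) :
    (∀ k, AnalyticAt ℂ (fun x => et α x k) x) ∧ (∀ l, AnalyticAt ℂ (fun x => mu α x l) x) ∧
    AnalyticAt ℂ (fun x => (bc α x).1) x ∧ AnalyticAt ℂ (fun x => (bc α x).2) x := by
  have a1 : ∀ l, AnalyticAt ℂ (fun x : V × Zc => x.1 l) x := analyticAt_pi_iff.1 analyticAt_fst
  have a2 : ∀ l, AnalyticAt ℂ (fun x : V × Zc => x.2 l) x := analyticAt_pi_iff.1 analyticAt_snd
  exact ⟨fun k => (a2 _).div (a2 _) h.2, fun l => (a1 _).div (a1 _) h.1, (a2 _).div (a2 _) h.2,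
    (a2 _).div (a2 _) h.2⟩

theorem W1_an (d : Fin 5) (l : V) : AnalyticAt ℂ (fun l => pc l d) l := by
  have h : ∀ i j, ContDiff ℂ (⊤ : WithTop ℕ∞) fun l : V => Dm l i j := fun i j => by
    simp only [Dm, Matrix.add_apply, Matrix.smul_apply, smul_eq_mul]
    fun_prop
  refine ContDiffAt.analyticAt (ContDiff.contDiffAt ?_)
  fin_cases d <;> simp [pc, adjugate_fin_three] <;> fun_prop

theorem gg_an (N : ℕ) (r : ℂ) {α : Ix} {x : V × Zc} (h : x ∈ OO α) :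
    AnalyticAt ℂ (gg N r α) x := by
  obtain ⟨a1, a2, -, -⟩ := rep_an h
  have a3 : AnalyticAt ℂ (fun x => pw N (mu α x)) x :=
    analyticAt_pi_iff.2 fun l => (a2 l).pow _
  have a4 : ∀ d, AnalyticAt ℂ (fun x => pc (pw N (mu α x)) d) x := fun d =>
    (W1_an d _).comp a3
  have b0 := a1 0
  have b1 := a1 1
  unfold gg
  by_cases e : α.1 = 0
  · simp only [if_pos e, g0]
    fun_prop
  · simp only [if_neg e, g1]
    fun_prop

end Vale.Agent.P296
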