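import Vale.Agent.P296.W1

namespace Vale.Agent.P296

open Matrix Filter Topology MeasureTheory Metric Laplacian ComplexOrder

theorem w2_TT (N : ℕ) (α β : Ix) (x : V × Zc) (v : Fin 2 → ℂ) :
    ((TT N α β x)ᵀ *ᵥ v) 0 = mu α x β.2 * (et α x β.1 * (v 0 - sh α β x * v 1)) ∧
    ((TT N α β x)ᵀ *ᵥ v) 1 = mu α x β.2 * (mu α x β.2 ^ N / et α x β.1 * v 1) := by
  constructor
  · simp [TT, mulVec, dotProduct, Fin.sum_univ_two]; ring
  · simp [TT, mulVec, dotProduct, Fin.sum_univ_two]; ring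

theorem w2_gg_sc (N : ℕ) (r : ℂ) (α : Ix) (x : V × Zc) {s t : ℂ} (hs : s ≠ 0) (ht : t ≠ 0) :
    gg N r α (sc s t x) = gg N r α x := by
  obtain ⟨h1, h2, -⟩ := rep_sc (x := x) α hs ht
  simp only [gg, h1, h2]

theorem w2_fst {f : V × Zc → ℂ} {p : (V × Zc) × (Fin 2 → ℂ)} (h : AnalyticAt ℂ f p.1) :
    AnalyticAt ℂ (fun p : (V × Zc) × (Fin 2 → ℂ) => f p.1) p := h.comp analyticAt_fst

theorem w2_snd (k : Fin 2) (p : (V × Zc) × (Fin 2 → ℂ)) :
    AnalyticAt ℂ (fun p : (V × Zc) × (Fin 2 → ℂ) => p.2 k) p :=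
  ((ContinuousLinearMap.proj (R := ℂ) (φ := fun _ : Fin 2 => ℂ) k).analyticAt p.2).comp
    analyticAt_snd

theorem ws_et (N : ℕ) (r : ℂ) (k : Fin 2) : WS N 0 (4 * N) fun α x _ => gg N r α x * et α x k := by
  refine ⟨fun α p hp => (w2_fst (gg_an N r hp)).mul (w2_fst ((rep_an hp).1 k)),
    fun α x v c => by simp, fun α x v s t hs ht => ?_, fun α β x hx v => ?_⟩
  · simp only [w2_gg_sc N r α x hs ht, (rep_sc (x := x) α hs ht).1]
  · obtain ⟨hE, -, h1, -, -⟩ := rep_chg hx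
    have h2 := gg_comp hx r
    simp only [h1, pow_zero, one_mul]
    field_simp
    linear_combination et α x k * h2

theorem ws_b1 (N : ℕ) (r : ℂ) : WS N 0 (5 * N) fun α x _ => gg N r α x * (bc α x).1 := by
  refine ⟨fun α p hp => (w2_fst (gg_an N r hp)).mul (w2_fst (rep_an hp).2.2.1),
    fun α x v c => by simp, fun α x v s t hs ht => ?_, fun α β x hx v => ?_⟩
  · simp only [w2_gg_sc N r α x hs ht, (rep_sc (x := x) α hs ht).2.2]
  · obtain ⟨hE, hm, -, -, h1⟩ := rep_chg hx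
    have h2 := gg_comp hx r
    have e : mu α x β.2 ^ (5 * N) = mu α x β.2 ^ (4 * N) * mu α x β.2 ^ N := by ring
    simp only [h1, pow_zero, one_mul, e]
    field_simp
    linear_combination (bc α x).1 * h2

theorem ws_b2 (N : ℕ) (r : ℂ) : WS N 0 (5 * N) fun α x _ => gg N r α x * (bc α x).2 := by
  refine ⟨fun α p hp => (w2_fst (gg_an N r hp)).mul (w2_fst (rep_an hp).2.2.2),
    fun α x v c => by simp, fun α x v s t hs ht => ?_, fun α β x hx v => ?_⟩
  · simp only [w2_gg_sc N r α x hs ht, (rep_sc (x := x) α hs ht).2.2]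
  · obtain ⟨hE, hm, -, -, h1⟩ := rep_chg hx
    have h2 := gg_comp hx r
    have e : mu α x β.2 ^ (5 * N) = mu α x β.2 ^ (4 * N) * mu α x β.2 ^ N := by ring
    simp only [h1, pow_zero, one_mul, e]
    field_simp
    linear_combination (bc α x).2 * h2

theorem ws_v1 (N : ℕ) (r : ℂ) : WS N 1 (3 * N) fun α x v => gg N r α x * v 1 := by
  refine ⟨fun α p hp => (w2_fst (gg_an N r hp)).mul (w2_snd 1 p),
    fun α x v c => by simp; ring, fun α x v s t hs ht => ?_, fun α β x hx v => ?_⟩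
  · simp only [w2_gg_sc N r α x hs ht]
  · obtain ⟨hE, hm, -, -, -⟩ := rep_chg hx
    have h2 := gg_comp hx r
    have e : mu α x β.2 ^ (4 * N) = mu α x β.2 ^ (3 * N) * mu α x β.2 ^ N := by ring
    rw [e] at h2
    simp only [(w2_TT N α β x v).2, pow_one]
    field_simp
    linear_combination v 1 * h2

theorem w2_key {N : ℕ} {α β : Ix} {x : V × Zc} (hx : x ∈ XX N ∩ OO α ∩ OO β) (i : Fin 2) :
    et α x β.1 ^ 2 * (et α x i ^ 3 * sh α β x) + ((i.val : ℂ) - β.1.val) * et α x i *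
      ((bc α x).1 * et α x 1 + (bc α x).2 * et α x 0) =
    et α x β.1 ^ 2 * (((i.val : ℂ) - α.1.val) * et α x i *
      ((bc α x).1 * et α x 1 + (bc α x).2 * et α x 0)) := by
  obtain ⟨hE, -, -, -, -⟩ := rep_chg hx
  have h1 := (rep_eq hx.1).2.1
  obtain ⟨a, j⟩ := α
  obtain ⟨b, l⟩ := β
  fin_cases a <;> fin_cases b <;> fin_cases i <;>
    simp only [Fin.zero_eta, Fin.mk_one, Fin.isValue] at h1 hE ⊢ <;>
    simp [sh, h1] <;> field_simp <;> first | ring1 | simp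

theorem ws_uu (N : ℕ) (r : ℂ) (i : Fin 2) : WS N 1 (8 * N) (uu N r i) := by
  refine ⟨fun α p hp => ?_, fun α x v c => by simp [uu]; ring, fun α x v s t hs ht => ?_,
    fun α β x hx v => ?_⟩
  · obtain ⟨h1, -, h2, h3⟩ := rep_an hp
    exact ((w2_fst (gg_an N r hp)).pow 2).mul ((((w2_fst (h1 i)).pow 3).mul (w2_snd 0 p)).sub
      (((analyticAt_const.mul (w2_fst (h1 i))).mul (((w2_fst h2).mul (w2_fst (h1 1))).add
        ((w2_fst h3).mul (w2_fst (h1 0))))).mul (w2_snd 1 p)))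
  · simp only [uu, w2_gg_sc N r α x hs ht, (rep_sc (x := x) α hs ht).1,
      (rep_sc (x := x) α hs ht).2.2]
  · obtain ⟨hE, hm, h1, -, h3⟩ := rep_chg hx
    have h2 := gg_comp hx r
    have h4 := w2_key hx i
    have hg : gg N r β x = gg N r α x * et α x β.1 / mu α x β.2 ^ (4 * N) := by
      rw [← h2]; field_simp
    have e : mu α x β.2 ^ (8 * N) = (mu α x β.2 ^ (4 * N)) ^ 2 := by ring
    have hm4 : mu α x β.2 ^ (4 * N) ≠ 0 := pow_ne_zero _ hm
    have hm1 : mu α x β.2 ^ N ≠ 0 := pow_ne_zero _ hm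
    simp only [uu, (w2_TT N α β x v).1, (w2_TT N α β x v).2, pow_one, h1, h3, hg, e]
    generalize mu α x β.2 ^ (4 * N) = M4 at *
    generalize mu α x β.2 ^ N = M1 at *
    field_simp
    linear_combination (-(gg N r α x ^ 2 * v 1)) * h4

end Vale.Agent.P296
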