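import Vale.Agent.P296.W0
import Vale.Agent.P296.W2

namespace Vale.Agent.P296

open Matrix Filter Topology MeasureTheory Metric Laplacian ComplexOrder

theorem sect2 (N : ℕ) (j : Jx) : Sect (XX N) OO (TT N) (16 * N + 2) (sec2 N j) := by
  obtain ⟨k, l, r, i, k', l', τ⟩ := j
  have q := ws_qc N k
  have Q := q.pow (8 * N)
  have m := fun n => (ws_mu N l).pow n
  have u := ws_uu N (r.val : ℂ) i
  have w := ws_v1 N (r.val : ℂ)
  fin_cases τ
  · exact (Q.mul (((ws_qc N k').mul (ws_mu N l')).mul (m (16 * N + 1)))).sect (by omega) (by omega)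
  · exact (Q.mul ((q.mul (ws_et N (r.val : ℂ) 0)).mul (m (12 * N + 2)))).sect (by omega) (by omega)
  · exact (Q.mul ((q.mul (ws_et N (r.val : ℂ) 1)).mul (m (12 * N + 2)))).sect (by omega) (by omega)
  · exact (Q.mul ((q.mul (ws_b1 N (r.val : ℂ))).mul (m (11 * N + 2)))).sect (by omega) (by omega)
  · exact (Q.mul ((q.mul (ws_b2 N (r.val : ℂ))).mul (m (11 * N + 2)))).sect (by omega) (by omega)
  · exact (Q.mul ((u.mul u).mul (m 2))).sect (by omega) (by omega)
  · exact (Q.mul ((u.mul w).mul (m (5 * N + 2)))).sect (by omega) (by omega)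
  · exact (Q.mul ((w.mul w).mul (m (10 * N + 2)))).sect (by omega) (by omega)

theorem sec2_ne {N : ℕ} {α : Ix} {x : V × Zc} (h : x ∈ XX N ∩ OO α) {v : Fin 2 → ℂ} (hv : v ≠ 0) :
    ∃ j, sec2 N j α x v ≠ 0 := by
  obtain ⟨k, hk⟩ := Function.ne_iff.mp (qc_ne h hv)
  refine ⟨(k, α.2, 0, 0, k, α.2, 0), ?_⟩
  have hm := (rep_eq h).2.2.1
  show qc N α x v k ^ (8 * N) * (qc N α x v k * mu α x α.2 * mu α x α.2 ^ (16 * N + 1)) ≠ 0
  rw [hm, mul_one, one_pow, mul_one]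
  exact mul_ne_zero (pow_ne_zero _ hk) hk

end Vale.Agent.P296
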