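import Vale.Agent.P296.W3

namespace Vale.Agent.P296

open Matrix Filter Topology MeasureTheory Metric Laplacian ComplexOrder

theorem W4_val {N : ℕ} {α : Ix} {x : V × Zc} (h : x ∈ XX N ∩ OO α) (v : Fin 2 → ℂ) (k : Fin 3)
    (r : Fin 5) :
    (∀ l, sec2 N (k, α.2, r, α.1, k, l, 0) α x v =
      qc N α x v k ^ (8 * N) * qc N α x v k * mu α x l) ∧
    (sec2 N (k, α.2, r, α.1, k, 0, 1) α x v =
      qc N α x v k ^ (8 * N) * qc N α x v k * (gg N (r.val : ℂ) α x * et α x 0)) ∧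
    (sec2 N (k, α.2, r, α.1, k, 0, 2) α x v =
      qc N α x v k ^ (8 * N) * qc N α x v k * (gg N (r.val : ℂ) α x * et α x 1)) ∧
    (sec2 N (k, α.2, r, α.1, k, 0, 3) α x v =
      qc N α x v k ^ (8 * N) * qc N α x v k * (gg N (r.val : ℂ) α x * (bc α x).1)) ∧
    (sec2 N (k, α.2, r, α.1, k, 0, 4) α x v =
      qc N α x v k ^ (8 * N) * qc N α x v k * (gg N (r.val : ℂ) α x * (bc α x).2)) ∧
    (sec2 N (k, α.2, r, α.1, k, 0, 5) α x v =
      qc N α x v k ^ (8 * N) * (gg N (r.val : ℂ) α x ^ 4 * v 0 ^ 2)) ∧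
    (sec2 N (k, α.2, r, α.1, k, 0, 6) α x v =
      qc N α x v k ^ (8 * N) * (gg N (r.val : ℂ) α x ^ 3 * (v 0 * v 1))) ∧
    (sec2 N (k, α.2, r, α.1, k, 0, 7) α x v =
      qc N α x v k ^ (8 * N) * (gg N (r.val : ℂ) α x ^ 2 * v 1 ^ 2)) := by
  obtain ⟨-, e1, m1, -⟩ := rep_eq h
  have hu : uu N (r.val : ℂ) α.1 α x v = gg N (r.val : ℂ) α x ^ 2 * v 0 := by
    simp [uu, e1]
  refine ⟨fun l => ?_, ?_, ?_, ?_, ?_, ?_, ?_, ?_⟩ <;>
    simp only [sec2, hu, m1, one_pow, mul_one] <;> simp only [cons_val] <;> ring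

theorem inj_same {N : ℕ} {α : Ix} {x x' : V × Zc} (h : x ∈ XX N ∩ OO α) (h' : x' ∈ XX N ∩ OO α)
    {v v' : Fin 2 → ℂ} (hv : v ≠ 0) {c : ℂ} (hc : c ≠ 0)
    (e : ∀ j, sec2 N j α x' v' = c * sec2 N j α x v) :
    ∃ s t c : ℂ, s ≠ 0 ∧ t ≠ 0 ∧ x' = sc s t x ∧ v' = c • v := by
  obtain ⟨k, hk⟩ := Function.ne_iff.1 (qc_ne h hv)
  obtain ⟨r, hr⟩ := gg_ne h
  obtain ⟨a0, a1, a2, a3, a4, a5, a6, a7⟩ := W4_val h v k r
  obtain ⟨b0, b1, b2, b3, b4, b5, b6, b7⟩ := W4_val h' v' k r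
  obtain ⟨-, e1, m1, x1⟩ := rep_eq h
  obtain ⟨-, e1', m1', x1'⟩ := rep_eq h'
  simp only [e] at b0 b1 b2 b3 b4 b5 b6 b7
  simp only [a0, a1, a2, a3, a4, a5, a6, a7] at b0 b1 b2 b3 b4 b5 b6 b7
  have hP : qc N α x v k ^ (8 * N) ≠ 0 := pow_ne_zero _ hk
  have hk' : qc N α x v k ≠ 0 := hk
  clear a0 a1 a2 a3 a4 a5 a6 a7 hk e
  generalize qc N α x v k ^ (8 * N) = P at *
  generalize qc N α x' v' k ^ (8 * N) = P' at *
  generalize qc N α x v k = q at *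
  generalize qc N α x' v' k = q' at *
  generalize gg N (r.val : ℂ) α x = g at *
  generalize gg N (r.val : ℂ) α x' = g' at *
  have c0 := b0 α.2
  rw [m1, m1', mul_one, mul_one] at c0
  have hQ : P' * q' ≠ 0 := c0 ▸ mul_ne_zero hc (mul_ne_zero hP hk')
  have hP' := left_ne_zero_of_mul hQ
  have canc : ∀ a b : ℂ, c * (P * q * a) = P' * q' * b → b = a := fun a b hab =>
    mul_left_cancel₀ hQ (by rw [← hab, ← c0]; ring)
  have d0 : mu α x' = mu α x := funext fun l => canc _ _ (b0 l)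
  have d1 : ∀ i, g' * et α x' i = g * et α x i := fun i => by
    fin_cases i
    · exact canc _ _ b1
    · exact canc _ _ b2
  have d2 : g' = g := by simpa [e1, e1'] using d1 α.1
  subst d2
  have d3 : et α x' = et α x := funext fun i => mul_left_cancel₀ hr (d1 i)
  have d4 : bc α x' = bc α x :=
    Prod.ext (mul_left_cancel₀ hr (canc _ _ b3)) (mul_left_cancel₀ hr (canc _ _ b4))
  have d5 : rep α x' = rep α x := by simp only [rep, d0, d3, d4]
  have f0 : P' * v' 0 ^ 2 = c * P * v 0 ^ 2 :=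
    mul_left_cancel₀ (pow_ne_zero 4 hr) (by linear_combination -b5)
  have f1 : P' * (v' 0 * v' 1) = c * P * (v 0 * v 1) :=
    mul_left_cancel₀ (pow_ne_zero 3 hr) (by linear_combination -b6)
  have f2 : P' * v' 1 ^ 2 = c * P * v 1 ^ 2 :=
    mul_left_cancel₀ (pow_ne_zero 2 hr) (by linear_combination -b7)
  have f3 : v' 0 * v 1 = v' 1 * v 0 := by
    have : P' * (v' 0 * v 1 - v' 1 * v 0) ^ 2 = 0 := by
      linear_combination v 1 ^ 2 * f0 - 2 * v 0 * v 1 * f1 + v 0 ^ 2 * f2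
    exact sub_eq_zero.1 (pow_eq_zero_iff two_ne_zero |>.1 ((mul_eq_zero.1 this).resolve_left hP'))
  have f4 : ∃ d : ℂ, v' = d • v := by
    by_cases h0 : v 0 = 0
    · have h1 : v 1 ≠ 0 := fun h1 => hv (by ext i; fin_cases i <;> simp [h0, h1])
      refine ⟨v' 1 / v 1, ?_⟩
      ext i
      fin_cases i
      · show v' 0 = v' 1 / v 1 * v 0
        field_simp
        exact f3
      · show v' 1 = v' 1 / v 1 * v 1
        field_simp
    · refine ⟨v' 0 / v 0, ?_⟩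
      ext i
      fin_cases i
      · show v' 0 = v' 0 / v 0 * v 0
        field_simp
      · show v' 1 = v' 0 / v 0 * v 1
        field_simp
        exact f3.symm
  obtain ⟨d, hd⟩ := f4
  refine ⟨x'.1 α.2 / x.1 α.2, x'.2 (ix α.1 α.2) / x.2 (ix α.1 α.2), d,
    div_ne_zero h'.2.1 h.2.1, div_ne_zero h'.2.2 h.2.2, ?_, hd⟩
  rw [d5] at x1'
  have n1 := h.2.1
  have n2 := h.2.2
  generalize x.1 α.2 = s at *
  generalize x.2 (ix α.1 α.2) = t at *
  generalize x'.1 α.2 = s' at *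
  generalize x'.2 (ix α.1 α.2) = t' at *
  generalize pt N (rep α x) = y at *
  rw [x1, x1']
  simp only [sc, smul_smul, div_mul_cancel₀ _ n1, div_mul_cancel₀ _ n2]

end Vale.Agent.P296
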