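import Vale.Agent.P296.W4
import Vale.Agent.P296.B1

namespace Vale.Agent.P296

open Matrix Filter Topology MeasureTheory Metric Laplacian ComplexOrder

theorem W5_sec (N : ℕ) (k l : Fin 3) (r : Fin 5) (i : Fin 2) : ∃ j, ∀ β x v, sec2 N j β x v =
    qc N β x v k ^ (8 * N) * (qc N β x v k * (gg N (r.val : ℂ) β x * et β x i) *
      mu β x l ^ (12 * N + 2)) := by
  fin_cases i
  · exact ⟨(k, l, r, 0, k, l, 1), fun _ _ _ => rfl⟩
  · exact ⟨(k, l, r, 0, k, l, 2), fun _ _ _ => rfl⟩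

theorem inj_gen {N : ℕ} {α β : Ix} {x x' : V × Zc} (h : x ∈ XX N ∩ OO α)
    (h' : x' ∈ XX N ∩ OO β) {v v' : Fin 2 → ℂ} (hv : v ≠ 0) (hv' : v' ≠ 0) {c : ℂ}
    (e : ∀ j, sec2 N j β x' v' = c * sec2 N j α x v) :
    ∃ s t c : ℂ, s ≠ 0 ∧ t ≠ 0 ∧ x' = sc s t x ∧ v' = c • (TT N α β x)ᵀ *ᵥ v := by
  have hc : c ≠ 0 := by
    obtain ⟨j, hj⟩ := sec2_ne h' hv'
    rw [e j] at hj
    exact left_ne_zero_of_mul hj
  have hO : x' ∈ OO α := by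
    obtain ⟨k, hk⟩ := Function.ne_iff.mp (qc_ne h hv)
    obtain ⟨r, hr⟩ := gg_ne h
    obtain ⟨j, hj⟩ := W5_sec N k α.2 r α.1
    have a1 : sec2 N j β x' v' ≠ 0 := by
      rw [e j, hj, (rep_eq h).2.1, (rep_eq h).2.2.1, mul_one, one_pow, mul_one]
      exact mul_ne_zero hc (mul_ne_zero (pow_ne_zero _ hk) (mul_ne_zero hk hr))
    rw [hj] at a1
    have a2 := right_ne_zero_of_mul a1
    have a3 : mu β x' α.2 ≠ 0 := fun z => right_ne_zero_of_mul a2 (by rw [z]; simp)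
    have a4 : et β x' α.1 ≠ 0 := right_ne_zero_of_mul (right_ne_zero_of_mul
      (left_ne_zero_of_mul a2))
    have a5 : x'.1 α.2 ≠ 0 := (div_ne_zero_iff.mp a3).1
    have a6 : x'.2 (ix α.1 β.2) ≠ 0 := (div_ne_zero_iff.mp a4).1
    have a7 := mul_ne_zero a6 (pow_ne_zero N a5)
    rw [h'.1.2.2.1 α.1 β.2 α.2] at a7
    exact ⟨a5, left_ne_zero_of_mul a7⟩
  obtain ⟨s, t, c', hs, ht, hx, hw⟩ := inj_same (v' := (TT N β α x')ᵀ *ᵥ v') h ⟨h'.1, hO⟩ hv hc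
    fun j => by rw [(sect2 N j).comp β α x' ⟨h', hO⟩ v', e j]
  refine ⟨s, t, c', hs, ht, hx, ?_⟩
  have b1 : sc s⁻¹ t⁻¹ x' = x := by
    rw [hx]
    simp [sc, smul_smul, hs, ht]
  have b2 : TT N α β x = TT N α β x' := by
    rw [← b1]
    exact (bundle N).invT α β x' ⟨⟨h'.1, hO⟩, h'.2⟩ _ _ (inv_ne_zero hs) (inv_ne_zero ht)
  rw [b2, ← mulVec_smul, ← hw, mulVec_mulVec, ← transpose_mul,
    (bundle N).coc β α β x' ⟨⟨h', hO⟩, h'.2⟩, (bundle N).one β x' h', transpose_one, one_mulVec]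

end Vale.Agent.P296
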