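import Vale.Agent.P296.Alg0
import Vale.Agent.P296.Def2

namespace Vale.Agent.P296

open Matrix Filter Topology MeasureTheory Metric Laplacian ComplexOrder

theorem X1_ix (N : ℕ) (p : (ℂ × ℂ) × V × (ℂ × ℂ)) (i : Fin 2) (j : Fin 3) :
    (pt N p).2 (ix i j) = ![p.1.1, p.1.2] i * p.2.1 j ^ N := by
  fin_cases i <;> fin_cases j <;> rfl

theorem X1_six (N : ℕ) (p : (ℂ × ℂ) × V × (ℂ × ℂ)) : (pt N p).2 6 = p.2.2.1 := rfl

theorem X1_seven (N : ℕ) (p : (ℂ × ℂ) × V × (ℂ × ℂ)) : (pt N p).2 7 = p.2.2.2 := rfl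

theorem X1_hom (M : M3) (c e0 e1 : ℂ) : Rc M (c * e0) (c * e1) = c ^ 2 • Rc M e0 e1 := by
  ext k
  fin_cases k <;> simp [Rc, bil, l1, l2, mulVec, dotProduct, Fin.sum_univ_three] <;> ring

theorem X1_bb (c b1 b2 : ℂ) : bb (c * b1) (c * b2) = c ^ 2 • bb b1 b2 := by
  ext k
  fin_cases k <;> simp [bb] <;> ring

theorem X1_lin (l : V) (e0 e1 : ℂ) : Rc (Dm l) e0 e1 = ∑ j, l j • Rc (Dj j) e0 e1 := by
  ext k
  fin_cases k <;>
    simp [Rc, bil, Dm, Dj, Fin.sum_univ_three, add_mulVec, smul_mulVec, dotProduct_add]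

theorem X1_sum (N : ℕ) (p : (ℂ × ℂ) × V × (ℂ × ℂ)) :
    ∑ j, Rc (Dj j) ((pt N p).2 (ix 0 j)) ((pt N p).2 (ix 1 j)) =
      Rc (Dm (pw N p.2.1)) p.1.1 p.1.2 := by
  rw [X1_lin]
  refine Finset.sum_congr rfl fun j _ => ?_
  rw [X1_ix, X1_ix, mul_comm _ (p.2.1 j ^ N), mul_comm _ (p.2.1 j ^ N), X1_hom, pw, ← pow_mul,
    mul_comm N]
  rfl

theorem X1_ext {z w : Zc} (h : ∀ i j, z (ix i j) = w (ix i j)) (h6 : z 6 = w 6) (h7 : z 7 = w 7) :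
    z = w := by
  ext k
  fin_cases k
  exacts [h 0 0, h 0 1, h 0 2, h 1 0, h 1 1, h 1 2, h6, h7]

theorem X1_key {N : ℕ} {x : V × Zc} (h : x ∈ XX N) {j : Fin 3} (hj : x.1 j ≠ 0) (i : Fin 2)
    (l : Fin 3) : x.2 (ix i l) = x.2 (ix i j) * (x.1 l / x.1 j) ^ N := by
  rw [div_pow, ← mul_div_assoc, h.2.2.1 i j l, mul_div_cancel_right₀ _ (pow_ne_zero _ hj)]

theorem pt_mem {N : ℕ} {p : (ℂ × ℂ) × V × (ℂ × ℂ)} (h1 : p.1 ≠ 0) (h2 : p.2.1 ≠ 0)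
    (h : Feq N p = 0) : pt N p ∈ XX N := by
  refine ⟨h2, fun h0 => ?_, fun i j l => ?_, ?_⟩
  · obtain ⟨j, hj⟩ := Function.ne_iff.1 h2
    have e : ∀ i, ![p.1.1, p.1.2] i = 0 := fun i => by
      have := X1_ix N p i j
      rw [h0] at this
      exact (mul_eq_zero.1 this.symm).resolve_right (pow_ne_zero _ hj)
    exact h1 (Prod.ext (e 0) (e 1))
  · rw [X1_ix, X1_ix]
    show _ * p.2.1 l ^ N = _ * p.2.1 j ^ N
    ring
  · rw [X1_sum]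
    exact sub_eq_zero.1 h

theorem xx_cover {N : ℕ} {x : V × Zc} (h : x ∈ XX N) : ∃ α, x ∈ OO α ∧ (∀ l, ‖mu α x l‖ ≤ 1) ∧
    ∀ k, ‖et α x k‖ ≤ 1 := by
  obtain ⟨j, hj⟩ := Finite.exists_max fun j => ‖x.1 j‖
  obtain ⟨i, hi⟩ := Finite.exists_max fun i => ‖x.2 (ix i j)‖
  have h1 : x.1 j ≠ 0 := fun h0 => h.1 (funext fun l => by
    have := hj l
    rw [h0, norm_zero] at this
    exact norm_le_zero_iff.1 this)
  have h2 : x.2 (ix i j) ≠ 0 := fun h0 => by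
    have e : ∀ k l, x.2 (ix k l) = 0 := fun k l => by
      have := hi k
      rw [h0, norm_zero] at this
      rw [X1_key h h1, norm_le_zero_iff.1 this, zero_mul]
    have e2 := h.2.2.2
    simp only [e] at e2
    have e3 : ∀ M : M3, Rc M 0 0 = 0 := fun M => by simpa using X1_hom M 0 0 0
    simp only [e3, Finset.sum_const_zero] at e2
    have e6 := congrFun e2 0
    have e7 := congrFun e2 2
    simp [bb] at e6 e7
    exact h.2.1 (X1_ext e (pow_eq_zero_iff two_ne_zero |>.1 e6.symm)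
      (pow_eq_zero_iff two_ne_zero |>.1 e7.symm))
  refine ⟨(i, j), ⟨h1, h2⟩, fun l => ?_, fun k => ?_⟩
  · rw [mu, norm_div]
    exact div_le_one_of_le₀ (hj l) (norm_nonneg _)
  · rw [et, norm_div]
    exact div_le_one_of_le₀ (hi k) (norm_nonneg _)

theorem rep_eq {N : ℕ} {x : V × Zc} {α : Fin 2 × Fin 3} (h : x ∈ XX N ∩ OO α) :
    Feq N (rep α x) = 0 ∧ et α x α.1 = 1 ∧ mu α x α.2 = 1 ∧
      x = sc (x.1 α.2) (x.2 (ix α.1 α.2)) (pt N (rep α x)) := by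
  obtain ⟨hX, h1, h2⟩ := h
  have e : ∀ i l, x.2 (ix i l) = x.2 (ix α.1 α.2) * (pt N (rep α x)).2 (ix i l) := fun i l => by
    have : ![(rep α x).1.1, (rep α x).1.2] i = et α x i := by fin_cases i <;> rfl
    rw [X1_ix, this, X1_key hX h1, et, ← mul_assoc, mul_div_cancel₀ _ h2]
    rfl
  have e6 : x.2 6 = x.2 (ix α.1 α.2) * (bc α x).1 := (mul_div_cancel₀ _ h2).symm
  have e7 : x.2 7 = x.2 (ix α.1 α.2) * (bc α x).2 := (mul_div_cancel₀ _ h2).symm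
  refine ⟨?_, div_self h2, div_self h1, Prod.ext (funext fun l => ?_) (X1_ext e e6 e7)⟩
  · have e2 := hX.2.2.2
    rw [e6, e7, X1_bb, Finset.sum_congr rfl fun j _ => by rw [e 0 j, e 1 j, X1_hom],
      ← Finset.smul_sum, X1_sum] at e2
    exact sub_eq_zero.2 (smul_right_injective _ (pow_ne_zero 2 h2) e2)
  · exact (mul_div_cancel₀ _ h1).symm

theorem rep_sc {x : V × Zc} (α : Fin 2 × Fin 3) {s t : ℂ} (hs : s ≠ 0) (ht : t ≠ 0) :
    et α (sc s t x) = et α x ∧ mu α (sc s t x) = mu α x ∧ bc α (sc s t x) = bc α x :=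
  ⟨funext fun _ => mul_div_mul_left _ _ ht, funext fun _ => mul_div_mul_left _ _ hs,
    Prod.ext (mul_div_mul_left _ _ ht) (mul_div_mul_left _ _ ht)⟩

theorem rep_pt {N : ℕ} {p : (ℂ × ℂ) × V × (ℂ × ℂ)} {α : Fin 2 × Fin 3} (h : pt N p ∈ OO α) :
    ![p.1.1, p.1.2] α.1 ≠ 0 ∧ p.2.1 α.2 ≠ 0 ∧
    (∀ k, et α (pt N p) k = ![p.1.1, p.1.2] k / ![p.1.1, p.1.2] α.1) ∧
    (∀ l, mu α (pt N p) l = p.2.1 l / p.2.1 α.2) ∧
    bc α (pt N p) = (p.2.2.1 / (![p.1.1, p.1.2] α.1 * p.2.1 α.2 ^ N),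
      p.2.2.2 / (![p.1.1, p.1.2] α.1 * p.2.1 α.2 ^ N)) := by
  obtain ⟨h1, h2⟩ := h
  rw [X1_ix] at h2
  refine ⟨left_ne_zero_of_mul h2, h1, fun k => ?_, fun l => rfl, ?_⟩
  · rw [et, X1_ix, X1_ix, mul_div_mul_right _ _ (right_ne_zero_of_mul h2)]
  · rw [bc, X1_ix, X1_six, X1_seven]

theorem rep_chg {N : ℕ} {x : V × Zc} {α β : Fin 2 × Fin 3} (h : x ∈ XX N ∩ OO α ∩ OO β) :
    et α x β.1 ≠ 0 ∧ mu α x β.2 ≠ 0 ∧ (∀ k, et β x k = et α x k / et α x β.1) ∧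
    (∀ l, mu β x l = mu α x l / mu α x β.2) ∧
    bc β x = ((bc α x).1 / (et α x β.1 * mu α x β.2 ^ N),
      (bc α x).2 / (et α x β.1 * mu α x β.2 ^ N)) := by
  obtain ⟨⟨hX, a1, a2⟩, b1, b2⟩ := h
  have key := X1_key hX a1
  have c1 := b2
  rw [key] at c1
  have c2 := left_ne_zero_of_mul c1
  have c3 := right_ne_zero_of_mul c1
  refine ⟨div_ne_zero c2 a2, div_ne_zero b1 a1, fun k => ?_, fun l => ?_, ?_⟩
  · simp only [et]
    rw [key k β.2, key β.1 β.2, mul_div_mul_right _ _ c3, div_div_div_cancel_right₀ a2]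
  · simp only [mu]
    rw [div_div_div_cancel_right₀ a1]
  · simp only [bc, et, mu]
    rw [key β.1 β.2]
    generalize (x.1 β.2 / x.1 α.2) ^ N = r at c3
    refine Prod.ext ?_ ?_ <;> simp only <;> field_simp

theorem xx_inv {N : ℕ} {x : V × Zc} (h : x ∈ XX N) {s t : ℂ} (hs : s ≠ 0) (ht : t ≠ 0) :
    sc s t x ∈ XX N := by
  refine ⟨smul_ne_zero hs h.1, smul_ne_zero ht h.2.1, fun i j l => ?_, ?_⟩
  · show t * x.2 (ix i j) * (s * x.1 l) ^ N = t * x.2 (ix i l) * (s * x.1 j) ^ N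
    rw [mul_pow, mul_pow]
    linear_combination t * s ^ N * h.2.2.1 i j l
  · show ∑ j, Rc (Dj j) (t * x.2 (ix 0 j)) (t * x.2 (ix 1 j)) = bb (t * x.2 6) (t * x.2 7)
    simp only [X1_hom, X1_bb]
    rw [← Finset.smul_sum, h.2.2.2]

theorem xx_closed {N : ℕ} {x : V × Zc} (h : x ∈ closure (XX N)) (h1 : x.1 ≠ 0) (h2 : x.2 ≠ 0) :
    x ∈ XX N := by
  refine ⟨h1, h2, fun i j l => ?_, ?_⟩
  · exact closure_minimal (s := XX N)
      (t := {x : V × Zc | x.2 (ix i j) * x.1 l ^ N = x.2 (ix i l) * x.1 j ^ N})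
      (fun y hy => hy.2.2.1 i j l) (isClosed_eq (by fun_prop) (by fun_prop)) h
  · refine closure_minimal (s := XX N)
      (t := {x : V × Zc | ∑ j, Rc (Dj j) (x.2 (ix 0 j)) (x.2 (ix 1 j)) = bb (x.2 6) (x.2 7)})
      (fun y hy => hy.2.2.2) (isClosed_eq (continuous_finsetSum _ fun j _ => ?_) ?_) h
    · refine continuous_pi fun k => ?_
      fin_cases k <;> simp [Rc, bil, l1, l2, mulVec, dotProduct, Fin.sum_univ_three] <;> fun_prop
    · refine continuous_pi fun k => ?_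
      fin_cases k <;> simp [bb] <;> fun_prop

end Vale.Agent.P296
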