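import Vale.Agent.P296.X1
import Vale.Agent.P296.Der
import Vale.Agent.P296.LK

namespace Vale.Agent.P296

open Matrix Filter Topology MeasureTheory Metric Laplacian ComplexOrder

theorem feq_surj {N : ℕ} (hN : 0 < N) {p : (ℂ × ℂ) × V × (ℂ × ℂ)} (h1 : p.1 ≠ 0) (h2 : p.2.1 ≠ 0)
    (h : Feq N p = 0) : Function.Surjective (fderiv ℂ (Feq N) p) := by
  by_contra hn
  have hr : LinearMap.range (fderiv ℂ (Feq N) p : ((ℂ × ℂ) × V × (ℂ × ℂ)) →ₗ[ℂ] V) < ⊤ := by
    rw [lt_top_iff_ne_top]
    exact fun h' => hn (LinearMap.range_eq_top.1 h')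
  obtain ⟨f, f0, hf⟩ := Submodule.exists_le_ker_of_lt_top _ hr
  obtain ⟨S, hS⟩ : ∃ S : V, ∀ y, f y = S ⬝ᵥ y := ⟨fun i => f (Pi.single i 1), fun y => by
    rw [LinearMap.pi_apply_eq_sum_univ f y, dotProduct]
    refine Finset.sum_congr rfl fun i _ => ?_
    rw [smul_eq_mul, mul_comm]
    congr 2
    ext j
    simp [Pi.single_apply, eq_comm]⟩
  have key : ∀ d, S ⬝ᵥ fderiv ℂ (Feq N) p d = 0 := fun d => by
    rw [← hS]
    exact hf ⟨d, rfl⟩
  have z1 : ∀ (M : M3) (a b : ℂ), Rp M a b 0 0 = 0 := fun M a b => by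
    ext i
    fin_cases i <;> simp [Rp, bil, l1, l2, dotProduct, mulVec, Fin.sum_univ_three]
  have z2 : ∀ a b : ℂ, dbb a b 0 0 = 0 := fun a b => by
    ext i
    fin_cases i <;> simp [dbb]
  have hl : pw N p.2.1 ≠ 0 := fun h' => h2 (funext fun j => by
    have := congrFun h' j
    exact pow_eq_zero_iff (by omega) |>.1 this)
  have hS0 : S = 0 := left_ker (l := pw N p.2.1) (e0 := p.1.1) (e1 := p.1.2) (b1 := p.2.2.1)
    (b2 := p.2.2.2) h1 hl (sub_eq_zero.1 h)
    (fun d1 d2 => by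
      have := key ((0, 0), 0, (d1, d2))
      rw [fd_Feq] at this
      simpa [z1] using this)
    (fun j => by
      have := key ((0, 0), Pi.single j (p.2.1 j), (0, 0))
      rw [fd_Feq, Finset.sum_eq_single j (fun i _ hi => by simp [hi]) (by simp)] at this
      simp only [z1, z2, zero_add, sub_zero, Pi.single_eq_same, dotProduct_smul,
        smul_eq_mul] at this
      have e : p.2.1 j ^ (2 * N) = p.2.1 j ^ (2 * N - 1) * p.2.1 j := by
        rw [← pow_succ]
        congr 1
        omega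
      have hN' : ((2 * N : ℕ) : ℂ) ≠ 0 := by exact_mod_cast (by omega : 2 * N ≠ 0)
      refine mul_left_cancel₀ hN' ?_
      show _ * (p.2.1 j ^ (2 * N) * _) = _
      rw [e]
      linear_combination this)
    (fun f0 f1 => by
      have := key ((f0, f1), 0, (0, 0))
      rw [fd_Feq] at this
      simpa [z2] using this)
  exact f0 (LinearMap.ext fun y => by rw [hS, hS0, zero_dotProduct, LinearMap.zero_apply])

end Vale.Agent.P296
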